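import Vale.Agent.FUSF.Exact

/-!
# P143 (b), comparison of the schemes
-/

open Set

namespace Vale.Agent.FUSF

namespace AnaA

theorem tau_spec {θ h σ y : ℝ} (hθ : 0 ≤ θ) (hh : 0 ≤ h) (hθh : θ + h ≤ 1 / 2) (hσ : |σ| ≤ 1)
    (hy : y ∈ Icc (0 : ℝ) 1) :
    tau θ h σ y ∈ Icc (0 : ℝ) 1 ∧ Fd ((θ + h) * σ) (tau θ h σ y) = Fd (θ * σ) y := by
  have h1 : |θ * σ| < 1 := by
    rw [abs_mul, abs_of_nonneg hθ]; nlinarith [abs_nonneg σ]
  have h2 : |(θ + h) * σ| < 1 := by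
    rw [abs_mul, abs_of_nonneg (add_nonneg hθ hh)]; nlinarith [abs_nonneg σ]
  exact ⟨Finv_mem h2 (Fd_mem h1 hy), Fd_Finv h2 (Fd_mem h1 hy)⟩

theorem tau_mem {θ h σ y : ℝ} (hθ : 0 ≤ θ) (hh : 0 ≤ h) (hθh : θ + h ≤ 1 / 2) (hσ : |σ| ≤ 1)
    (hy : y ∈ Icc (0 : ℝ) 1) : tau θ h σ y ∈ Icc (0 : ℝ) 1 := (tau_spec hθ hh hθh hσ hy).1

theorem tau_add {θ h h' σ y : ℝ} (hθ : 0 ≤ θ) (hh : 0 ≤ h) (hθh : θ + h ≤ 1 / 2) (hσ : |σ| ≤ 1)
    (hy : y ∈ Icc (0 : ℝ) 1) :
    tau (θ + h) h' σ (tau θ h σ y) = tau θ (h + h') σ y := by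
  have h1 : tau (θ + h) h' σ (tau θ h σ y) =
      Finv ((θ + h + h') * σ) (Fd ((θ + h) * σ) (tau θ h σ y)) := rfl
  rw [h1, (tau_spec hθ hh hθh hσ hy).2, add_assoc]
  rfl

theorem mul_one_sub_bound {y : ℝ} (hy : y ∈ Icc (0 : ℝ) 1) :
    0 ≤ y * (1 - y) ∧ y * (1 - y) ≤ 1 / 4 := by
  obtain ⟨h0, h1⟩ := hy
  exact ⟨mul_nonneg h0 (by linarith), by nlinarith [sq_nonneg (2 * y - 1)]⟩

theorem tau_step {θ h σ y : ℝ} (hθ : 0 ≤ θ) (hh : 0 ≤ h) (hθh : θ + h ≤ 1 / 2) (hσ : |σ| ≤ 1)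
    (hy : y ∈ Icc (0 : ℝ) 1) : |tau θ h σ y - y| ≤ h / 2 := by
  obtain ⟨hz, e⟩ := tau_spec hθ hh hθh hσ hy
  set z := tau θ h σ y
  rw [Fd_eq, Fd_eq] at e
  have key : (z - y) * (1 + (θ + h) * σ * (y + z - 1)) = h * σ * (y * (1 - y)) := by linarith
  have hs : |(θ + h) * σ * (y + z - 1)| ≤ 1 / 2 := by
    rw [abs_mul, abs_mul, abs_of_nonneg (add_nonneg hθ hh)]
    have h3 : |y + z - 1| ≤ 1 := abs_le.2 ⟨by linarith [hy.1, hz.1], by linarith [hy.2, hz.2]⟩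
    calc (θ + h) * |σ| * |y + z - 1| ≤ (1 / 2) * 1 * 1 := by gcongr
      _ = 1 / 2 := by norm_num
  have hD : 1 / 2 ≤ 1 + (θ + h) * σ * (y + z - 1) := by linarith [(abs_le.1 hs).1]
  have h4 : |z - y| * (1 + (θ + h) * σ * (y + z - 1)) ≤ h * (1 / 4) := by
    rw [← abs_of_nonneg (show (0 : ℝ) ≤ 1 + (θ + h) * σ * (y + z - 1) by linarith), ← abs_mul,
      key, abs_mul, abs_mul, abs_of_nonneg hh, abs_of_nonneg (mul_one_sub_bound hy).1]
    calc h * |σ| * (y * (1 - y)) ≤ h * 1 * (1 / 4) :=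
          mul_le_mul (mul_le_mul_of_nonneg_left hσ hh) (mul_one_sub_bound hy).2
            (mul_one_sub_bound hy).1 (by linarith)
      _ = h * (1 / 4) := by ring
  nlinarith [abs_nonneg (z - y)]

theorem tau_lip {θ h σ σ' y y' : ℝ} (hθ : 0 ≤ θ) (hh : 0 ≤ h) (hθh : θ + h ≤ 1 / 2)
    (hσ : |σ| ≤ 1) (hσ' : |σ'| ≤ 1) (hy : y ∈ Icc (0 : ℝ) 1) (hy' : y' ∈ Icc (0 : ℝ) 1) :
    |tau θ h σ y - tau θ h σ' y'| ≤ |y - y'| + 4 * h * (|σ - σ'| + |y - y'|) := by
  obtain ⟨hz, e⟩ := tau_spec hθ hh hθh hσ hy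
  obtain ⟨hz', e'⟩ := tau_spec hθ hh hθh hσ' hy'
  have st' := tau_step hθ hh hθh hσ' hy'
  set z := tau θ h σ y
  set z' := tau θ h σ' y'
  rw [Fd_eq, Fd_eq] at e e'
  have key : (z - y) * (1 + (θ + h) * σ * (y + z - 1)) = h * σ * (y * (1 - y)) := by linarith
  have key' : (z' - y') * (1 + (θ + h) * σ' * (y' + z' - 1)) = h * σ' * (y' * (1 - y')) := by
    linarith
  have hs : |(θ + h) * σ * (y + z - 1)| ≤ 1 / 2 := by
    rw [abs_mul, abs_mul, abs_of_nonneg (add_nonneg hθ hh)]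
    have h3 : |y + z - 1| ≤ 1 := abs_le.2 ⟨by linarith [hy.1, hz.1], by linarith [hy.2, hz.2]⟩
    calc (θ + h) * |σ| * |y + z - 1| ≤ (1 / 2) * 1 * 1 := by gcongr
      _ = 1 / 2 := by norm_num
  have hD : 1 / 2 ≤ 1 + (θ + h) * σ * (y + z - 1) := by linarith [(abs_le.1 hs).1]
  set a := |σ - σ'|
  set b := |y - y'|
  set d := |(z - y) - (z' - y')|
  have ha : 0 ≤ a := abs_nonneg _
  have hb : 0 ≤ b := abs_nonneg _
  have hd : 0 ≤ d := abs_nonneg _
  -- difference of the denominators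
  have h5 : |(θ + h) * σ * (y + z - 1) - (θ + h) * σ' * (y' + z' - 1)| ≤
      1 / 2 * a + 1 / 2 * (2 * b + d) := by
    have e1 : (θ + h) * σ * (y + z - 1) - (θ + h) * σ' * (y' + z' - 1) =
        (θ + h) * (σ - σ') * (y + z - 1) +
          (θ + h) * σ' * (2 * (y - y') + ((z - y) - (z' - y'))) := by ring
    rw [e1]
    refine (abs_add_le _ _).trans ?_
    have h3 : |y + z - 1| ≤ 1 := abs_le.2 ⟨by linarith [hy.1, hz.1], by linarith [hy.2, hz.2]⟩
    have h6 : |(θ + h) * (σ - σ') * (y + z - 1)| ≤ 1 / 2 * a := by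
      rw [abs_mul, abs_mul, abs_of_nonneg (add_nonneg hθ hh)]
      calc (θ + h) * |σ - σ'| * |y + z - 1| ≤ 1 / 2 * |σ - σ'| * 1 := by gcongr
        _ = 1 / 2 * a := by rw [mul_one]
    have h7 : |(θ + h) * σ' * (2 * (y - y') + ((z - y) - (z' - y')))| ≤
        1 / 2 * (2 * b + d) := by
      rw [abs_mul, abs_mul, abs_of_nonneg (add_nonneg hθ hh)]
      have h8 : |2 * (y - y') + ((z - y) - (z' - y'))| ≤ 2 * b + d := by
        refine (abs_add_le _ _).trans ?_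
        rw [abs_mul, abs_two]
      calc (θ + h) * |σ'| * |2 * (y - y') + ((z - y) - (z' - y'))|
          ≤ 1 / 2 * 1 * (2 * b + d) := by gcongr
        _ = 1 / 2 * (2 * b + d) := by ring
    linarith
  -- difference of the right hand sides
  have h9 : |h * σ * (y * (1 - y)) - h * σ' * (y' * (1 - y'))| ≤ h * (1 / 4 * a + b) := by
    have e1 : h * σ * (y * (1 - y)) - h * σ' * (y' * (1 - y')) =
        h * ((σ - σ') * (y * (1 - y)) + σ' * (y - y') * (1 - y - y')) := by ring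
    rw [e1, abs_mul, abs_of_nonneg hh]
    apply mul_le_mul_of_nonneg_left _ hh
    refine (abs_add_le _ _).trans ?_
    have h6 : |(σ - σ') * (y * (1 - y))| ≤ 1 / 4 * a := by
      rw [abs_mul, abs_of_nonneg (mul_one_sub_bound hy).1, mul_comm]
      exact mul_le_mul_of_nonneg_right (mul_one_sub_bound hy).2 ha
    have h7 : |σ' * (y - y') * (1 - y - y')| ≤ b := by
      rw [abs_mul, abs_mul]
      have h3 : |1 - y - y'| ≤ 1 :=
        abs_le.2 ⟨by linarith [hy.2, hy'.2], by linarith [hy.1, hy'.1]⟩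
      calc |σ'| * |y - y'| * |1 - y - y'| ≤ 1 * |y - y'| * 1 := by gcongr
        _ = b := by rw [one_mul, mul_one]
    linarith
  have h10 : ((z - y) - (z' - y')) * (1 + (θ + h) * σ * (y + z - 1)) =
      (h * σ * (y * (1 - y)) - h * σ' * (y' * (1 - y'))) -
        (z' - y') * ((θ + h) * σ * (y + z - 1) - (θ + h) * σ' * (y' + z' - 1)) := by
    rw [← key, ← key']; ring
  have h11 : d * (1 / 2) ≤ h * (1 / 4 * a + b) + h / 2 * (1 / 2 * a + 1 / 2 * (2 * b + d)) := by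
    calc d * (1 / 2) ≤ d * (1 + (θ + h) * σ * (y + z - 1)) :=
          mul_le_mul_of_nonneg_left hD hd
      _ = |((z - y) - (z' - y')) * (1 + (θ + h) * σ * (y + z - 1))| := by
          rw [abs_mul, abs_of_nonneg (show (0 : ℝ) ≤ 1 + (θ + h) * σ * (y + z - 1) by linarith)]
      _ ≤ |h * σ * (y * (1 - y)) - h * σ' * (y' * (1 - y'))| +
          |(z' - y') * ((θ + h) * σ * (y + z - 1) - (θ + h) * σ' * (y' + z' - 1))| := by
          rw [h10]; exact abs_sub _ _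
      _ ≤ h * (1 / 4 * a + b) + h / 2 * (1 / 2 * a + 1 / 2 * (2 * b + d)) := by
          rw [abs_mul (z' - y')]
          gcongr
  have hh2 : h ≤ 1 / 2 := by linarith
  have h12 : d ≤ 4 * h * (a + b) := by
    have h13 : h * d ≤ 1 / 2 * d := mul_le_mul_of_nonneg_right hh2 hd
    nlinarith [mul_nonneg hh ha, mul_nonneg hh hb]
  calc |z - z'| = |((z - y) - (z' - y')) + (y - y')| := by ring_nf
    _ ≤ d + b := abs_add_le _ _
    _ ≤ b + 4 * h * (a + b) := by linarith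

theorem lr_le {θ θ' y y' : ℝ} (hθ : |θ| ≤ 1 / 2) (hθ' : |θ'| ≤ 1 / 2) (hy : y ∈ Icc (0 : ℝ) 1)
    (hy' : y' ∈ Icc (0 : ℝ) 1) :
    lr θ y ≤ Real.exp (4 * (|θ - θ'| + |y - y'|)) * lr θ' y' := by
  have hY : |2 * y - 1| ≤ 1 := abs_le.2 ⟨by linarith [hy.1], by linarith [hy.2]⟩
  have hY' : |2 * y' - 1| ≤ 1 := abs_le.2 ⟨by linarith [hy'.1], by linarith [hy'.2]⟩
  have hx : |θ * (2 * y - 1)| ≤ 1 / 2 := by
    rw [abs_mul]; nlinarith [abs_nonneg θ, abs_nonneg (2 * y - 1)]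
  have hx' : |θ' * (2 * y' - 1)| ≤ 1 / 2 := by
    rw [abs_mul]; nlinarith [abs_nonneg θ', abs_nonneg (2 * y' - 1)]
  have hd : |θ * (2 * y - 1) - θ' * (2 * y' - 1)| ≤ |θ - θ'| + |y - y'| := by
    have e : θ * (2 * y - 1) - θ' * (2 * y' - 1) =
        (θ - θ') * (2 * y - 1) + θ' * (2 * (y - y')) := by ring
    rw [e]
    refine (abs_add_le _ _).trans ?_
    rw [abs_mul, abs_mul, abs_mul, abs_two]
    nlinarith [abs_nonneg (θ - θ'), abs_nonneg (y - y'), abs_nonneg (2 * y - 1),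
      abs_nonneg θ']
  unfold lr
  set x := θ * (2 * y - 1)
  set x' := θ' * (2 * y' - 1)
  set t := |θ - θ'| + |y - y'|
  obtain ⟨hx1, hx2⟩ := abs_le.1 hx
  obtain ⟨hx3, hx4⟩ := abs_le.1 hx'
  obtain ⟨hd1, hd2⟩ := abs_le.1 hd
  have ht : 0 ≤ t := by positivity
  have e1 : 1 + x ≤ Real.exp (2 * t) * (1 + x') := by
    have := Real.add_one_le_exp (2 * t)
    nlinarith
  have e2 : 1 - x' ≤ Real.exp (2 * t) * (1 - x) := by
    have := Real.add_one_le_exp (2 * t)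
    nlinarith
  rw [div_le_iff₀ (by linarith)]
  have e3 : Real.exp (4 * t) = Real.exp (2 * t) * Real.exp (2 * t) := by
    rw [← Real.exp_add]; ring_nf
  rw [e3]
  have h1 : 0 < 1 - x := by linarith
  have h2 : 0 < 1 - x' := by linarith
  have h3 : 0 < 1 + x' := by linarith
  have h4 : (1 + x) * (1 - x') ≤
      (Real.exp (2 * t) * (1 + x')) * (Real.exp (2 * t) * (1 - x)) :=
    mul_le_mul e1 e2 h2.le (by positivity)
  have h5 : Real.exp (2 * t) * Real.exp (2 * t) * ((1 + x') / (1 - x')) * (1 - x) =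
      (Real.exp (2 * t) * (1 + x')) * (Real.exp (2 * t) * (1 - x)) / (1 - x') := by
    field_simp
  rw [h5, le_div_iff₀ h2]
  exact h4

variable {E : Type*} [DecidableEq E]

omit [DecidableEq E] in
theorem M_lip {M : (E → ℝ) → E → ℝ} (hM : Admissible M) {c c' : E → ℝ} (hc : ∀ f, 0 < c f)
    (hc' : ∀ f, 0 < c' f) {a : ℝ} (ha : 0 ≤ a) (h1 : ∀ f, c f ≤ Real.exp a * c' f)
    (h2 : ∀ f, c' f ≤ Real.exp a * c f) (e : E) : |M c e - M c' e| ≤ 4 * a := by
  have hκ : 1 ≤ Real.exp a := Real.one_le_exp ha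
  have l1 := hM.lip (Real.exp a) c c' hκ hc hc' h2 h1 e
  have l2 := hM.lip (Real.exp a) c' c hκ hc' hc h1 h2 e
  have n1 := hM.nonneg c hc e
  have n2 := hM.nonneg c' hc' e
  have o1 := hM.le_one c hc e
  have o2 := hM.le_one c' hc' e
  by_cases h : 1 / 4 ≤ a
  · rw [abs_le]; constructor <;> linarith
  · push Not at h
    have e2 : Real.exp a ^ 2 - 1 ≤ 4 * a := by
      rw [← Real.exp_nat_mul]
      have hx : |(2 : ℝ) * a| ≤ 1 := by rw [abs_of_nonneg (by positivity)]; linarith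
      have := Real.abs_exp_sub_one_sub_id_le hx
      have h3 := (abs_le.1 this).2
      push_cast
      nlinarith
    have e0 : 0 ≤ Real.exp a ^ 2 - 1 := by nlinarith
    rw [abs_le]
    constructor
    · nlinarith
    · nlinarith

theorem sig_abs {M : (E → ℝ) → E → ℝ} (hM : Admissible M) {c Θ y : E → ℝ} (hc : ∀ f, 0 < c f)
    (hΘ : ∀ f, |Θ f| ≤ 1 / 2) (hy : ∀ f, y f ∈ Icc (0 : ℝ) 1) (f : E) :
    |sig M c Θ y f| ≤ 1 := by
  have hpos : ∀ g, 0 < ctil c Θ y f g := by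
    intro g
    unfold ctil
    split_ifs
    · exact hc g
    · exact mul_pos (hc g) (lr_pos (hΘ g) (hy g))
  have n1 := hM.nonneg _ hpos f
  have o1 := hM.le_one _ hpos f
  unfold sig
  rw [abs_le]; constructor <;> linarith

theorem sig_lip {M : (E → ℝ) → E → ℝ} (hM : Admissible M) {S : Set E} {f : E}
    (hS : ∀ c c' : E → ℝ, (∀ g ∈ S, c g = c' g) → M c f = M c' f)
    {c c' Θ Θ' y y' : E → ℝ} (hc : ∀ f, 0 < c f) (hc' : ∀ f, 0 < c' f)
    (hΘ : ∀ f, |Θ f| ≤ 1 / 2) (hΘ' : ∀ f, |Θ' f| ≤ 1 / 2)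
    (hy : ∀ f, y f ∈ Icc (0 : ℝ) 1) (hy' : ∀ f, y' f ∈ Icc (0 : ℝ) 1) {δ D η : ℝ}
    (hδ : 0 ≤ δ) (hD : 0 ≤ D) (hη : 0 ≤ η) (h1 : ∀ g ∈ S, c g ≤ Real.exp δ * c' g)
    (h2 : ∀ g ∈ S, c' g ≤ Real.exp δ * c g) (h3 : ∀ g ∈ S, |y g - y' g| ≤ D)
    (h4 : ∀ g ∈ S, |Θ g - Θ' g| ≤ η) :
    |sig M c Θ y f - sig M c' Θ' y' f| ≤ 8 * δ + 32 * (D + η) := by
  classical
  have aux : ∀ {c c' Θ Θ' y y' : E → ℝ}, (∀ f, 0 < c f) → (∀ f, 0 < c' f) →
      (∀ f, |Θ f| ≤ 1 / 2) → (∀ f, |Θ' f| ≤ 1 / 2) →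
      (∀ f, y f ∈ Icc (0 : ℝ) 1) → (∀ f, y' f ∈ Icc (0 : ℝ) 1) →
      (∀ g ∈ S, c g ≤ Real.exp δ * c' g) → (∀ g ∈ S, |y g - y' g| ≤ D) →
      (∀ g ∈ S, |Θ g - Θ' g| ≤ η) →
      ∀ g ∈ S, ctil c Θ y f g ≤ Real.exp (δ + 4 * (D + η)) * ctil c' Θ' y' f g := by
    intro c c' Θ Θ' y y' hc hc' hΘ hΘ' hy hy' h1 h3 h4 g hg
    unfold ctil
    split_ifs with hgf
    · refine (h1 g hg).trans ?_
      apply mul_le_mul_of_nonneg_right _ (hc' g).le
      apply Real.exp_le_exp.2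
      linarith [add_nonneg hD hη]
    · have l1 := lr_le (hΘ g) (hΘ' g) (hy g) (hy' g)
      have p1 := lr_pos (hΘ g) (hy g)
      have p2 := lr_pos (hΘ' g) (hy' g)
      have l2 : lr (Θ g) (y g) ≤ Real.exp (4 * (D + η)) * lr (Θ' g) (y' g) := by
        refine l1.trans ?_
        apply mul_le_mul_of_nonneg_right _ p2.le
        apply Real.exp_le_exp.2
        have := h3 g hg
        have := h4 g hg
        linarith
      calc c g * lr (Θ g) (y g) ≤ (Real.exp δ * c' g) * (Real.exp (4 * (D + η)) *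
            lr (Θ' g) (y' g)) := mul_le_mul (h1 g hg) l2 p1.le
              (mul_nonneg (Real.exp_pos _).le (hc' g).le)
        _ = Real.exp (δ + 4 * (D + η)) * (c' g * lr (Θ' g) (y' g)) := by
            rw [Real.exp_add]; ring
  have pos : ∀ {c Θ y : E → ℝ}, (∀ f, 0 < c f) → (∀ f, |Θ f| ≤ 1 / 2) →
      (∀ f, y f ∈ Icc (0 : ℝ) 1) → ∀ g, 0 < ctil c Θ y f g := by
    intro c Θ y hc hΘ hy g
    unfold ctil
    split_ifs
    · exact hc g
    · exact mul_pos (hc g) (lr_pos (hΘ g) (hy g))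
  have P1 := pos hc hΘ hy
  have P2 := pos hc' hΘ' hy'
  have A1 := aux hc hc' hΘ hΘ' hy hy' h1 h3 h4
  have A2 := aux hc' hc hΘ' hΘ hy' hy h2 (fun g hg => by rw [abs_sub_comm]; exact h3 g hg)
    (fun g hg => by rw [abs_sub_comm]; exact h4 g hg)
  set C1 := ctil c Θ y f
  set C2 := ctil c' Θ' y' f
  set a := δ + 4 * (D + η)
  have ha : 0 ≤ a := by positivity
  have hM2 : M C2 f = M (fun g => if g ∈ S then C2 g else C1 g) f := by
    apply hS
    intro g hg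
    rw [if_pos hg]
  have hle : ∀ g, C1 g ≤ Real.exp a * C1 g := by
    intro g
    have := Real.one_le_exp ha
    nlinarith [P1 g]
  have key := M_lip hM (c := C1) (c' := fun g => if g ∈ S then C2 g else C1 g) P1
    (fun g => by by_cases hg : g ∈ S <;> simp [hg, P1 g, P2 g]) ha
    (fun g => by
      by_cases hg : g ∈ S
      · simp only [hg, if_true]; exact A1 g hg
      · simp only [hg, if_false]; exact hle g)
    (fun g => by
      by_cases hg : g ∈ S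
      · simp only [hg, if_true]; exact A2 g hg
      · simp only [hg, if_false]; exact hle g) f
  rw [← hM2] at key
  unfold sig
  have e : 2 * M C1 f - 1 - (2 * M C2 f - 1) = 2 * (M C1 f - M C2 f) := by ring
  change |2 * M C1 f - 1 - (2 * M C2 f - 1)| ≤ _
  rw [e, abs_mul, abs_two]
  linarith

theorem parRound_mem {M : (E → ℝ) → E → ℝ} (hM : Admissible M) {c : E → ℝ} (hc : ∀ f, 0 < c f)
    {θ h : ℝ} (hθ : 0 ≤ θ) (hh : 0 ≤ h) (hθh : θ + h ≤ 1 / 2) {y : E → ℝ}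
    (hy : ∀ f, y f ∈ Icc (0 : ℝ) 1) (f : E) : parRound M c θ h y f ∈ Icc (0 : ℝ) 1 :=
  tau_mem hθ hh hθh
    (sig_abs hM hc (fun _ => by rw [abs_of_nonneg hθ]; linarith) hy f) (hy f)

theorem parIter_mem {M : (E → ℝ) → E → ℝ} (hM : Admissible M) {c : E → ℝ} (hc : ∀ f, 0 < c f)
    {h : ℝ} (hh : 0 ≤ h) {y : E → ℝ} (hy : ∀ f, y f ∈ Icc (0 : ℝ) 1) :
    ∀ j : ℕ, (j : ℝ) * h ≤ 1 / 2 → ∀ f, parIter M c h y j f ∈ Icc (0 : ℝ) 1 := by
  intro j
  induction j with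
  | zero => intro _ f; exact hy f
  | succ j ih =>
    intro hj f
    push_cast at hj
    have hj' : (j : ℝ) * h ≤ 1 / 2 := by nlinarith
    exact parRound_mem hM hc (by positivity) hh (by linarith) (ih hj') f

theorem parRound_close {M : (E → ℝ) → E → ℝ} (hM : Admissible M) {c c' : E → ℝ}
    (hc : ∀ f, 0 < c f) (hc' : ∀ f, 0 < c' f) {θ h δ D : ℝ} (hθ : 0 ≤ θ) (hh : 0 ≤ h)
    (hθh : θ + 2 * h ≤ 1 / 2) (hδ : 0 ≤ δ) (hD : 0 ≤ D)
    (h1 : ∀ g, c g ≤ Real.exp δ * c' g) (h2 : ∀ g, c' g ≤ Real.exp δ * c g) {y y' : E → ℝ}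
    (hy : ∀ f, y f ∈ Icc (0 : ℝ) 1) (hy' : ∀ f, y' f ∈ Icc (0 : ℝ) 1)
    (hyy : ∀ f, |y f - y' f| ≤ D) (f : E) :
    |parRound M c θ (2 * h) y f - parRound M c' (θ + h) h (parRound M c' θ h y') f| ≤
      D + 400 * h * (D + (h + δ)) := by
  have aθ : |θ| ≤ 1 / 2 := by rw [abs_of_nonneg hθ]; linarith
  have aθh : |θ + h| ≤ 1 / 2 := by rw [abs_of_nonneg (add_nonneg hθ hh)]; linarith
  have hθh' : θ + h ≤ 1 / 2 := by linarith
  have hh4 : h ≤ 1 / 4 := by linarith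
  have s1 := fun f => sig_abs hM hc (Θ := fun _ => θ) (fun _ => aθ) hy f
  have s2 := fun f => sig_abs hM hc' (Θ := fun _ => θ) (fun _ => aθ) hy' f
  have hw' : ∀ f, parRound M c' θ h y' f ∈ Icc (0 : ℝ) 1 :=
    parRound_mem hM hc' hθ hh hθh' hy'
  have s3 := sig_abs hM hc' (Θ := fun _ => θ + h) (fun _ => aθh) hw' f
  have d1 : |sig M c (fun _ => θ) y f - sig M c' (fun _ => θ) y' f| ≤ 8 * δ + 32 * (D + 0) :=
    sig_lip hM (S := univ) (fun a b hab => by rw [funext fun g => hab g trivial]) hc hc'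
      (fun _ => aθ) (fun _ => aθ) hy hy' hδ hD le_rfl (fun g _ => h1 g) (fun g _ => h2 g)
      (fun g _ => hyy g) (fun g _ => by simp)
  have d2 : |sig M c (fun _ => θ) y f - sig M c' (fun _ => θ + h) (parRound M c' θ h y') f| ≤
      8 * δ + 32 * ((D + h / 2) + h) := by
    apply sig_lip hM (S := univ) (fun a b hab => by rw [funext fun g => hab g trivial]) hc hc'
      (fun _ => aθ) (fun _ => aθh) hy hw' hδ (by positivity) hh (fun g _ => h1 g)
      (fun g _ => h2 g)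
    · intro g _
      have h5 : |parRound M c' θ h y' g - y' g| ≤ h / 2 := tau_step hθ hh hθh' (s2 g) (hy' g)
      calc |y g - parRound M c' θ h y' g| =
            |(y g - y' g) - (parRound M c' θ h y' g - y' g)| := by ring_nf
        _ ≤ |y g - y' g| + |parRound M c' θ h y' g - y' g| := abs_sub _ _
        _ ≤ D + h / 2 := add_le_add (hyy g) h5
    · intro g _
      rw [show θ - (θ + h) = -h by ring, abs_neg, abs_of_nonneg hh]
  have e1 : parRound M c θ (2 * h) y f =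
      tau (θ + h) h (sig M c (fun _ => θ) y f) (tau θ h (sig M c (fun _ => θ) y f) (y f)) := by
    rw [tau_add hθ hh hθh' (s1 f) (hy f), ← two_mul]
    rfl
  have e2 : parRound M c' (θ + h) h (parRound M c' θ h y') f =
      tau (θ + h) h (sig M c' (fun _ => θ + h) (parRound M c' θ h y') f)
        (parRound M c' θ h y' f) := rfl
  have hw : tau θ h (sig M c (fun _ => θ) y f) (y f) ∈ Icc (0 : ℝ) 1 :=
    tau_mem hθ hh hθh' (s1 f) (hy f)
  rw [e1, e2]
  have t1 : |tau θ h (sig M c (fun _ => θ) y f) (y f) - parRound M c' θ h y' f| ≤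
      |y f - y' f| + 4 * h * (|sig M c (fun _ => θ) y f - sig M c' (fun _ => θ) y' f| +
        |y f - y' f|) := tau_lip hθ hh hθh' (s1 f) (s2 f) (hy f) (hy' f)
  have t2 := tau_lip (θ := θ + h) (h := h) (add_nonneg hθ hh) hh (by linarith) (s1 f) s3 hw
    (hw' f)
  set W := |tau θ h (sig M c (fun _ => θ) y f) (y f) - parRound M c' θ h y' f|
  have hW : W ≤ D + 4 * h * (8 * δ + 32 * D + D) := by
    refine t1.trans ?_
    have := hyy f
    gcongr
    linarith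
  have hW2 : W ≤ 34 * D + 8 * δ := by
    have h7 : 4 * h * (8 * δ + 32 * D + D) ≤ 1 * (8 * δ + 32 * D + D) := by
      apply mul_le_mul_of_nonneg_right _ (by positivity)
      linarith
    linarith
  refine t2.trans ?_
  have h8 : 4 * h * (|sig M c (fun _ => θ) y f -
      sig M c' (fun _ => θ + h) (parRound M c' θ h y') f| + W) ≤
      4 * h * ((8 * δ + 32 * ((D + h / 2) + h)) + (34 * D + 8 * δ)) := by
    gcongr
  have p1 : 0 ≤ h * δ := mul_nonneg hh hδ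
  have p2 : 0 ≤ h * D := mul_nonneg hh hD
  have p3 : 0 ≤ h * h := mul_nonneg hh hh
  nlinarith

theorem parIter_close {M : (E → ℝ) → E → ℝ} (hM : Admissible M) {c c' : E → ℝ}
    (hc : ∀ f, 0 < c f) (hc' : ∀ f, 0 < c' f) {h δ : ℝ} (hh : 0 ≤ h) (hδ : 0 ≤ δ)
    (h1 : ∀ g, c g ≤ Real.exp δ * c' g) (h2 : ∀ g, c' g ≤ Real.exp δ * c g) {y : E → ℝ}
    (hy : ∀ f, y f ∈ Icc (0 : ℝ) 1) :
    ∀ j : ℕ, (j : ℝ) * (2 * h) ≤ 1 / 2 → ∀ f,
      |parIter M c (2 * h) y j f - parIter M c' h y (2 * j) f| ≤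
        (h + δ) * ((1 + 400 * h) ^ j - 1) := by
  intro j
  induction j with
  | zero => intro _ f; simp [parIter]
  | succ j ih =>
    intro hj f
    push_cast at hj
    have hj' : (j : ℝ) * (2 * h) ≤ 1 / 2 := by nlinarith
    have hD : 0 ≤ (h + δ) * ((1 + 400 * h) ^ j - 1) := by
      apply mul_nonneg (add_nonneg hh hδ)
      have : 1 ≤ (1 + 400 * h) ^ j := one_le_pow₀ (by linarith)
      linarith
    have m1 := parIter_mem hM hc (by positivity : 0 ≤ 2 * h) hy j hj'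
    have m2 := parIter_mem hM hc' hh hy (2 * j) (by push_cast; linarith)
    have key := parRound_close hM hc hc' (θ := j * (2 * h)) (by positivity) hh (by linarith)
      hδ hD h1 h2 m1 m2 (ih hj') f
    have e : parIter M c' h y (2 * (j + 1)) f =
        parRound M c' (j * (2 * h) + h) h (parRound M c' (j * (2 * h)) h
          (parIter M c' h y (2 * j))) f := by
      have e1 : (j : ℝ) * (2 * h) + h = ((2 * j + 1 : ℕ) : ℝ) * h := by push_cast; ring
      have e2 : (j : ℝ) * (2 * h) = ((2 * j : ℕ) : ℝ) * h := by push_cast; ring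
      rw [e1, e2]
      rfl
    have e' : parIter M c (2 * h) y (j + 1) f =
        parRound M c (j * (2 * h)) (2 * h) (parIter M c (2 * h) y j) f := rfl
    rw [e, e']
    refine key.trans (le_of_eq ?_)
    ring

theorem pow_le {K h : ℝ} (hK : 0 ≤ K) (hh : 0 ≤ h) (J : ℕ) :
    (1 + K * h) ^ J ≤ Real.exp (K * (J * h)) := by
  have h1 : 1 + K * h ≤ Real.exp (K * h) := by
    have := Real.add_one_le_exp (K * h); linarith
  calc (1 + K * h) ^ J ≤ Real.exp (K * h) ^ J :=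
        pow_le_pow_left₀ (by positivity) h1 J
    _ = Real.exp (K * (J * h)) := by rw [← Real.exp_nat_mul]; ring_nf

theorem stage_par {M : (E → ℝ) → E → ℝ} (hM : Admissible M) {c c' : E → ℝ}
    (hc : ∀ f, 0 < c f) (hc' : ∀ f, 0 < c' f) {C : ℝ} {J : ℕ} (hJ : 1 ≤ J) (hC : 0 ≤ C)
    (h1 : ∀ g, c g ≤ Real.exp (C / J) * c' g) (h2 : ∀ g, c' g ≤ Real.exp (C / J) * c g)
    {y : E → ℝ} (hy : ∀ f, y f ∈ Icc (0 : ℝ) 1) (f : E) :
    |parIter M c (1 / (2 * J)) y J f - parIter M c' (1 / (2 * ((2 * J : ℕ) : ℝ))) y (2 * J) f| ≤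
      (1 + C) * Real.exp 100 / J := by
  have hJ0 : (0 : ℝ) < J := by exact_mod_cast hJ
  set h : ℝ := 1 / (4 * J) with hh
  have hh0 : 0 ≤ h := by positivity
  have e1 : (1 : ℝ) / (2 * J) = 2 * h := by rw [hh]; field_simp; norm_num
  have e2 : (1 : ℝ) / (2 * ((2 * J : ℕ) : ℝ)) = h := by
    rw [hh]; push_cast; congr 1; ring
  rw [e1, e2]
  have hJh : (J : ℝ) * h = 1 / 4 := by rw [hh]; field_simp
  have key := parIter_close hM hc hc' hh0 (δ := C / J) (by positivity) h1 h2 hy J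
    (by linarith) f
  refine key.trans ?_
  have p := pow_le (K := 400) (by norm_num) hh0 J
  rw [hJh] at p
  have p' : (1 + 400 * h) ^ J - 1 ≤ Real.exp 100 := by
    have : (400 : ℝ) * (1 / 4) = 100 := by norm_num
    rw [this] at p
    linarith
  have hle : h + C / J ≤ (1 + C) / J := by
    rw [hh, add_div]
    gcongr
    nlinarith
  calc (h + C / J) * ((1 + 400 * h) ^ J - 1) ≤ ((1 + C) / J) * Real.exp 100 := by
        apply mul_le_mul hle p' _ (by positivity)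
        have : 1 ≤ (1 + 400 * h) ^ J := one_le_pow₀ (by linarith)
        linarith
    _ = (1 + C) * Real.exp 100 / J := by ring

omit [DecidableEq E] in
theorem con_step {c c' z z' : E → ℝ} {a b : ℝ} (hc' : ∀ f, 0 < c' f)
    (hz : ∀ f, z f ∈ Icc (0 : ℝ) 1) (hz' : ∀ f, z' f ∈ Icc (0 : ℝ) 1) {f : E}
    (h1 : c f ≤ Real.exp a * c' f) (h3 : |z f - z' f| ≤ b) :
    c f * lr (1 / 2) (z f) ≤ Real.exp (a + 4 * b) * (c' f * lr (1 / 2) (z' f)) := by
  have hh : |(1 / 2 : ℝ)| ≤ 1 / 2 := by rw [abs_of_pos (by norm_num)]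
  have l1 := lr_le hh hh (hz f) (hz' f)
  have p1 := lr_pos hh (hz f)
  have p2 := lr_pos hh (hz' f)
  have l2 : lr (1 / 2) (z f) ≤ Real.exp (4 * b) * lr (1 / 2) (z' f) := by
    refine l1.trans ?_
    apply mul_le_mul_of_nonneg_right _ p2.le
    apply Real.exp_le_exp.2
    rw [sub_self, abs_zero]
    linarith
  calc c f * lr (1 / 2) (z f) ≤ (Real.exp a * c' f) * (Real.exp (4 * b) * lr (1 / 2) (z' f)) :=
        mul_le_mul h1 l2 p1.le (mul_nonneg (Real.exp_pos _).le (hc' f).le)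
    _ = Real.exp (a + 4 * b) * (c' f * lr (1 / 2) (z' f)) := by rw [Real.exp_add]; ring

theorem half_step_le {J : ℕ} (hJ : 1 ≤ J) : (J : ℝ) * (1 / (2 * J)) ≤ 1 / 2 := by
  have hJ0 : (0 : ℝ) < J := by exact_mod_cast hJ
  field_simp
  exact le_rfl

theorem parCon_pos {M : (E → ℝ) → E → ℝ} (hM : Admissible M) {J : ℕ} (hJ : 1 ≤ J)
    {U : ℕ × E → ℝ} (hU : ∀ p, U p ∈ Icc (0 : ℝ) 1) (k : ℕ) : ∀ f, 0 < parCon M J U k f := by
  induction k with
  | zero => intro f; simp [parCon]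
  | succ k ih =>
    intro f
    exact mul_pos (ih f) (lr_pos (by rw [abs_of_pos (by norm_num)])
      (parIter_mem hM ih (by positivity) (fun e => hU (k, e)) J (half_step_le hJ) f))

theorem con_par (k : ℕ) : ∃ C : ℝ, 0 ≤ C ∧
    ∀ (M : (E → ℝ) → E → ℝ) (J : ℕ) (U : ℕ × E → ℝ),
      Admissible M → 1 ≤ J → (∀ p, U p ∈ Icc (0 : ℝ) 1) →
      ∀ f, parCon M J U k f ≤ Real.exp (C / J) * parCon M (2 * J) U k f ∧
        parCon M (2 * J) U k f ≤ Real.exp (C / J) * parCon M J U k f := by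
  induction k with
  | zero => exact ⟨0, le_rfl, fun M J U _ _ _ f => by simp [parCon]⟩
  | succ k ih =>
    obtain ⟨C, hC, H⟩ := ih
    refine ⟨C + 4 * ((1 + C) * Real.exp 100), by positivity, ?_⟩
    intro M J U hM hJ hU f
    have p1 := parCon_pos hM hJ hU k
    have p2 := parCon_pos hM (J := 2 * J) (by omega) hU k
    have key := stage_par hM p1 p2 hJ hC (fun g => (H M J U hM hJ hU g).1)
      (fun g => (H M J U hM hJ hU g).2) (fun e => hU (k, e)) f
    have m1 := parIter_mem hM p1 (h := 1 / (2 * J)) (by positivity) (fun e => hU (k, e)) J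
      (half_step_le hJ)
    have m2 := parIter_mem hM p2 (h := 1 / (2 * ((2 * J : ℕ) : ℝ))) (by positivity)
      (fun e => hU (k, e)) (2 * J) (half_step_le (by omega))
    have e : (C + 4 * ((1 + C) * Real.exp 100)) / J = C / J + 4 * ((1 + C) * Real.exp 100 / J) := by
      ring
    rw [e]
    refine ⟨con_step p2 m1 m2 (H M J U hM hJ hU f).1 key,
      con_step p1 m2 m1 (H M J U hM hJ hU f).2 ?_⟩
    rw [abs_sub_comm]
    exact key

theorem seqFold_close {M : (E → ℝ) → E → ℝ} (hM : Admissible M) {l₀ : List E}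
    (hS : ∀ c c' : E → ℝ, (∀ f ∈ l₀, c f = c' f) → ∀ f ∈ l₀, M c f = M c' f)
    {c c' : E → ℝ} (hc : ∀ f, 0 < c f) (hc' : ∀ f, 0 < c' f) {θ h δ D : ℝ} (hθ : 0 ≤ θ)
    (hh : 0 ≤ h) (hθh : θ + h ≤ 1 / 2) (hδ : 0 ≤ δ) (hD : 0 ≤ D)
    (h1 : ∀ g ∈ l₀, c g ≤ Real.exp δ * c' g) (h2 : ∀ g ∈ l₀, c' g ≤ Real.exp δ * c g)
    {y y' : E → ℝ} (hy : ∀ f, y f ∈ Icc (0 : ℝ) 1) (hyy : ∀ f ∈ l₀, |y f - y' f| ≤ D)
    (l : List E) : ∀ s : (E → ℝ) × (E → ℝ), l.Nodup → (∀ g ∈ l, g ∈ l₀) →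
      (∀ g, 0 ≤ s.1 g ∧ s.1 g ≤ θ + h) → (∀ g ∈ l₀, θ ≤ s.1 g) →
      (∀ g, s.2 g ∈ Icc (0 : ℝ) 1) → (∀ g ∈ l₀, |s.2 g - y' g| ≤ h / 2) →
      (∀ g ∈ l, s.1 g = θ ∧ s.2 g = y' g) →
      (∀ g ∈ l₀, g ∉ l → |parRound M c θ h y g - s.2 g| ≤ D + 256 * h * (D + (h + δ))) →
      (∀ g ∈ l₀, |parRound M c θ h y g - (l.foldl (seqUpd M c' h) s).2 g| ≤
        D + 256 * h * (D + (h + δ))) ∧
      ∀ g, (l.foldl (seqUpd M c' h) s).2 g ∈ Icc (0 : ℝ) 1 := by
  induction l with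
  | nil =>
    intro s _ _ _ _ i5 _ _ i8
    exact ⟨fun g hg => i8 g hg (by simp), i5⟩
  | cons f l ih =>
    intro s i1 i2 i3 i4 i5 i6 i7 i8
    rw [List.nodup_cons] at i1
    have hf0 : f ∈ l₀ := i2 f List.mem_cons_self
    obtain ⟨sf1, sf2⟩ := i7 f List.mem_cons_self
    have aθ : |θ| ≤ 1 / 2 := by rw [abs_of_nonneg hθ]; linarith
    have as : ∀ g, |s.1 g| ≤ 1 / 2 := fun g => by
      rw [abs_of_nonneg (i3 g).1]; linarith [(i3 g).2]
    have s1 := sig_abs hM hc (Θ := fun _ => θ) (fun _ => aθ) hy f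
    have s2 := sig_abs hM hc' as i5 f
    have d1 : |sig M c (fun _ => θ) y f - sig M c' s.1 s.2 f| ≤
        8 * δ + 32 * ((D + h / 2) + h) := by
      apply sig_lip hM (S := {g | g ∈ l₀}) (fun a b hab => hS a b hab f hf0) hc hc'
        (fun _ => aθ) as hy i5 hδ (by positivity) hh h1 h2
      · intro g hg
        calc |y g - s.2 g| = |(y g - y' g) - (s.2 g - y' g)| := by ring_nf
          _ ≤ |y g - y' g| + |s.2 g - y' g| := abs_sub _ _
          _ ≤ D + h / 2 := add_le_add (hyy g hg) (i6 g hg)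
      · intro g hg
        rw [abs_sub_comm, abs_of_nonneg (by linarith [i4 g hg])]
        linarith [(i3 g).2]
    have yf' : y' f ∈ Icc (0 : ℝ) 1 := sf2 ▸ i5 f
    have t1 : |parRound M c θ h y f - tau θ h (sig M c' s.1 s.2 f) (y' f)| ≤
        |y f - y' f| + 4 * h * (|sig M c (fun _ => θ) y f - sig M c' s.1 s.2 f| +
          |y f - y' f|) := tau_lip hθ hh hθh s1 s2 (hy f) yf'
    have t2 : |parRound M c θ h y f - tau θ h (sig M c' s.1 s.2 f) (y' f)| ≤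
        D + 256 * h * (D + (h + δ)) := by
      refine t1.trans ?_
      have h8 : |y f - y' f| + 4 * h * (|sig M c (fun _ => θ) y f - sig M c' s.1 s.2 f| +
          |y f - y' f|) ≤ D + 4 * h * ((8 * δ + 32 * ((D + h / 2) + h)) + D) := by
        have := hyy f hf0
        gcongr
      have p1 : 0 ≤ h * δ := mul_nonneg hh hδ
      have p2 : 0 ≤ h * D := mul_nonneg hh hD
      have p3 : 0 ≤ h * h := mul_nonneg hh hh
      nlinarith
    have t3 : |tau θ h (sig M c' s.1 s.2 f) (y' f) - y' f| ≤ h / 2 := tau_step hθ hh hθh s2 yf'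
    have t4 : tau θ h (sig M c' s.1 s.2 f) (y' f) ∈ Icc (0 : ℝ) 1 := tau_mem hθ hh hθh s2 yf'
    have us : seqUpd M c' h s f = (Function.update s.1 f (θ + h),
        Function.update s.2 f (tau θ h (sig M c' s.1 s.2 f) (y' f))) := by
      unfold seqUpd
      rw [sf1, sf2]
    rw [List.foldl_cons, us]
    apply ih
    · exact i1.2
    · intro g hg; exact i2 g (List.mem_cons_of_mem _ hg)
    · intro g
      by_cases hg : g = f
      · subst hg; simp only [Function.update_self]; exact ⟨add_nonneg hθ hh, le_rfl⟩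
      · simp only [Function.update_of_ne hg]; exact i3 g
    · intro g hg0
      by_cases hg : g = f
      · subst hg; simp only [Function.update_self]; linarith
      · simp only [Function.update_of_ne hg]; exact i4 g hg0
    · intro g
      by_cases hg : g = f
      · subst hg; simp only [Function.update_self]; exact t4
      · simp only [Function.update_of_ne hg]; exact i5 g
    · intro g hg0
      by_cases hg : g = f
      · subst hg; simp only [Function.update_self]; exact t3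
      · simp only [Function.update_of_ne hg]; exact i6 g hg0
    · intro g hgl
      have hg : g ≠ f := by rintro rfl; exact i1.1 hgl
      simp only [Function.update_of_ne hg]
      exact i7 g (List.mem_cons_of_mem _ hgl)
    · intro g hg0 hgl
      by_cases hg : g = f
      · subst hg; simp only [Function.update_self]; exact t2
      · simp only [Function.update_of_ne hg]
        exact i8 g hg0 (by simp [hg, hgl])

theorem seqIter_close {M : (E → ℝ) → E → ℝ} (hM : Admissible M) {l : List E} (hl : l.Nodup)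
    (hS : ∀ c c' : E → ℝ, (∀ f ∈ l, c f = c' f) → ∀ f ∈ l, M c f = M c' f)
    {c c' : E → ℝ} (hc : ∀ f, 0 < c f) (hc' : ∀ f, 0 < c' f) {h δ : ℝ}
    (hh : 0 ≤ h) (hδ : 0 ≤ δ)
    (h1 : ∀ g ∈ l, c g ≤ Real.exp δ * c' g) (h2 : ∀ g ∈ l, c' g ≤ Real.exp δ * c g)
    {y : E → ℝ} (hy : ∀ f, y f ∈ Icc (0 : ℝ) 1) :
    ∀ j : ℕ, (j : ℝ) * h ≤ 1 / 2 →
      (∀ f ∈ l, |parIter M c h y j f - (seqIter M c' h l y j).2 f| ≤
        (h + δ) * ((1 + 256 * h) ^ j - 1)) ∧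
      ∀ f, (seqIter M c' h l y j).2 f ∈ Icc (0 : ℝ) 1 := by
  intro j
  induction j with
  | zero => intro _; exact ⟨fun f _ => by simp [parIter, seqIter], fun f => hy f⟩
  | succ j ih =>
    intro hj
    push_cast at hj
    have hj' : (j : ℝ) * h ≤ 1 / 2 := by nlinarith
    have hD : 0 ≤ (h + δ) * ((1 + 256 * h) ^ j - 1) := by
      apply mul_nonneg (add_nonneg hh hδ)
      have : 1 ≤ (1 + 256 * h) ^ j := one_le_pow₀ (by linarith)
      linarith
    obtain ⟨ih1, ih2⟩ := ih hj'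
    have m1 := parIter_mem hM hc hh hy j hj'
    have hjh : 0 ≤ (j : ℝ) * h := by positivity
    have key := seqFold_close hM hS hc hc' (θ := j * h) hjh hh (by linarith)
      hδ hD h1 h2 m1 ih1 l (seqIter M c' h l y j) hl (fun _ h => h)
      (fun g => by
        rw [seqIter_fst M c' h l hl y j]
        dsimp only
        split_ifs
        · exact ⟨hjh, by linarith⟩
        · exact ⟨le_rfl, by linarith⟩)
      (fun g hg => by
        rw [seqIter_fst M c' h l hl y j]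
        simp only [hg, if_true]
        exact le_rfl)
      ih2 (fun g _ => by rw [sub_self, abs_zero]; linarith)
      (fun g hg => by
        rw [seqIter_fst M c' h l hl y j]
        simp only [hg, if_true]
        exact ⟨trivial, trivial⟩)
      (fun g hg hg' => absurd hg hg')
    refine ⟨fun f hf => ?_, key.2⟩
    refine (key.1 f hf).trans (le_of_eq ?_)
    ring

theorem stage_seq {M : (E → ℝ) → E → ℝ} (hM : Admissible M) {l : List E} (hl : l.Nodup)
    (hS : ∀ c c' : E → ℝ, (∀ f ∈ l, c f = c' f) → ∀ f ∈ l, M c f = M c' f)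
    {c c' : E → ℝ} (hc : ∀ f, 0 < c f) (hc' : ∀ f, 0 < c' f) {C : ℝ} {J : ℕ} (hJ : 1 ≤ J)
    (hC : 0 ≤ C) (h1 : ∀ g ∈ l, c g ≤ Real.exp (C / J) * c' g)
    (h2 : ∀ g ∈ l, c' g ≤ Real.exp (C / J) * c g)
    {y : E → ℝ} (hy : ∀ f, y f ∈ Icc (0 : ℝ) 1) :
    (∀ f ∈ l, |parIter M c (1 / (2 * J)) y J f - (seqIter M c' (1 / (2 * J)) l y J).2 f| ≤
      (1 + C) * Real.exp 128 / J) ∧
      ∀ f, (seqIter M c' (1 / (2 * J)) l y J).2 f ∈ Icc (0 : ℝ) 1 := by
  have hJ0 : (0 : ℝ) < J := by exact_mod_cast hJ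
  set h : ℝ := 1 / (2 * J) with hh
  have hh0 : 0 ≤ h := by positivity
  have hJh : (J : ℝ) * h = 1 / 2 := by rw [hh]; field_simp
  have key := seqIter_close hM hl hS hc hc' hh0 (δ := C / J) (by positivity) h1 h2 hy J
    (by linarith)
  refine ⟨fun f hf => ?_, key.2⟩
  refine (key.1 f hf).trans ?_
  have p := pow_le (K := 256) (by norm_num) hh0 J
  rw [hJh] at p
  have p' : (1 + 256 * h) ^ J - 1 ≤ Real.exp 128 := by
    have : (256 : ℝ) * (1 / 2) = 128 := by norm_num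
    rw [this] at p
    linarith
  have hle : h + C / J ≤ (1 + C) / J := by
    rw [hh, add_div]
    gcongr
    nlinarith
  calc (h + C / J) * ((1 + 256 * h) ^ J - 1) ≤ ((1 + C) / J) * Real.exp 128 := by
        apply mul_le_mul hle p' _ (by positivity)
        have : 1 ≤ (1 + 256 * h) ^ J := one_le_pow₀ (by linarith)
        linarith
    _ = (1 + C) * Real.exp 128 / J := by ring

theorem con_seq (k : ℕ) : ∃ C : ℝ, 0 ≤ C ∧
    ∀ (M : (E → ℝ) → E → ℝ) (l : List E) (J : ℕ) (U : ℕ × E → ℝ),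
      Admissible M → l.Nodup →
      (∀ c c' : E → ℝ, (∀ f ∈ l, c f = c' f) → ∀ f ∈ l, M c f = M c' f) →
      1 ≤ J → (∀ p, U p ∈ Icc (0 : ℝ) 1) →
      (∀ f, 0 < seqCon M l J U k f) ∧
      ∀ f ∈ l, parCon M J U k f ≤ Real.exp (C / J) * seqCon M l J U k f ∧
        seqCon M l J U k f ≤ Real.exp (C / J) * parCon M J U k f := by
  induction k with
  | zero =>
    exact ⟨0, le_rfl, fun M l J U _ _ _ _ _ => ⟨fun f => by simp [seqCon],
      fun f _ => by simp [parCon, seqCon]⟩⟩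
  | succ k ih =>
    obtain ⟨C, hC, H⟩ := ih
    refine ⟨C + 4 * ((1 + C) * Real.exp 128), by positivity, ?_⟩
    intro M l J U hM hl hS hJ hU
    obtain ⟨p2, H2⟩ := H M l J U hM hl hS hJ hU
    have p1 := parCon_pos hM hJ hU k
    have m1 := parIter_mem hM p1 (h := 1 / (2 * J)) (by positivity) (fun e => hU (k, e)) J
      (half_step_le hJ)
    obtain ⟨key, m2⟩ := stage_seq hM hl hS p1 p2 hJ hC (fun g hg => (H2 g hg).1)
      (fun g hg => (H2 g hg).2) (fun e => hU (k, e))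
    have e : (C + 4 * ((1 + C) * Real.exp 128)) / J = C / J + 4 * ((1 + C) * Real.exp 128 / J) := by
      ring
    refine ⟨fun f => mul_pos (p2 f) (lr_pos (by rw [abs_of_pos (by norm_num)]) (m2 f)), ?_⟩
    intro f hf
    rw [e]
    refine ⟨con_step p2 m1 m2 (H2 f hf).1 (key f hf), con_step p1 m2 m1 (H2 f hf).2 ?_⟩
    rw [abs_sub_comm]
    exact key f hf

end AnaA

open AnaA

variable {E : Type*} [DecidableEq E]

/-- Parallel against sequential, with a constant depending on the stage only. -/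
theorem par_sub_seq (k : ℕ) : ∃ C : ℝ, 0 ≤ C ∧
    ∀ (M : (E → ℝ) → E → ℝ) (l : List E) (J : ℕ) (U : ℕ × E → ℝ),
      Admissible M → l.Nodup →
      (∀ c c' : E → ℝ, (∀ f ∈ l, c f = c' f) → ∀ f ∈ l, M c f = M c' f) →
      1 ≤ J → (∀ p, U p ∈ Icc (0 : ℝ) 1) →
      ∀ f ∈ l, |parObs M J U k f - seqObs M l J U k f| ≤ C / J := by
  obtain ⟨C, hC, H⟩ := con_seq (E := E) k
  refine ⟨(1 + C) * Real.exp 128, by positivity, ?_⟩
  intro M l J U hM hl hS hJ hU f hf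
  obtain ⟨p2, H2⟩ := H M l J U hM hl hS hJ hU
  exact (stage_seq hM hl hS (parCon_pos hM hJ hU k) p2 hJ hC
    (fun g hg => (H2 g hg).1) (fun g hg => (H2 g hg).2) (fun e => hU (k, e))).1 f hf

/-- Two step sizes, with a constant depending on the stage only. -/
theorem par_sub_par (k : ℕ) : ∃ C : ℝ, 0 ≤ C ∧
    ∀ (M : (E → ℝ) → E → ℝ) (J : ℕ) (U : ℕ × E → ℝ),
      Admissible M → 1 ≤ J → (∀ p, U p ∈ Icc (0 : ℝ) 1) →
      ∀ f, |parObs M J U k f - parObs M (2 * J) U k f| ≤ C / J := by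
  obtain ⟨C, hC, H⟩ := con_par (E := E) k
  refine ⟨(1 + C) * Real.exp 100, by positivity, ?_⟩
  intro M J U hM hJ hU f
  exact stage_par hM (parCon_pos hM hJ hU k) (parCon_pos hM (J := 2 * J) (by omega) hU k) hJ hC
    (fun g => (H M J U hM hJ hU g).1) (fun g => (H M J U hM hJ hU g).2) (fun e => hU (k, e)) f

end Vale.Agent.FUSF
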