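import Vale.Agent.FUSF.Exact

/-!
# P143 (b), second half of the analysis of the schemes

Ranges of the observations and of the conductances, congruence of the sequential scheme, and
continuity of the parallel scheme in the edge probabilities.
-/

open Filter Topology Set

namespace Vale.Agent.FUSF

section Basic

theorem lr_mem {θ y : ℝ} (hθ : |θ| ≤ 1 / 2) (hy : y ∈ Icc (0 : ℝ) 1) :
    lr θ y ∈ Icc (1 / 3 : ℝ) 3 := by
  obtain ⟨h0, h1⟩ := hy
  have h2 : |2 * y - 1| ≤ 1 := abs_le.2 ⟨by linarith, by linarith⟩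
  have h3 : |θ * (2 * y - 1)| ≤ 1 / 2 := by
    rw [abs_mul]; nlinarith [abs_nonneg θ, abs_nonneg (2 * y - 1)]
  obtain ⟨h4, h5⟩ := abs_le.1 h3
  unfold lr
  have h6 : 0 < 1 - θ * (2 * y - 1) := by linarith
  constructor
  · rw [le_div_iff₀ h6]; linarith
  · rw [div_le_iff₀ h6]; linarith

theorem tau_mem {θ h σ y : ℝ} (h0 : 0 ≤ θ) (hh : 0 ≤ h) (h1 : θ + h ≤ 1 / 2) (hσ : |σ| ≤ 1)
    (hy : y ∈ Icc (0 : ℝ) 1) : tau θ h σ y ∈ Icc (0 : ℝ) 1 := by
  unfold tau
  apply Finv_mem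
  · rw [abs_mul, abs_of_nonneg (by linarith : 0 ≤ θ + h)]
    nlinarith [abs_nonneg σ]
  · apply Fd_mem _ hy
    rw [abs_mul, abs_of_nonneg h0]
    nlinarith [abs_nonneg σ]

end Basic

variable {E : Type*} [DecidableEq E]

theorem ctil_pos {c Θ y : E → ℝ} (hc : ∀ f, 0 < c f) (hΘ : ∀ f, |Θ f| ≤ 1 / 2)
    (hy : ∀ f, y f ∈ Icc (0 : ℝ) 1) (f g : E) : 0 < ctil c Θ y f g := by
  unfold ctil
  split_ifs
  · exact hc g
  · exact mul_pos (hc g) (lr_pos (hΘ g) (hy g))

theorem abs_sig_le {M : (E → ℝ) → E → ℝ} (hM : Admissible M) {c Θ y : E → ℝ}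
    (hc : ∀ f, 0 < c f) (hΘ : ∀ f, |Θ f| ≤ 1 / 2) (hy : ∀ f, y f ∈ Icc (0 : ℝ) 1) (f : E) :
    |sig M c Θ y f| ≤ 1 := by
  unfold sig
  have h1 := hM.nonneg _ (ctil_pos hc hΘ hy f) f
  have h2 := hM.le_one _ (ctil_pos hc hΘ hy f) f
  rw [abs_le]; constructor <;> linarith

theorem parIter_mem {M : (E → ℝ) → E → ℝ} (hM : Admissible M) {c : E → ℝ} (hc : ∀ f, 0 < c f)
    {h : ℝ} (hh : 0 ≤ h) {y : E → ℝ} (hy : ∀ f, y f ∈ Icc (0 : ℝ) 1) (j : ℕ)
    (hj : (j : ℝ) * h ≤ 1 / 2) (f : E) : parIter M c h y j f ∈ Icc (0 : ℝ) 1 := by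
  induction j generalizing f with
  | zero => exact hy f
  | succ j ih =>
    push_cast at hj
    have hj0 : 0 ≤ (j : ℝ) * h := by positivity
    have hj' : (j : ℝ) * h ≤ 1 / 2 := by linarith
    have ih' := ih hj'
    show tau (j * h) h (sig M c (fun _ => (j : ℝ) * h) (parIter M c h y j) f)
      (parIter M c h y j f) ∈ Icc (0 : ℝ) 1
    apply tau_mem hj0 hh (by linarith) _ (ih' f)
    apply abs_sig_le hM hc _ ih'
    intro _
    rw [abs_of_nonneg hj0]; exact hj'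

theorem step_mul_le (J : ℕ) : (J : ℝ) * (1 / (2 * J)) ≤ 1 / 2 := by
  rcases Nat.eq_zero_or_pos J with rfl | hJ
  · simp
  · have : (0 : ℝ) < J := by exact_mod_cast hJ
    apply le_of_eq; field_simp

theorem step_nonneg (J : ℕ) : (0 : ℝ) ≤ 1 / (2 * J) := by positivity

theorem mul_step_le {j J : ℕ} (h : j ≤ J) : (j : ℝ) * (1 / (2 * J)) ≤ 1 / 2 :=
  (mul_le_mul_of_nonneg_right (by exact_mod_cast h) (step_nonneg J)).trans (step_mul_le J)

theorem mem_Icc_mul_three {k : ℕ} {a b : ℝ} (ha : a ∈ Icc ((3 : ℝ) ^ k)⁻¹ (3 ^ k))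
    (hb : b ∈ Icc (1 / 3 : ℝ) 3) : a * b ∈ Icc ((3 : ℝ) ^ (k + 1))⁻¹ (3 ^ (k + 1)) := by
  have hk : (0 : ℝ) < 3 ^ k := by positivity
  have ha0 : 0 < a := lt_of_lt_of_le (by positivity) ha.1
  have hb0 : 0 < b := lt_of_lt_of_le (by norm_num) hb.1
  constructor
  · rw [pow_succ, mul_inv]
    apply mul_le_mul ha.1 _ (by norm_num) ha0.le
    rw [← one_div]; exact hb.1
  · rw [pow_succ]
    exact mul_le_mul ha.2 hb.2 hb0.le hk.le

theorem Icc_three_pos {k : ℕ} {a : ℝ} (ha : a ∈ Icc ((3 : ℝ) ^ k)⁻¹ (3 ^ k)) : 0 < a :=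
  lt_of_lt_of_le (by positivity) ha.1

theorem parCon_mem {M : (E → ℝ) → E → ℝ} (hM : Admissible M) (J : ℕ) {U : ℕ × E → ℝ}
    (hU : ∀ p, U p ∈ Icc (0 : ℝ) 1) (k : ℕ) (f : E) :
    parCon M J U k f ∈ Icc ((3 : ℝ) ^ k)⁻¹ (3 ^ k) := by
  induction k generalizing f with
  | zero => simp [parCon]
  | succ k ih =>
    unfold parCon
    apply mem_Icc_mul_three (ih f)
    apply lr_mem (by rw [abs_of_pos] <;> norm_num)
    exact parIter_mem hM (fun g => Icc_three_pos (ih g)) (step_nonneg J) (fun g => hU (k, g)) J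
      (step_mul_le J) f

theorem parCon_pos {M : (E → ℝ) → E → ℝ} (hM : Admissible M) (J : ℕ) {U : ℕ × E → ℝ}
    (hU : ∀ p, U p ∈ Icc (0 : ℝ) 1) (k : ℕ) (f : E) : 0 < parCon M J U k f :=
  Icc_three_pos (parCon_mem hM J hU k f)

theorem parObs_mem {M : (E → ℝ) → E → ℝ} (hM : Admissible M) (J : ℕ) {U : ℕ × E → ℝ}
    (hU : ∀ p, U p ∈ Icc (0 : ℝ) 1) (k : ℕ) (f : E) : parObs M J U k f ∈ Icc (0 : ℝ) 1 :=
  parIter_mem hM (parCon_pos hM J hU k) (step_nonneg J) (fun g => hU (k, g)) J (step_mul_le J) f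

/-- Invariants of a partial sequential round. -/
theorem foldl_mem {M : (E → ℝ) → E → ℝ} (hM : Admissible M) {c : E → ℝ} (hc : ∀ f, 0 < c f)
    {h : ℝ} (hh : 0 ≤ h) (l : List E) (hl : l.Nodup) :
    ∀ s : (E → ℝ) × (E → ℝ), (∀ g, 0 ≤ s.1 g) → (∀ g, s.1 g ≤ 1 / 2) →
      (∀ g ∈ l, s.1 g + h ≤ 1 / 2) → (∀ g, s.2 g ∈ Icc (0 : ℝ) 1) →
      ∀ g, (l.foldl (seqUpd M c h) s).2 g ∈ Icc (0 : ℝ) 1 := by
  induction l with
  | nil => intro s _ _ _ h4; exact h4
  | cons f l ih =>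
    intro s h1 h2 h3 h4
    rw [List.nodup_cons] at hl
    rw [List.foldl_cons]
    apply ih hl.2
    · intro g
      unfold seqUpd
      by_cases hg : g = f
      · subst hg; simp; linarith [h1 g]
      · simp [Function.update_of_ne hg, h1 g]
    · intro g
      unfold seqUpd
      by_cases hg : g = f
      · subst hg
        simp only [Function.update_self]
        exact h3 g (by simp)
      · simp only [Function.update_of_ne hg]; exact h2 g
    · intro g hg
      have hgf : g ≠ f := by rintro rfl; exact hl.1 hg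
      unfold seqUpd
      simp only [Function.update_of_ne hgf]
      exact h3 g (by simp [hg])
    · intro g
      unfold seqUpd
      by_cases hg : g = f
      · subst hg
        simp only [Function.update_self]
        apply tau_mem (h1 g) hh (h3 g (by simp)) _ (h4 g)
        apply abs_sig_le hM hc _ h4
        intro e; rw [abs_of_nonneg (h1 e)]; exact h2 e
      · simp only [Function.update_of_ne hg]; exact h4 g

theorem seqIter_mem {M : (E → ℝ) → E → ℝ} (hM : Admissible M) {c : E → ℝ} (hc : ∀ f, 0 < c f)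
    {h : ℝ} (hh : 0 ≤ h) {l : List E} (hl : l.Nodup) {y : E → ℝ}
    (hy : ∀ f, y f ∈ Icc (0 : ℝ) 1) (j : ℕ) (hj : (j : ℝ) * h ≤ 1 / 2) (f : E) :
    (seqIter M c h l y j).2 f ∈ Icc (0 : ℝ) 1 := by
  induction j generalizing f with
  | zero => exact hy f
  | succ j ih =>
    push_cast at hj
    have hj0 : 0 ≤ (j : ℝ) * h := by positivity
    have hj' : (j : ℝ) * h ≤ 1 / 2 := by linarith
    have ih' := ih hj'
    show (l.foldl (seqUpd M c h) (seqIter M c h l y j)).2 f ∈ Icc (0 : ℝ) 1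
    apply foldl_mem hM hc hh l hl
    · intro g; rw [seqIter_fst M c h l hl]; dsimp only; split_ifs <;> simp [hj0]
    · intro g; rw [seqIter_fst M c h l hl]; dsimp only; split_ifs
      · exact hj'
      · norm_num
    · intro g hg; rw [seqIter_fst M c h l hl]; dsimp only; rw [if_pos hg]; linarith
    · exact ih'

theorem seqCon_mem {M : (E → ℝ) → E → ℝ} (hM : Admissible M) {l : List E} (hl : l.Nodup) (J : ℕ)
    {U : ℕ × E → ℝ} (hU : ∀ p, U p ∈ Icc (0 : ℝ) 1) (k : ℕ) (f : E) :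
    seqCon M l J U k f ∈ Icc ((3 : ℝ) ^ k)⁻¹ (3 ^ k) := by
  induction k generalizing f with
  | zero => simp [seqCon]
  | succ k ih =>
    unfold seqCon
    apply mem_Icc_mul_three (ih f)
    apply lr_mem (by rw [abs_of_pos] <;> norm_num)
    exact seqIter_mem hM (fun g => Icc_three_pos (ih g)) (step_nonneg J) hl
      (fun g => hU (k, g)) J (step_mul_le J) f

theorem seqCon_pos {M : (E → ℝ) → E → ℝ} (hM : Admissible M) {l : List E} (hl : l.Nodup) (J : ℕ)
    {U : ℕ × E → ℝ} (hU : ∀ p, U p ∈ Icc (0 : ℝ) 1) (k : ℕ) (f : E) : 0 < seqCon M l J U k f :=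
  Icc_three_pos (seqCon_mem hM hl J hU k f)

theorem seqObs_mem {M : (E → ℝ) → E → ℝ} (hM : Admissible M) {l : List E} (hl : l.Nodup) (J : ℕ)
    {U : ℕ × E → ℝ} (hU : ∀ p, U p ∈ Icc (0 : ℝ) 1) (k : ℕ) (f : E) :
    seqObs M l J U k f ∈ Icc (0 : ℝ) 1 :=
  seqIter_mem hM (seqCon_pos hM hl J hU k) (step_nonneg J) hl (fun g => hU (k, g)) J
    (step_mul_le J) f

theorem foldl_congr' {M M' : (E → ℝ) → E → ℝ} {l : List E}
    (hMM : ∀ c : E → ℝ, (∀ f, 0 < c f) → ∀ f ∈ l, M c f = M' c f) (hM : Admissible M)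
    {c : E → ℝ} (hc : ∀ f, 0 < c f) {h : ℝ} (hh : 0 ≤ h) (l' : List E) (hl : l'.Nodup)
    (hsub : ∀ f ∈ l', f ∈ l) :
    ∀ s : (E → ℝ) × (E → ℝ), (∀ g, 0 ≤ s.1 g) → (∀ g, s.1 g ≤ 1 / 2) →
      (∀ g ∈ l', s.1 g + h ≤ 1 / 2) → (∀ g, s.2 g ∈ Icc (0 : ℝ) 1) →
      l'.foldl (seqUpd M c h) s = l'.foldl (seqUpd M' c h) s := by
  induction l' with
  | nil => intro s _ _ _ _; rfl
  | cons f l' ih =>
    intro s h1 h2 h3 h4
    rw [List.nodup_cons] at hl
    rw [List.foldl_cons, List.foldl_cons]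
    have hab : ∀ e, |s.1 e| ≤ 1 / 2 := fun e => by rw [abs_of_nonneg (h1 e)]; exact h2 e
    have e1 : seqUpd M' c h s f = seqUpd M c h s f := by
      unfold seqUpd sig
      rw [hMM _ (ctil_pos hc hab h4 f) f (hsub f (by simp))]
    rw [e1]
    apply ih hl.2 (fun g hg => hsub g (by simp [hg]))
    · intro g
      unfold seqUpd
      by_cases hg : g = f
      · subst hg; simp; linarith [h1 g]
      · simp [Function.update_of_ne hg, h1 g]
    · intro g
      unfold seqUpd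
      by_cases hg : g = f
      · subst hg
        simp only [Function.update_self]
        exact h3 g (by simp)
      · simp only [Function.update_of_ne hg]; exact h2 g
    · intro g hg
      have hgf : g ≠ f := by rintro rfl; exact hl.1 hg
      unfold seqUpd
      simp only [Function.update_of_ne hgf]
      exact h3 g (by simp [hg])
    · intro g
      unfold seqUpd
      by_cases hg : g = f
      · subst hg
        simp only [Function.update_self]
        apply tau_mem (h1 g) hh (h3 g (by simp)) _ (h4 g)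
        exact abs_sig_le hM hc hab h4 g
      · simp only [Function.update_of_ne hg]; exact h4 g

theorem seqIter_congr {M M' : (E → ℝ) → E → ℝ} {l : List E}
    (hMM : ∀ c : E → ℝ, (∀ f, 0 < c f) → ∀ f ∈ l, M c f = M' c f) (hM : Admissible M)
    {c : E → ℝ} (hc : ∀ f, 0 < c f) {h : ℝ} (hh : 0 ≤ h) (hl : l.Nodup) {y : E → ℝ}
    (hy : ∀ f, y f ∈ Icc (0 : ℝ) 1) (j : ℕ) (hj : (j : ℝ) * h ≤ 1 / 2) :
    seqIter M c h l y j = seqIter M' c h l y j := by
  induction j with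
  | zero => rfl
  | succ j ih =>
    push_cast at hj
    have hj0 : 0 ≤ (j : ℝ) * h := by positivity
    have hj' : (j : ℝ) * h ≤ 1 / 2 := by linarith
    have ih' := ih hj'
    show l.foldl (seqUpd M c h) (seqIter M c h l y j) =
      l.foldl (seqUpd M' c h) (seqIter M' c h l y j)
    rw [← ih']
    apply foldl_congr' hMM hM hc hh l hl (fun _ h => h)
    · intro g; rw [seqIter_fst M c h l hl]; dsimp only; split_ifs <;> simp [hj0]
    · intro g; rw [seqIter_fst M c h l hl]; dsimp only; split_ifs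
      · exact hj'
      · norm_num
    · intro g hg; rw [seqIter_fst M c h l hl]; dsimp only; rw [if_pos hg]; linarith
    · exact seqIter_mem hM hc hh hl hy j hj'

theorem seqCon_congr {M M' : (E → ℝ) → E → ℝ} {l : List E}
    (h : ∀ c : E → ℝ, (∀ f, 0 < c f) → ∀ f ∈ l, M c f = M' c f) (hM : Admissible M)
    (hl : l.Nodup) (J : ℕ) {U : ℕ × E → ℝ} (hU : ∀ p, U p ∈ Icc (0 : ℝ) 1) (k : ℕ) :
    seqCon M l J U k = seqCon M' l J U k := by
  induction k with
  | zero => rfl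
  | succ k ih =>
    unfold seqCon
    rw [← ih, seqIter_congr h hM (seqCon_pos hM hl J hU k) (step_nonneg J) hl
      (fun g => hU (k, g)) J (step_mul_le J)]

/-- The sequential scheme only uses the edge probabilities of the edges of the list, at positive
conductances. -/
theorem seqObs_congr {M M' : (E → ℝ) → E → ℝ} {l : List E}
    (h : ∀ c : E → ℝ, (∀ f, 0 < c f) → ∀ f ∈ l, M c f = M' c f) (hM : Admissible M)
    (hl : l.Nodup) (J : ℕ) {U : ℕ × E → ℝ} (hU : ∀ p, U p ∈ Icc (0 : ℝ) 1) (k : ℕ) :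
    seqObs M l J U k = seqObs M' l J U k := by
  unfold seqObs
  rw [← seqCon_congr h hM hl J hU k, seqIter_congr h hM (seqCon_pos hM hl J hU k)
    (step_nonneg J) hl (fun g => hU (k, g)) J (step_mul_le J)]

/-- Continuous convergence of edge probabilities, on bounded sets of conductances. -/
def MConv (Mn : ℕ → (E → ℝ) → E → ℝ) (M : (E → ℝ) → E → ℝ) : Prop :=
  ∀ (cn : ℕ → E → ℝ) (c : E → ℝ) (R : ℝ), 0 < R → (∀ n f, cn n f ∈ Icc R⁻¹ R) →
    (∀ f, c f ∈ Icc R⁻¹ R) → (∀ f, Tendsto (fun n => cn n f) atTop (𝓝 (c f))) →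
    ∀ e, Tendsto (fun n => Mn n (cn n) e) atTop (𝓝 (M c e))

section

theorem tendsto_lr {θ y : ℝ} (hθ : |θ| ≤ 1 / 2) (hy : y ∈ Icc (0 : ℝ) 1) {yn : ℕ → ℝ}
    (h : Tendsto yn atTop (𝓝 y)) : Tendsto (fun n => lr θ (yn n)) atTop (𝓝 (lr θ y)) := by
  unfold lr
  apply Tendsto.div
  · exact (((h.const_mul 2).sub_const 1).const_mul θ).const_add 1
  · exact (((h.const_mul 2).sub_const 1).const_mul θ).const_sub 1
  · obtain ⟨h0, h1⟩ := hy
    have h2 : |2 * y - 1| ≤ 1 := abs_le.2 ⟨by linarith, by linarith⟩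
    have h3 : |θ * (2 * y - 1)| ≤ 1 / 2 := by
      rw [abs_mul]; nlinarith [abs_nonneg θ, abs_nonneg (2 * y - 1)]
    obtain ⟨h4, h5⟩ := abs_le.1 h3
    linarith

theorem tendsto_tau {θ h σ y : ℝ} (h0 : 0 ≤ θ) (hh : 0 ≤ h) (h1 : θ + h ≤ 1 / 2) (hσ : |σ| ≤ 1)
    {σn yn : ℕ → ℝ} (hσn : Tendsto σn atTop (𝓝 σ)) (hyn : Tendsto yn atTop (𝓝 y)) :
    Tendsto (fun n => tau θ h (σn n) (yn n)) atTop (𝓝 (tau θ h σ y)) := by
  have hF : Tendsto (fun n => Fd (θ * σn n) (yn n)) atTop (𝓝 (Fd (θ * σ) y)) := by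
    unfold Fd
    exact (((hσn.const_mul θ).const_sub 1).mul hyn).add ((hσn.const_mul θ).mul (hyn.pow 2))
  have hs : Tendsto (fun n => (θ + h) * σn n) atTop (𝓝 ((θ + h) * σ)) := hσn.const_mul _
  unfold tau Finv
  apply Tendsto.div
  · exact hF.const_mul 2
  · apply Tendsto.add (hs.const_sub 1)
    apply Tendsto.sqrt
    exact ((hs.const_sub 1).pow 2).add ((hs.const_mul 4).mul hF)
  · have h2 : |(θ + h) * σ| ≤ 1 / 2 := by
      rw [abs_mul, abs_of_nonneg (by linarith : 0 ≤ θ + h)]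
      nlinarith [abs_nonneg σ]
    have h3 := (abs_le.1 h2).2
    have h4 := Real.sqrt_nonneg ((1 - (θ + h) * σ) ^ 2 + 4 * ((θ + h) * σ) * Fd (θ * σ) y)
    linarith

end

theorem parIter_tendsto {Mn : ℕ → (E → ℝ) → E → ℝ} {M : (E → ℝ) → E → ℝ}
    (hMn : ∀ n, Admissible (Mn n)) (hM : Admissible M) (hconv : MConv Mn M) {k : ℕ}
    {cn : ℕ → E → ℝ} {c : E → ℝ} (hcn : ∀ n f, cn n f ∈ Icc ((3 : ℝ) ^ k)⁻¹ (3 ^ k))
    (hc : ∀ f, c f ∈ Icc ((3 : ℝ) ^ k)⁻¹ (3 ^ k))
    (ht : ∀ f, Tendsto (fun n => cn n f) atTop (𝓝 (c f)))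
    {h : ℝ} (hh : 0 ≤ h) {y : E → ℝ} (hy : ∀ f, y f ∈ Icc (0 : ℝ) 1) (j : ℕ)
    (hj : (j : ℝ) * h ≤ 1 / 2) (f : E) :
    Tendsto (fun n => parIter (Mn n) (cn n) h y j f) atTop (𝓝 (parIter M c h y j f)) := by
  induction j generalizing f with
  | zero => exact tendsto_const_nhds
  | succ j ih =>
    push_cast at hj
    have hj0 : 0 ≤ (j : ℝ) * h := by positivity
    have hj' : (j : ℝ) * h ≤ 1 / 2 := by linarith
    have hja : |(j : ℝ) * h| ≤ 1 / 2 := by rw [abs_of_nonneg hj0]; exact hj'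
    have ih' := ih hj'
    have hcp : ∀ f, 0 < c f := fun f => Icc_three_pos (hc f)
    have hcnp : ∀ n f, 0 < cn n f := fun n f => Icc_three_pos (hcn n f)
    have hyn : ∀ n f, parIter (Mn n) (cn n) h y j f ∈ Icc (0 : ℝ) 1 := fun n f =>
      parIter_mem (hMn n) (hcnp n) hh hy j hj' f
    have hyM : ∀ f, parIter M c h y j f ∈ Icc (0 : ℝ) 1 := fun f =>
      parIter_mem hM hcp hh hy j hj' f
    show Tendsto (fun n => tau (j * h) h
      (sig (Mn n) (cn n) (fun _ => (j : ℝ) * h) (parIter (Mn n) (cn n) h y j) f)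
      (parIter (Mn n) (cn n) h y j f)) atTop
      (𝓝 (tau (j * h) h (sig M c (fun _ => (j : ℝ) * h) (parIter M c h y j) f)
      (parIter M c h y j f)))
    apply tendsto_tau hj0 hh (by linarith)
      (abs_sig_le hM hcp (fun _ => hja) hyM f) _ (ih' f)
    unfold sig
    apply Tendsto.sub_const
    apply Tendsto.const_mul
    have hmono : Icc ((3 : ℝ) ^ k)⁻¹ (3 ^ k) ⊆ Icc ((3 : ℝ) ^ (k + 1))⁻¹ (3 ^ (k + 1)) := by
      intro a ha
      have := mem_Icc_mul_three ha (b := 1) (by norm_num)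
      simpa using this
    apply hconv _ _ ((3 : ℝ) ^ (k + 1)) (by positivity)
    · intro n g
      unfold ctil
      split_ifs
      · exact hmono (hcn n g)
      · exact mem_Icc_mul_three (hcn n g) (lr_mem hja (hyn n g))
    · intro g
      unfold ctil
      split_ifs
      · exact hmono (hc g)
      · exact mem_Icc_mul_three (hc g) (lr_mem hja (hyM g))
    · intro g
      unfold ctil
      split_ifs
      · exact ht g
      · exact (ht g).mul (tendsto_lr hja (hyM g) (ih' g))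

theorem parCon_tendsto {Mn : ℕ → (E → ℝ) → E → ℝ} {M : (E → ℝ) → E → ℝ}
    (hMn : ∀ n, Admissible (Mn n)) (hM : Admissible M) (h : MConv Mn M) (J : ℕ)
    {U : ℕ × E → ℝ} (hU : ∀ p, U p ∈ Icc (0 : ℝ) 1) (k : ℕ) (f : E) :
    Tendsto (fun n => parCon (Mn n) J U k f) atTop (𝓝 (parCon M J U k f)) := by
  induction k generalizing f with
  | zero => exact tendsto_const_nhds
  | succ k ih =>
    unfold parCon
    apply (ih f).mul
    apply tendsto_lr (by rw [abs_of_pos] <;> norm_num)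
    · exact parObs_mem hM J hU k f
    · exact parIter_tendsto hMn hM h (fun n => parCon_mem (hMn n) J hU k)
        (parCon_mem hM J hU k) ih (step_nonneg J) (fun g => hU (k, g)) J (step_mul_le J) f

theorem parObs_tendsto {Mn : ℕ → (E → ℝ) → E → ℝ} {M : (E → ℝ) → E → ℝ}
    (hMn : ∀ n, Admissible (Mn n)) (hM : Admissible M) (h : MConv Mn M) (J : ℕ)
    {U : ℕ × E → ℝ} (hU : ∀ p, U p ∈ Icc (0 : ℝ) 1) (k : ℕ) (f : E) :
    Tendsto (fun n => parObs (Mn n) J U k f) atTop (𝓝 (parObs M J U k f)) :=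
  parIter_tendsto hMn hM h (fun n => parCon_mem (hMn n) J hU k)
    (parCon_mem hM J hU k) (parCon_tendsto hMn hM h J hU k) (step_nonneg J)
    (fun g => hU (k, g)) J (step_mul_le J) f

end Vale.Agent.FUSF
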