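import Vale.Agent.FUSF.Defs

/-!
# P143, Cayley graphs
-/

open Set

namespace Vale.Agent.FUSF

variable {Γ : Type*} [Group Γ] {S : Set Γ}

theorem cayley_adj (g h : Γ) :
    (cayley S).Adj g h ↔ g ≠ h ∧ ((∃ s ∈ S, h = g * s) ∨ ∃ s ∈ S, g = h * s) := by
  unfold cayley
  rw [SimpleGraph.fromRel_adj]

theorem cayley_mul_adj (γ g h : Γ) :
    (cayley S).Adj (γ * g) (γ * h) ↔ (cayley S).Adj g h := by
  rw [cayley_adj, cayley_adj]
  simp [mul_assoc]

theorem cayley_map (γ : Γ) : (cayley S).map (Equiv.mulLeft γ).toEmbedding = cayley S := by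
  ext a b
  obtain ⟨g, rfl⟩ := (Equiv.mulLeft γ).surjective a
  obtain ⟨h, rfl⟩ := (Equiv.mulLeft γ).surjective b
  have h1 := SimpleGraph.map_adj_apply (G := cayley S) (f := (Equiv.mulLeft γ).toEmbedding)
    (a := g) (b := h)
  exact h1.trans (cayley_mul_adj γ g h).symm

theorem cayley_finite (hS : S.Finite) (g : Γ) : ((cayley S).neighborSet g).Finite := by
  apply ((hS.image (fun s => g * s)).union (hS.image (fun s => g * s⁻¹))).subset
  intro h hh
  rw [SimpleGraph.mem_neighborSet, cayley_adj] at hh
  rcases hh.2 with ⟨s, hs, rfl⟩ | ⟨s, hs, rfl⟩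
  · exact Or.inl ⟨s, hs, rfl⟩
  · exact Or.inr ⟨s, hs, by simp⟩

theorem cayley_connected (hS : Subgroup.closure S = ⊤) : (cayley S).Connected := by
  have key : ∀ g ∈ Subgroup.closure S, ∀ x, (cayley S).Reachable x (x * g) := by
    intro g hg
    induction hg using Subgroup.closure_induction with
    | mem s hs =>
      intro x
      by_cases h : x = x * s
      · rw [← h]
      · exact ((cayley_adj x (x * s)).2 ⟨h, Or.inl ⟨s, hs, rfl⟩⟩).reachable
    | one => intro x; rw [mul_one]
    | mul a b _ _ ha hb =>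
      intro x
      rw [← mul_assoc]
      exact (ha x).trans (hb (x * a))
    | inv a _ ha =>
      intro x
      have := (ha (x * a⁻¹)).symm
      rwa [inv_mul_cancel_right] at this
  have : Nonempty Γ := ⟨1⟩
  refine ⟨fun x y => ?_⟩
  have := key (x⁻¹ * y) (by rw [hS]; trivial) x
  rwa [mul_inv_cancel_left] at this

theorem countable_of_closure (hS : S.Finite) (h : Subgroup.closure S = ⊤) : Countable Γ := by
  have hc : Countable S := hS.countable
  have h1 : Function.Surjective (FreeGroup.lift (fun s : S => (s : Γ))) := by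
    rw [← MonoidHom.range_eq_top, FreeGroup.range_lift_eq_closure]
    simpa using h
  exact h1.countable

end Vale.Agent.FUSF
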