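import Mathlib

/-!
# P143, definitions

Uniform spanning trees of finite connected subgraphs, exhaustions, the free uniform spanning
forest, Cayley graphs, factors of iid and graph factors of iid.
-/

open MeasureTheory Filter Topology
open scoped unitInterval

namespace Vale.Agent.FUSF

/-- Spanning trees (as sets of edges) of a subgraph `H`. -/
def spanningTrees {V : Type*} {G : SimpleGraph V} (H : G.Subgraph) : Set (Set (Sym2 V)) :=
  {T | T ⊆ H.edgeSet ∧ ((SimpleGraph.fromEdgeSet T).induce H.verts).IsTree}

/-- Probability that the uniform spanning tree of the finite connected subgraph `H` agrees with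
`B` on the finite set of edges `F`. -/
noncomputable def ustProb {V : Type*} {G : SimpleGraph V} (H : G.Subgraph)
    (F : Finset (Sym2 V)) (B : Set (Sym2 V)) : ℝ :=
  ({T | T ∈ spanningTrees H ∧ ∀ e ∈ F, (e ∈ T ↔ e ∈ B)}.ncard : ℝ) / (spanningTrees H).ncard

/-- An increasing sequence of finite connected subgraphs with union `G`. -/
structure IsExhaustion {V : Type*} (G : SimpleGraph V) (H : ℕ → G.Subgraph) : Prop where
  finite : ∀ n, (H n).verts.Finite
  connected : ∀ n, (H n).Connected
  mono : Monotone H
  verts : ∀ v, ∃ n, v ∈ (H n).verts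
  edges : ∀ e ∈ G.edgeSet, ∃ n, e ∈ (H n).edgeSet

/-- `μ` is the law of the free uniform spanning forest of `G`: there are exhaustions, and along
every exhaustion the uniform spanning trees converge weakly to `μ` (convergence of all cylinder
probabilities). -/
structure IsFUSF {V : Type*} (G : SimpleGraph V) (μ : Measure (Set (Sym2 V))) : Prop where
  prob : IsProbabilityMeasure μ
  exhausts : ∃ H : ℕ → G.Subgraph, IsExhaustion G H
  tendsto : ∀ H : ℕ → G.Subgraph, IsExhaustion G H →
    ∀ (F : Finset (Sym2 V)) (B : Set (Sym2 V)),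
      Tendsto (fun n => ustProb (H n) F B) atTop (𝓝 (μ.real {S | ∀ e ∈ F, (e ∈ S ↔ e ∈ B)}))

/-- The law of a family of iid uniform labels in `[0,1]`. -/
noncomputable def iidUnif (V : Type*) : Measure (V → I) :=
  Measure.infinitePi fun _ => (volume : Measure I)

/-- The Cayley graph of `Γ` with respect to a set `S` of generators: `g` is adjacent to `g s`. -/
def cayley {Γ : Type*} [Group Γ] (S : Set Γ) : SimpleGraph Γ :=
  SimpleGraph.fromRel fun g h => ∃ s ∈ S, h = g * s

/-- A random edge set with law `μ` is a `Γ`-factor of iid: it is the image of iid uniform vertex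
labels under a measurable map commuting with left multiplication. -/
def IsGroupFactor {Γ : Type*} [Group Γ] (μ : Measure (Set (Sym2 Γ))) : Prop :=
  ∃ Φ : (Γ → I) → Set (Sym2 Γ), Measurable Φ ∧
    (∀ (γ : Γ) (U : Γ → I), Φ (fun x => U (γ⁻¹ * x)) = Sym2.map (fun x => γ * x) '' Φ U) ∧
    (iidUnif Γ).map Φ = μ

/-- A Borel function of the isomorphism class of a vertex-labelled graph with a distinguished
edge; graphs are realised on the vertex set `ℕ`. `Φ G U` is the set of distinguished edges on
which the function is equal to `1`. -/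
structure IsGraphFactorMap (Φ : SimpleGraph ℕ → (ℕ → I) → Set (Sym2 ℕ)) : Prop where
  measurable : Measurable fun p : SimpleGraph ℕ × (ℕ → I) => Φ p.1 p.2
  invariant : ∀ (τ : Equiv.Perm ℕ) (G : SimpleGraph ℕ) (U : ℕ → I),
    Φ (G.map τ) (fun x => U (τ.symm x)) = Sym2.map τ '' Φ G U

/-- Infinite connected locally finite graphs, realised on the vertex set `ℕ`. -/
def IsGood (G : SimpleGraph ℕ) : Prop := G.Connected ∧ ∀ v, (G.neighborSet v).Finite

/-- A unimodular random rooted graph (infinite, connected, locally finite), realised on the vertex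
set `ℕ`: the mass transport principle for all nonnegative Borel functions of graphs with two
distinguished vertices, up to isomorphism. -/
structure IsUnimodular (P : Measure (SimpleGraph ℕ × ℕ)) : Prop where
  prob : IsProbabilityMeasure P
  good : ∀ᵐ p ∂P, IsGood p.1
  transport : ∀ f : SimpleGraph ℕ × ℕ × ℕ → ENNReal, Measurable f →
    (∀ (τ : Equiv.Perm ℕ) (G : SimpleGraph ℕ) (u v : ℕ),
      f (G.map τ, τ u, τ v) = f (G, u, v)) →
    ∫⁻ p, ∑' v, f (p.1, p.2, v) ∂P = ∫⁻ p, ∑' v, f (p.1, v, p.2) ∂P

end Vale.Agent.FUSF
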