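import Vale.Agent.FUSF.Mix

/-!
# P143 (c), exact law of the sequential scheme
-/

open MeasureTheory Set

namespace Vale.Agent.FUSF

variable {E : Type*} [DecidableEq E]

/-- Signs of a set of edges. -/
noncomputable def sgn (T : Finset E) (p : ℕ × E) : ℝ := if p.2 ∈ T then 1 else -1

/-- Parameters during stage `k`. -/
noncomputable def Par (k : ℕ) (Θ : E → ℝ) (p : ℕ × E) : ℝ :=
  if p.1 < k then 1 / 2 else if p.1 = k then Θ p.2 else 0

/-- Conductances determined by the first `k` stages. -/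
noncomputable def con (k : ℕ) (y : ℕ × E → ℝ) (f : E) : ℝ :=
  ∏ k' ∈ Finset.range k, lr (1 / 2) (y (k', f))

theorem abs_sgn (T : Finset E) (p : ℕ × E) : |sgn T p| ≤ 1 := by
  unfold sgn; split_ifs <;> simp

theorem abs_Par {l : List E} {k : ℕ} {Θ : E → ℝ} (hΘ : ∀ g ∈ l, |Θ g| ≤ 1 / 2) {K : ℕ} :
    ∀ p ∈ Finset.range K ×ˢ l.toFinset, |Par k Θ p| ≤ 1 / 2 := by
  intro p hp
  rw [Finset.mem_product, List.mem_toFinset] at hp
  unfold Par
  split_ifs
  · norm_num
  · exact hΘ _ hp.2
  · simp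

theorem lr_zero (y : ℝ) : lr 0 y = 1 := by simp [lr]

theorem lr_pos {θ y : ℝ} (hθ : |θ| ≤ 1 / 2) (hy : y ∈ Icc (0 : ℝ) 1) : 0 < lr θ y := by
  have h1 : 0 < 1 + θ * 1 * (2 * y - 1) := factor_pos hθ (by norm_num) hy
  have h2 : 0 < 1 + θ * (-1) * (2 * y - 1) := factor_pos hθ (by norm_num) hy
  unfold lr
  apply div_pos <;> linarith

theorem prod_lr_eq {k K : ℕ} (hk : k < K) (Θ : E → ℝ) (y : ℕ × E → ℝ) (f g : E) :
    (∏ k' ∈ Finset.range K, if (k', g) = (k, f) then 1 else lr (Par k Θ (k', g)) (y (k', g))) =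
      ctil (con k y) Θ (fun e => y (k, e)) f g := by
  have h1 : Finset.range (k + 1) ⊆ Finset.range K := by
    intro a ha; simp only [Finset.mem_range] at ha ⊢; omega
  rw [← Finset.prod_subset h1, Finset.prod_range_succ]
  · unfold ctil con
    have h2 : ∀ k' ∈ Finset.range k, (if (k', g) = (k, f) then 1 else
        lr (Par k Θ (k', g)) (y (k', g))) = lr (1 / 2) (y (k', g)) := by
      intro k' hk'
      rw [Finset.mem_range] at hk'
      rw [if_neg (by simp only [Prod.mk.injEq, not_and]; omega)]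
      simp [Par, hk']
    rw [Finset.prod_congr rfl h2]
    by_cases hg : g = f
    · simp [hg]
    · simp [hg, Par]
  · intro k' _ hk'
    simp only [Finset.mem_range, not_lt] at hk'
    rw [if_neg (by simp only [Prod.mk.injEq, not_and]; omega)]
    have h3 : ¬ k' < k := by omega
    have h4 : k' ≠ k := by omega
    simp [Par, h3, h4, lr_zero]

theorem wt_erase_eq {l : List E} {T : Finset E} (hT : ∀ g ∈ T, g ∈ l) {k K : ℕ} (hk : k < K)
    {Θ : E → ℝ} (hΘ : ∀ g ∈ l, |Θ g| ≤ 1 / 2) {y : ℕ × E → ℝ}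
    (hy : ∀ p ∈ Finset.range K ×ˢ l.toFinset, y p ∈ Icc (0 : ℝ) 1) (f : E) :
    wt ((Finset.range K ×ˢ l.toFinset).erase (k, f)) sgn (Par k Θ) y T =
      (∏ p ∈ (Finset.range K ×ˢ l.toFinset).erase (k, f), (1 - Par k Θ p * (2 * y p - 1))) *
      ∏ g ∈ T, ctil (con k y) Θ (fun e => y (k, e)) f g := by
  set s := Finset.range K ×ˢ l.toFinset with hs
  have h1 : ∀ p ∈ s.erase (k, f), (1 + Par k Θ p * sgn T p * (2 * y p - 1)) =
      (1 - Par k Θ p * (2 * y p - 1)) * (if p.2 ∈ T then lr (Par k Θ p) (y p) else 1) := by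
    intro p hp
    have hp' := Finset.mem_of_mem_erase hp
    have h2 : 0 < 1 + Par k Θ p * (-1) * (2 * y p - 1) :=
      factor_pos (abs_Par hΘ p hp') (by norm_num) (hy p hp')
    have h3 : 1 - Par k Θ p * (2 * y p - 1) ≠ 0 := by
      have : 1 - Par k Θ p * (2 * y p - 1) = 1 + Par k Θ p * (-1) * (2 * y p - 1) := by ring
      rw [this]; exact h2.ne'
    unfold sgn lr
    split_ifs
    · rw [mul_div_cancel₀ _ h3]; ring
    · ring
  unfold wt
  rw [Finset.prod_congr rfl h1, Finset.prod_mul_distrib]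
  congr 1
  have h4 : (∏ p ∈ s.erase (k, f), if p.2 ∈ T then lr (Par k Θ p) (y p) else 1) =
      ∏ p ∈ s, if p.2 ∈ T then (if p = (k, f) then 1 else lr (Par k Θ p) (y p)) else 1 := by
    rw [← Finset.prod_erase s (a := (k, f)) (by simp)]
    apply Finset.prod_congr rfl
    intro p hp
    rw [if_neg (Finset.ne_of_mem_erase hp)]
  rw [h4, hs, Finset.prod_product_right]
  have h5 : ∀ g, (∏ k' ∈ Finset.range K, if (k', g).2 ∈ T then
      (if (k', g) = (k, f) then 1 else lr (Par k Θ (k', g)) (y (k', g))) else 1) =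
      if g ∈ T then ctil (con k y) Θ (fun e => y (k, e)) f g else 1 := by
    intro g
    by_cases hg : g ∈ T
    · simp only [hg, if_true]
      exact prod_lr_eq hk Θ y f g
    · simp [hg]
  rw [Finset.prod_congr rfl (fun g _ => h5 g), ← Finset.prod_filter]
  apply Finset.prod_congr _ (fun _ _ => rfl)
  ext g
  simp only [Finset.mem_filter, List.mem_toFinset]
  exact ⟨fun h => h.2, fun h => ⟨hT g h, h⟩⟩

theorem bias_eq {𝒯 : Finset (Finset E)} (h𝒯 : 𝒯.Nonempty) {l : List E}
    (hT : ∀ T ∈ 𝒯, ∀ g ∈ T, g ∈ l) {k K : ℕ} (hk : k < K)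
    {Θ : E → ℝ} (hΘ : ∀ g ∈ l, |Θ g| ≤ 1 / 2) {y : ℕ × E → ℝ}
    (hy : ∀ p ∈ Finset.range K ×ˢ l.toFinset, y p ∈ Icc (0 : ℝ) 1) (f : E) :
    bias 𝒯 (Finset.range K ×ˢ l.toFinset) sgn (Par k Θ) (k, f) y =
      sig (Mtree 𝒯) (con k y) Θ (fun e => y (k, e)) f := by
  set s := Finset.range K ×ˢ l.toFinset with hs
  set Q := ∏ p ∈ s.erase (k, f), (1 - Par k Θ p * (2 * y p - 1)) with hQ
  set w : Finset E → ℝ := fun T => ∏ g ∈ T, ctil (con k y) Θ (fun e => y (k, e)) f g with hw
  have hW : ∀ T ∈ 𝒯, wt (s.erase (k, f)) sgn (Par k Θ) y T = Q * w T := fun T hTT =>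
    wt_erase_eq (hT T hTT) hk hΘ hy f
  have hWpos : ∀ T, 0 < wt (s.erase (k, f)) sgn (Par k Θ) y T := fun T =>
    wt_pos T (abs_sgn T) (fun p hp => abs_Par hΘ p (Finset.mem_of_mem_erase hp))
      (fun p hp => hy p (Finset.mem_of_mem_erase hp))
  have hsum : 0 < ∑ T ∈ 𝒯, wt (s.erase (k, f)) sgn (Par k Θ) y T :=
    Finset.sum_pos (fun T _ => hWpos T) h𝒯
  have e1 : ∑ T ∈ 𝒯, wt (s.erase (k, f)) sgn (Par k Θ) y T = Q * ∑ T ∈ 𝒯, w T := by
    rw [Finset.mul_sum]; exact Finset.sum_congr rfl hW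
  have hQ0 : Q ≠ 0 := by
    intro h0; rw [e1, h0, zero_mul] at hsum; exact lt_irrefl _ hsum
  have hS0 : ∑ T ∈ 𝒯, w T ≠ 0 := by
    intro h0; rw [e1, h0, mul_zero] at hsum; exact lt_irrefl _ hsum
  have e2 : ∑ T ∈ 𝒯, sgn T (k, f) * wt (s.erase (k, f)) sgn (Par k Θ) y T =
      Q * (2 * (∑ T ∈ 𝒯 with f ∈ T, w T) - ∑ T ∈ 𝒯, w T) := by
    rw [Finset.sum_filter, Finset.mul_sum, ← Finset.sum_sub_distrib, Finset.mul_sum]
    apply Finset.sum_congr rfl
    intro T hTT
    rw [hW T hTT]
    unfold sgn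
    simp only
    split_ifs <;> ring
  unfold bias sig Mtree
  rw [e1, e2, mul_div_mul_left _ _ hQ0, sub_div, div_self hS0, mul_div_assoc]

/-- Update of the coordinate `(k, f)`. -/
noncomputable def upd (M : (E → ℝ) → E → ℝ) (h : ℝ) (k : ℕ) (Θ : E → ℝ) (f : E)
    (y : ℕ × E → ℝ) : ℕ × E → ℝ :=
  Function.update y (k, f)
    (tau (Θ f) h (sig M (con k y) Θ (fun e => y (k, e)) f) (y (k, f)))

/-- Updates of the coordinates in a list. -/
noncomputable def foldMap (M : (E → ℝ) → E → ℝ) (h : ℝ) (k : ℕ) (Θ : E → ℝ) (l : List E)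
    (y : ℕ × E → ℝ) : ℕ × E → ℝ :=
  fun p => if p.1 = k then
    (l.foldl (seqUpd M (con k y) h) (Θ, fun e => y (k, e))).2 p.2 else y p

/-- `j` rounds. -/
noncomputable def iterMap (M : (E → ℝ) → E → ℝ) (h : ℝ) (k : ℕ) (l : List E) (j : ℕ)
    (y : ℕ × E → ℝ) : ℕ × E → ℝ :=
  fun p => if p.1 = k then (seqIter M (con k y) h l (fun e => y (k, e)) j).2 p.2 else y p

/-- The first `k` stages. -/
noncomputable def stageMap (M : (E → ℝ) → E → ℝ) (J : ℕ) (l : List E) (k : ℕ)
    (U : ℕ × E → ℝ) : ℕ × E → ℝ :=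
  fun p => if p.1 < k then seqObs M l J U p.1 p.2 else U p

omit [DecidableEq E] in
theorem con_congr {k : ℕ} {y z : ℕ × E → ℝ} (h : ∀ p : ℕ × E, p.1 < k → y p = z p) :
    con k y = con k z := by
  funext f
  unfold con
  apply Finset.prod_congr rfl
  intro k' hk'
  rw [h (k', f) (Finset.mem_range.1 hk')]

theorem foldMap_nil (M : (E → ℝ) → E → ℝ) (h : ℝ) (k : ℕ) (Θ : E → ℝ) (y : ℕ × E → ℝ) :
    foldMap M h k Θ [] y = y := by
  funext p
  unfold foldMap
  split_ifs with hp
  · simp [← hp]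
  · rfl

theorem foldMap_cons (M : (E → ℝ) → E → ℝ) (h : ℝ) (k : ℕ) (Θ : E → ℝ) (f : E) (l : List E)
    (y : ℕ × E → ℝ) :
    foldMap M h k Θ (f :: l) y =
      foldMap M h k (Function.update Θ f (Θ f + h)) l (upd M h k Θ f y) := by
  have hc : con k (upd M h k Θ f y) = con k y := by
    apply con_congr
    intro p hp
    unfold upd
    rw [Function.update_of_ne]
    rintro rfl
    exact lt_irrefl _ hp
  have hs : (fun e => upd M h k Θ f y (k, e)) = (seqUpd M (con k y) h
      (Θ, fun e => y (k, e)) f).2 := by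
    funext e
    unfold upd seqUpd
    simp only
    by_cases he : e = f
    · subst he; simp
    · rw [Function.update_of_ne (by simpa using he), Function.update_of_ne he]
  funext p
  unfold foldMap
  rw [hc, hs]
  split_ifs with hp
  · rw [List.foldl_cons]
    rfl
  · unfold upd
    rw [Function.update_of_ne]
    rintro rfl
    exact hp rfl

theorem foldl_fst (M : (E → ℝ) → E → ℝ) (c : E → ℝ) (h : ℝ) (l : List E) (hl : l.Nodup) :
    ∀ s : (E → ℝ) × (E → ℝ),
      (l.foldl (seqUpd M c h) s).1 = fun g => if g ∈ l then s.1 g + h else s.1 g := by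
  induction l with
  | nil => intro s; simp
  | cons f l ih =>
    intro s
    rw [List.nodup_cons] at hl
    rw [List.foldl_cons, ih hl.2]
    funext g
    unfold seqUpd
    simp only [List.mem_cons]
    by_cases hg : g = f
    · subst hg; simp [hl.1]
    · simp [hg]

theorem seqIter_fst (M : (E → ℝ) → E → ℝ) (c : E → ℝ) (h : ℝ) (l : List E) (hl : l.Nodup)
    (y : E → ℝ) (j : ℕ) :
    (seqIter M c h l y j).1 = fun g => if g ∈ l then (j : ℝ) * h else 0 := by
  induction j with
  | zero => simp [seqIter]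
  | succ j ih =>
    rw [seqIter, seqRound, foldl_fst M c h l hl, ih]
    funext g
    by_cases hg : g ∈ l
    · simp only [hg, if_true]
      push_cast; ring
    · simp only [hg, if_false]

theorem iterMap_zero (M : (E → ℝ) → E → ℝ) (h : ℝ) (k : ℕ) (l : List E) (y : ℕ × E → ℝ) :
    iterMap M h k l 0 y = y := by
  funext p
  unfold iterMap seqIter
  split_ifs with hp
  · simp [← hp]
  · rfl

theorem iterMap_succ (M : (E → ℝ) → E → ℝ) (h : ℝ) (k : ℕ) (l : List E) (hl : l.Nodup) (j : ℕ)
    (y : ℕ × E → ℝ) :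
    iterMap M h k l (j + 1) y =
      foldMap M h k (fun g => if g ∈ l then (j : ℝ) * h else 0) l (iterMap M h k l j y) := by
  have hc : con k (iterMap M h k l j y) = con k y := by
    apply con_congr
    intro p hp
    unfold iterMap
    rw [if_neg hp.ne]
  funext p
  unfold foldMap
  rw [hc]
  unfold iterMap
  split_ifs with hp
  · rw [seqIter, seqRound]
    simp only [if_true]
    rw [← seqIter_fst M (con k y) h l hl (fun e => y (k, e)) j]
  · rfl

theorem seqCon_eq (M : (E → ℝ) → E → ℝ) (l : List E) (J : ℕ) (U : ℕ × E → ℝ) (k : ℕ) :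
    seqCon M l J U k = con k (stageMap M J l k U) := by
  have : ∀ k', seqCon M l J U k' = fun f => ∏ k'' ∈ Finset.range k',
      lr (1 / 2) (seqObs M l J U k'' f) := by
    intro k'
    induction k' with
    | zero => funext f; simp [seqCon]
    | succ k' ih =>
      funext f
      rw [Finset.prod_range_succ, seqCon]
      simp only [seqObs]
      rw [congrFun ih f]
      rfl
  rw [this]
  funext f
  unfold con stageMap
  apply Finset.prod_congr rfl
  intro k' hk'
  simp only [Finset.mem_range.1 hk', if_true]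

theorem stageMap_zero (M : (E → ℝ) → E → ℝ) (J : ℕ) (l : List E) (U : ℕ × E → ℝ) :
    stageMap M J l 0 U = U := by
  funext p; simp [stageMap]

theorem stageMap_succ (M : (E → ℝ) → E → ℝ) (J : ℕ) (l : List E) (k : ℕ) (U : ℕ × E → ℝ) :
    stageMap M J l (k + 1) U = iterMap M (1 / (2 * J)) k l J (stageMap M J l k U) := by
  have hs : (fun e => stageMap M J l k U (k, e)) = fun e => U (k, e) := by
    funext e; simp [stageMap]
  funext p
  unfold iterMap
  rw [← seqCon_eq, hs]
  by_cases hp : p.1 = k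
  · subst hp
    simp [stageMap, seqObs]
  · rw [if_neg hp]
    unfold stageMap
    by_cases hp2 : p.1 < k
    · rw [if_pos hp2, if_pos (by omega)]
    · rw [if_neg hp2, if_neg (by omega)]

theorem measurable_Mtree (𝒯 : Finset (Finset E)) (e : E) :
    Measurable fun c : E → ℝ => Mtree 𝒯 c e := by
  unfold Mtree
  apply Measurable.div
  · apply Finset.measurable_sum
    intro T _
    apply Finset.measurable_prod
    intro g _
    exact measurable_pi_apply g
  · apply Finset.measurable_sum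
    intro T _
    apply Finset.measurable_prod
    intro g _
    exact measurable_pi_apply g

theorem measurable_lr (θ : ℝ) : Measurable (lr θ) := by
  unfold lr; fun_prop

omit [DecidableEq E] in
theorem measurable_con (k : ℕ) : Measurable fun y : ℕ × E → ℝ => con k y := by
  rw [measurable_pi_iff]
  intro f
  unfold con
  apply Finset.measurable_prod
  intro k' _
  exact (measurable_lr _).comp (measurable_pi_apply _)

theorem measurable_upd {M : (E → ℝ) → E → ℝ} (hM : ∀ e, Measurable fun c => M c e) (h : ℝ)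
    (k : ℕ) (Θ : E → ℝ) (f : E) : Measurable (upd M h k Θ f) := by
  have h1 : Measurable fun y : ℕ × E → ℝ => ctil (con k y) Θ (fun e => y (k, e)) f := by
    rw [measurable_pi_iff]
    intro g
    have hc : Measurable fun y : ℕ × E → ℝ => con k y g :=
      (measurable_pi_apply g).comp (measurable_con k)
    unfold ctil
    split_ifs
    · exact hc
    · exact hc.mul ((measurable_lr _).comp (measurable_pi_apply _))
  have h2 : Measurable fun y : ℕ × E → ℝ =>
      tau (Θ f) h (sig M (con k y) Θ (fun e => y (k, e)) f) (y (k, f)) := by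
    have : Measurable fun y : ℕ × E → ℝ =>
        ((Θ f, h, sig M (con k y) Θ (fun e => y (k, e)) f, y (k, f)) : ℝ × ℝ × ℝ × ℝ) := by
      refine measurable_const.prodMk (measurable_const.prodMk (Measurable.prodMk ?_ ?_))
      · unfold sig
        exact (((hM f).comp h1).const_mul 2).sub_const 1
      · exact measurable_pi_apply _
    exact measurable_tau.comp this
  unfold upd
  have : Measurable fun y : ℕ × E → ℝ => ((y,
      tau (Θ f) h (sig M (con k y) Θ (fun e => y (k, e)) f) (y (k, f))) : (ℕ × E → ℝ) × ℝ) :=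
    measurable_id.prodMk h2
  exact measurable_update'.comp this

theorem measurable_foldMap {M : (E → ℝ) → E → ℝ} (hM : ∀ e, Measurable fun c => M c e) (h : ℝ)
    (k : ℕ) (l : List E) : ∀ Θ : E → ℝ, Measurable (foldMap M h k Θ l) := by
  induction l with
  | nil =>
    intro Θ
    have : foldMap M h k Θ [] = id := funext fun y => foldMap_nil M h k Θ y
    rw [this]; exact measurable_id
  | cons f l ih =>
    intro Θ
    have : foldMap M h k Θ (f :: l) =
        foldMap M h k (Function.update Θ f (Θ f + h)) l ∘ upd M h k Θ f :=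
      funext fun y => foldMap_cons M h k Θ f l y
    rw [this]
    exact (ih _).comp (measurable_upd hM h k Θ f)

theorem measurable_iterMap {M : (E → ℝ) → E → ℝ} (hM : ∀ e, Measurable fun c => M c e) (h : ℝ)
    (k : ℕ) {l : List E} (hl : l.Nodup) (j : ℕ) : Measurable (iterMap M h k l j) := by
  induction j with
  | zero =>
    have : iterMap M h k l 0 = id := funext fun y => iterMap_zero M h k l y
    rw [this]; exact measurable_id
  | succ j ih =>
    have : iterMap M h k l (j + 1) =
        foldMap M h k (fun g => if g ∈ l then (j : ℝ) * h else 0) l ∘ iterMap M h k l j :=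
      funext fun y => iterMap_succ M h k l hl j y
    rw [this]
    exact (measurable_foldMap hM h k l _).comp ih

theorem measurable_stageMap {M : (E → ℝ) → E → ℝ} (hM : ∀ e, Measurable fun c => M c e) (J : ℕ)
    {l : List E} (hl : l.Nodup) (k : ℕ) : Measurable (stageMap M J l k) := by
  induction k with
  | zero =>
    have : stageMap M J l 0 = id := funext fun y => stageMap_zero M J l y
    rw [this]; exact measurable_id
  | succ k ih =>
    have : stageMap M J l (k + 1) = iterMap M (1 / (2 * J)) k l J ∘ stageMap M J l k :=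
      funext fun y => stageMap_succ M J l k y
    rw [this]
    exact (measurable_iterMap hM _ k hl J).comp ih

/-- Measurability of the scheme. -/
theorem measurable_seqObs (𝒯 : Finset (Finset E)) {l : List E} (hl : l.Nodup) (J k : ℕ) (f : E) :
    Measurable (fun U : ℕ × E → ℝ => seqObs (Mtree 𝒯) l J U k f) := by
  have h := (measurable_pi_apply ((k, f) : ℕ × E)).comp
    (measurable_stageMap (measurable_Mtree 𝒯) J hl (k + 1))
  have e : (fun U : ℕ × E → ℝ => seqObs (Mtree 𝒯) l J U k f) =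
      (fun y : ℕ × E → ℝ => y (k, f)) ∘ stageMap (Mtree 𝒯) J l (k + 1) := by
    funext U
    simp [stageMap]
  rw [e]; exact h

theorem map_upd {𝒯 : Finset (Finset E)} (h𝒯 : 𝒯.Nonempty) {l : List E}
    (hT : ∀ T ∈ 𝒯, ∀ g ∈ T, g ∈ l) {k K : ℕ} (hk : k < K) {h : ℝ}
    {Θ : E → ℝ} (hΘ : ∀ g ∈ l, |Θ g| ≤ 1 / 2) {f : E} (hf : f ∈ l) (hΘ' : |Θ f + h| ≤ 1 / 2) :
    ((Measure.infinitePi (fun _ : ℕ × E => unifR)).withDensity (fun y => ENNReal.ofReal
      (mix 𝒯 (Finset.range K ×ˢ l.toFinset) sgn (Par k Θ) y))).map (upd (Mtree 𝒯) h k Θ f) =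
    (Measure.infinitePi (fun _ : ℕ × E => unifR)).withDensity (fun y => ENNReal.ofReal
      (mix 𝒯 (Finset.range K ×ˢ l.toFinset) sgn (Par k (Function.update Θ f (Θ f + h))) y)) := by
  set s := Finset.range K ×ˢ l.toFinset with hs
  have hi : (k, f) ∈ s := by
    rw [hs, Finset.mem_product, List.mem_toFinset]
    exact ⟨Finset.mem_range.2 hk, hf⟩
  have hP : Par k Θ (k, f) = Θ f := by simp [Par]
  have hP' : Function.update (Par k Θ) (k, f) (Par k Θ (k, f) + h) =
      Par k (Function.update Θ f (Θ f + h)) := by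
    rw [hP]
    funext p
    by_cases hp : p = (k, f)
    · subst hp; simp [Par]
    · rw [Function.update_of_ne hp]
      unfold Par
      split_ifs with h1 h2
      · rfl
      · rw [Function.update_of_ne]
        rintro h3
        exact hp (Prod.ext h2 h3)
      · rfl
  have key := map_mix h𝒯 hi (h := h) (x := sgn) (Θ := Par k Θ) abs_sgn (abs_Par hΘ)
    (by rw [hP]; exact hΘ')
  rw [hP'] at key
  rw [← key]
  apply Measure.map_congr
  apply (withDensity_absolutelyContinuous _ _).ae_le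
  filter_upwards [ae_mem_Icc s] with y hy
  rw [bias_eq h𝒯 hT hk hΘ hy f, hP]
  rfl

theorem mix_congr {𝒯 : Finset (Finset E)} {s : Finset (ℕ × E)} {Θ Θ' : ℕ × E → ℝ}
    (h : ∀ p ∈ s, Θ p = Θ' p) (y : ℕ × E → ℝ) : mix 𝒯 s sgn Θ y = mix 𝒯 s sgn Θ' y := by
  unfold mix wt
  congr 1
  apply Finset.sum_congr rfl
  intro T _
  apply Finset.prod_congr rfl
  intro p hp
  rw [h p hp]

theorem map_foldMap {𝒯 : Finset (Finset E)} (h𝒯 : 𝒯.Nonempty) {l : List E}
    (hT : ∀ T ∈ 𝒯, ∀ g ∈ T, g ∈ l) {k K : ℕ} (hk : k < K) {h : ℝ} (l' : List E)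
    (hl' : l'.Nodup) (hsub : ∀ g ∈ l', g ∈ l) :
    ∀ Θ : E → ℝ, (∀ g ∈ l, |Θ g| ≤ 1 / 2) → (∀ g ∈ l', |Θ g + h| ≤ 1 / 2) →
    ((Measure.infinitePi (fun _ : ℕ × E => unifR)).withDensity (fun y => ENNReal.ofReal
      (mix 𝒯 (Finset.range K ×ˢ l.toFinset) sgn (Par k Θ) y))).map
        (foldMap (Mtree 𝒯) h k Θ l') =
    (Measure.infinitePi (fun _ : ℕ × E => unifR)).withDensity (fun y => ENNReal.ofReal
      (mix 𝒯 (Finset.range K ×ˢ l.toFinset) sgn
        (Par k (fun g => if g ∈ l' then Θ g + h else Θ g)) y)) := by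
  induction l' with
  | nil =>
    intro Θ _ _
    have e : foldMap (Mtree 𝒯) h k Θ [] = id := funext fun y => foldMap_nil _ h k Θ y
    rw [e, Measure.map_id]
    simp
  | cons f l' ih =>
    intro Θ hΘ hΘ'
    rw [List.nodup_cons] at hl'
    have hf : f ∈ l := hsub f (by simp)
    have e : foldMap (Mtree 𝒯) h k Θ (f :: l') =
        foldMap (Mtree 𝒯) h k (Function.update Θ f (Θ f + h)) l' ∘ upd (Mtree 𝒯) h k Θ f :=
      funext fun y => foldMap_cons _ h k Θ f l' y
    have hup : ∀ g ∈ l, |Function.update Θ f (Θ f + h) g| ≤ 1 / 2 := by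
      intro g hg
      by_cases hgf : g = f
      · subst hgf; simpa using hΘ' g (by simp)
      · rw [Function.update_of_ne hgf]; exact hΘ g hg
    rw [e, ← Measure.map_map (measurable_foldMap (measurable_Mtree 𝒯) h k l' _)
      (measurable_upd (measurable_Mtree 𝒯) h k Θ f), map_upd h𝒯 hT hk hΘ hf (hΘ' f (by simp)),
      ih hl'.2 (fun g hg => hsub g (by simp [hg])) _ hup]
    · congr 1
      funext y
      congr 1
      congr 1
      congr 1
      funext g
      by_cases hgf : g = f
      · subst hgf; simp [hl'.1]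
      · simp [hgf]
    · intro g hg
      have hgf : g ≠ f := by rintro rfl; exact hl'.1 hg
      rw [Function.update_of_ne hgf]
      exact hΘ' g (by simp [hg])

theorem map_iterMap {𝒯 : Finset (Finset E)} (h𝒯 : 𝒯.Nonempty) {l : List E} (hl : l.Nodup)
    (hT : ∀ T ∈ 𝒯, ∀ g ∈ T, g ∈ l) {k K : ℕ} (hk : k < K) {J : ℕ} (hJ : 1 ≤ J) (j : ℕ)
    (hj : j ≤ J) :
    ((Measure.infinitePi (fun _ : ℕ × E => unifR)).withDensity (fun y => ENNReal.ofReal
      (mix 𝒯 (Finset.range K ×ˢ l.toFinset) sgn (Par k (fun _ => 0)) y))).map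
        (iterMap (Mtree 𝒯) (1 / (2 * J)) k l j) =
    (Measure.infinitePi (fun _ : ℕ × E => unifR)).withDensity (fun y => ENNReal.ofReal
      (mix 𝒯 (Finset.range K ×ˢ l.toFinset) sgn
        (Par k (fun g => if g ∈ l then (j : ℝ) * (1 / (2 * J)) else 0)) y)) := by
  have hJ' : (0 : ℝ) < J := by exact_mod_cast hJ
  have hb : ∀ i : ℕ, i ≤ J → |(i : ℝ) * (1 / (2 * J))| ≤ 1 / 2 := by
    intro i hi
    have hi' : (i : ℝ) ≤ J := by exact_mod_cast hi
    rw [abs_of_nonneg (by positivity), mul_one_div, div_le_div_iff₀ (by positivity) (by norm_num)]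
    linarith
  induction j with
  | zero =>
    have e : iterMap (Mtree 𝒯) (1 / (2 * J)) k l 0 = id :=
      funext fun y => iterMap_zero _ _ k l y
    rw [e, Measure.map_id]
    simp
  | succ j ih =>
    have e : iterMap (Mtree 𝒯) (1 / (2 * J)) k l (j + 1) =
        foldMap (Mtree 𝒯) (1 / (2 * J)) k (fun g => if g ∈ l then (j : ℝ) * (1 / (2 * J)) else 0) l
          ∘ iterMap (Mtree 𝒯) (1 / (2 * J)) k l j :=
      funext fun y => iterMap_succ _ _ k l hl j y
    rw [e, ← Measure.map_map (measurable_foldMap (measurable_Mtree 𝒯) _ k l _)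
      (measurable_iterMap (measurable_Mtree 𝒯) _ k hl j), ih (by omega),
      map_foldMap h𝒯 hT hk l hl (fun g hg => hg)]
    · congr 1
      funext y
      congr 1
      congr 1
      congr 1
      funext g
      split_ifs
      · push_cast; ring
      · rfl
    · intro g hg
      simp only [hg, if_true]
      exact hb j (by omega)
    · intro g hg
      simp only [hg, if_true]
      have := hb (j + 1) hj
      push_cast at this
      convert this using 2
      ring

theorem map_stageMap {𝒯 : Finset (Finset E)} (h𝒯 : 𝒯.Nonempty) {l : List E} (hl : l.Nodup)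
    (hT : ∀ T ∈ 𝒯, ∀ g ∈ T, g ∈ l) {J : ℕ} (hJ : 1 ≤ J) {k K : ℕ} (hk : k ≤ K) :
    (Measure.infinitePi (fun _ : ℕ × E => unifR)).map (stageMap (Mtree 𝒯) J l k) =
    (Measure.infinitePi (fun _ : ℕ × E => unifR)).withDensity (fun y => ENNReal.ofReal
      (mix 𝒯 (Finset.range K ×ˢ l.toFinset) sgn (Par k (fun _ => 0)) y)) := by
  have hJ' : (0 : ℝ) < J := by exact_mod_cast hJ
  induction k with
  | zero =>
    have e : stageMap (Mtree 𝒯) J l 0 = id := funext fun y => stageMap_zero _ J l y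
    have e2 : (fun y : ℕ × E → ℝ => ENNReal.ofReal
        (mix 𝒯 (Finset.range K ×ˢ l.toFinset) sgn (Par 0 (fun _ => 0)) y)) = 1 := by
      funext y
      have h0 : Par 0 (fun _ : E => (0 : ℝ)) = fun _ => 0 := by
        funext p; simp [Par]
      have hc : (𝒯.card : ℝ) ≠ 0 := by exact_mod_cast (Finset.card_pos.2 h𝒯).ne'
      rw [h0]
      simp [mix, wt, hc]
    rw [e, Measure.map_id, e2, withDensity_one]
  | succ k ih =>
    have e : stageMap (Mtree 𝒯) J l (k + 1) =
        iterMap (Mtree 𝒯) (1 / (2 * J)) k l J ∘ stageMap (Mtree 𝒯) J l k :=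
      funext fun y => stageMap_succ _ J l k y
    rw [e, ← Measure.map_map (measurable_iterMap (measurable_Mtree 𝒯) _ k hl J)
      (measurable_stageMap (measurable_Mtree 𝒯) J hl k), ih (by omega),
      map_iterMap h𝒯 hl hT (by omega) hJ J le_rfl]
    congr 1
    funext y
    congr 1
    apply mix_congr
    intro p hp
    rw [Finset.mem_product, List.mem_toFinset] at hp
    unfold Par
    by_cases h1 : p.1 < k
    · rw [if_pos h1, if_pos (by omega)]
    · by_cases h2 : p.1 = k
      · rw [if_neg h1, if_pos h2, if_pos (by omega)]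
        simp only [hp.2, if_true]
        field_simp
      · rw [if_neg h1, if_neg h2, if_neg (by omega)]
        simp

/-- The first `K` stages of the sequential scheme over `l` (`K` stages of `J` rounds) push the law
of iid uniform variables to the measure with density `rho 𝒯 l (1/2) K`. -/
theorem map_seqObs (𝒯 : Finset (Finset E)) (h𝒯 : 𝒯.Nonempty) (l : List E) (hl : l.Nodup)
    (hT : ∀ T ∈ 𝒯, ∀ g ∈ T, g ∈ l) (J K : ℕ) (hJ : 1 ≤ J) :
    (Measure.infinitePi (fun _ : ℕ × E => unifR)).map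
      (fun U p => if p.1 < K then seqObs (Mtree 𝒯) l J U p.1 p.2 else U p) =
    (Measure.infinitePi (fun _ : ℕ × E => unifR)).withDensity
      (fun y => ENNReal.ofReal (rho 𝒯 l (fun _ => 1 / 2) K y)) := by
  have h := map_stageMap h𝒯 hl hT hJ (le_refl K)
  rw [show (fun (U : ℕ × E → ℝ) (p : ℕ × E) => if p.1 < K then seqObs (Mtree 𝒯) l J U p.1 p.2
    else U p) = stageMap (Mtree 𝒯) J l K from rfl, h]
  congr 1
  funext y
  congr 1
  unfold mix wt rho
  congr 1
  apply Finset.sum_congr rfl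
  intro T _
  rw [Finset.prod_product]
  apply Finset.prod_congr rfl
  intro k hk
  apply Finset.prod_congr rfl
  intro f _
  simp [Par, Finset.mem_range.1 hk, sgn]

end Vale.Agent.FUSF
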