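import Vale.Agent.FUSF.Defs

/-!
# P143, existence of exhaustions and uniqueness of the free uniform spanning forest
-/

open MeasureTheory Filter Topology Set
open scoped unitInterval

namespace Vale.Agent.FUSF

/-- Finite cylinders. -/
def cylSets (α : Type*) : Set (Set (Set α)) :=
  {C | ∃ (F : Finset α) (B : Set α), C = {S : Set α | ∀ e ∈ F, (e ∈ S ↔ e ∈ B)}}

theorem isPiSystem_cylSets (α : Type*) : IsPiSystem (cylSets α) := by
  classical
  rintro _ ⟨F, B, rfl⟩ _ ⟨F', B', rfl⟩ ⟨S, hS, hS'⟩
  refine ⟨F ∪ F', S, ?_⟩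
  ext T
  simp only [mem_inter_iff, mem_ofPred_eq, Finset.mem_union]
  constructor
  · rintro ⟨h1, h2⟩ e (he | he)
    · exact (h1 e he).trans (hS e he).symm
    · exact (h2 e he).trans (hS' e he).symm
  · intro h
    exact ⟨fun e he => (h e (Or.inl he)).trans (hS e he),
      fun e he => (h e (Or.inr he)).trans (hS' e he)⟩

theorem generateFrom_cylSets (α : Type*) :
    (inferInstance : MeasurableSpace (Set α)) = MeasurableSpace.generateFrom (cylSets α) := by
  apply le_antisymm
  · have h : @Measurable (Set α) (Set α) (MeasurableSpace.generateFrom (cylSets α)) _ id := by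
      refine (@measurable_set_iff α (Set α) (MeasurableSpace.generateFrom (cylSets α)) id).2
        fun e => ?_
      refine @measurable_to_prop (Set α) (MeasurableSpace.generateFrom (cylSets α)) _ ?_
      apply MeasurableSpace.measurableSet_generateFrom
      exact ⟨{e}, univ, by ext S; simp⟩
    intro s hs
    exact h hs
  · apply MeasurableSpace.generateFrom_le
    rintro _ ⟨F, B, rfl⟩
    have h : {S : Set α | ∀ e ∈ F, (e ∈ S ↔ e ∈ B)} = ⋂ e ∈ F, {S : Set α | e ∈ S ↔ e ∈ B} := by
      ext S; simp
    rw [h]
    refine Finset.measurableSet_biInter _ fun e _ => ?_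
    have h1 : Measurable fun S : Set α => e ∈ S := by fun_prop
    have h2 : Measurable fun S : Set α => (e ∈ S ↔ e ∈ B) := h1.iff measurable_const
    exact h2.setOf

/-- The free uniform spanning forest is unique. -/
theorem IsFUSF.unique {V : Type*} {G : SimpleGraph V} {μ ν : Measure (Set (Sym2 V))}
    (hμ : IsFUSF G μ) (hν : IsFUSF G ν) : μ = ν := by
  have := hμ.prob
  have := hν.prob
  obtain ⟨H, hH⟩ := hμ.exhausts
  apply ext_of_generate_finite (cylSets (Sym2 V)) (generateFrom_cylSets _) (isPiSystem_cylSets _)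
  · rintro _ ⟨F, B, rfl⟩
    have h1 := tendsto_nhds_unique (hμ.tendsto H hH F B) (hν.tendsto H hH F B)
    rw [Measure.real, Measure.real] at h1
    exact (ENNReal.toReal_eq_toReal_iff' (measure_ne_top _ _) (measure_ne_top _ _)).1 h1
  · simp

/-- Exhaustions exist. -/
theorem exists_exhaustion {V : Type*} [Countable V] {G : SimpleGraph V} (hG : G.Connected) :
    ∃ H : ℕ → G.Subgraph, IsExhaustion G H := by
  classical
  obtain ⟨o⟩ := hG.nonempty
  have hne : Nonempty V := ⟨o⟩
  obtain ⟨e, he⟩ := exists_surjective_nat (V × V)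
  have hw : ∀ a, Nonempty (G.Walk o a) := fun a => hG.preconnected o a
  let w : (a : V) → G.Walk o a := fun a => (hw a).some
  let S : V × V → G.Subgraph := fun p =>
    if h : G.Adj p.1 p.2 then ((w p.1).concat h).toSubgraph else (w p.1).toSubgraph
  have hSc : ∀ p, (S p).Connected := by
    intro p
    simp only [S]
    split_ifs with h
    · exact SimpleGraph.Walk.toSubgraph_connected _
    · exact SimpleGraph.Walk.toSubgraph_connected _
  have hSf : ∀ p, (S p).verts.Finite := by
    intro p
    simp only [S]
    split_ifs with h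
    · rw [SimpleGraph.Walk.verts_toSubgraph]; exact List.finite_toSet _
    · rw [SimpleGraph.Walk.verts_toSubgraph]; exact List.finite_toSet _
  have hSo : ∀ p, o ∈ (S p).verts := by
    intro p
    simp only [S]
    split_ifs with h <;> simp
  let H : ℕ → G.Subgraph := fun n => Nat.rec (S (e 0)) (fun n K => K ⊔ S (e (n + 1))) n
  have H0 : H 0 = S (e 0) := rfl
  have Hs : ∀ n, H (n + 1) = H n ⊔ S (e (n + 1)) := fun n => rfl
  have hmono : Monotone H := monotone_nat_of_le_succ fun n => by rw [Hs]; exact le_sup_left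
  have hle : ∀ n, S (e n) ≤ H n := by
    intro n
    cases n with
    | zero => exact le_rfl
    | succ n => rw [Hs]; exact le_sup_right
  have ho : ∀ n, o ∈ (H n).verts := fun n => (hle n).1 (hSo (e n))
  refine ⟨H, ⟨?_, ?_, hmono, ?_, ?_⟩⟩
  · intro n
    induction n with
    | zero => exact hSf _
    | succ n ih =>
      rw [Hs, SimpleGraph.Subgraph.verts_sup]
      exact ih.union (hSf _)
  · intro n
    induction n with
    | zero => exact hSc _
    | succ n ih =>
      rw [Hs]
      exact SimpleGraph.Subgraph.connected_sup ih.preconnected (hSc _).preconnected ⟨o, ho n, hSo _⟩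
  · intro v
    obtain ⟨n, hn⟩ := he (v, v)
    refine ⟨n, (hle n).1 ?_⟩
    rw [hn]
    simp [S]
  · intro f hf
    induction f with
    | _ a b =>
      obtain ⟨n, hn⟩ := he (a, b)
      have hab : G.Adj a b := hf
      refine ⟨n, SimpleGraph.Subgraph.edgeSet_mono (hle n) ?_⟩
      rw [hn]
      simp [S, hab]

end Vale.Agent.FUSF
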