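import Vale.Agent.FUSF.Main

/-!
# P143 (e), the equivariant map of the vertex labels
-/

open Set Filter Topology MeasureTheory
open scoped unitInterval

namespace Vale.Agent.FUSF

variable {V : Type*}

/-- The permutation of the pairs induced by a permutation of the vertices. -/
def symEquiv (τ : Equiv.Perm V) : Sym2 V ≃ Sym2 V where
  toFun := Sym2.map τ
  invFun := Sym2.map τ.symm
  left_inv := sym2_map_symm_map τ
  right_inv := sym2_map_map_symm τ

section

variable [DecidableEq V]

theorem parY_map (G : SimpleGraph V) (U : ℕ × Sym2 V → ℝ) (τ : Equiv.Perm V) :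
    parY (G.map τ.toEmbedding) (fun p => U (p.1, Sym2.map τ.symm p.2)) =
      fun p => parY G U (p.1, Sym2.map τ.symm p.2) := by
  funext p
  unfold parY
  have h := fun j => parObs_equiv (M := Mp G) (M' := Mp (G.map τ.toEmbedding)) (symEquiv τ)
    (fun c e => Mp_map G c e τ) (2 ^ j) U p.1
  have h2 : ∀ j, parObs (Mp (G.map τ.toEmbedding)) (2 ^ j)
      (fun p => U (p.1, Sym2.map τ.symm p.2)) p.1 p.2 =
      parObs (Mp G) (2 ^ j) U p.1 (Sym2.map τ.symm p.2) := fun j => congrFun (h j) p.2
  simp only [h2]

theorem Psi_map (G : SimpleGraph V) (U : ℕ × Sym2 V → ℝ) (τ : Equiv.Perm V) :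
    Psi (G.map τ.toEmbedding) (fun p => U (p.1, Sym2.map τ.symm p.2)) =
      Sym2.map τ '' Psi G U := by
  have havg : ∀ K e, avg (Sym2.map τ e) K (parY (G.map τ.toEmbedding)
      (fun p => U (p.1, Sym2.map τ.symm p.2))) = avg e K (parY G U) := by
    intro K e
    rw [parY_map]
    unfold avg
    simp only [sym2_map_symm_map]
  ext f
  obtain ⟨e, rfl⟩ := (symEquiv τ).surjective f
  have hinj : Function.Injective (Sym2.map τ) := (symEquiv τ).injective
  change Sym2.map τ e ∈ _ ↔ Sym2.map τ e ∈ _
  rw [hinj.mem_set_image]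
  unfold Psi
  simp only [mem_ofPred_eq, mem_edgeSet_map, havg]

theorem Psi_restr (G : SimpleGraph V) (U : ℕ × Sym2 V → ℝ) : Psi G (restr G U) = Psi G U := by
  have h1 : ∀ k, ∀ f ∈ G.edgeSet, parY G (restr G U) (k, f) = parY G U (k, f) := by
    intro k f hf
    unfold parY
    have h2 : ∀ j, parObs (Mp G) (2 ^ j) (restr G U) k f = parObs (Mp G) (2 ^ j) U k f := by
      intro j
      apply parObs_loc (S := G.edgeSet) (fun c c' hcc f _ => Mp_congr hcc f) _ _ k f hf
      intro k f hf
      unfold restr
      rw [if_pos hf]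
    simp only [h2]
  have h2 : ∀ f ∈ G.edgeSet, ∀ K, avg f K (parY G (restr G U)) = avg f K (parY G U) := by
    intro f hf K
    unfold avg
    simp only [h1 _ f hf]
  ext f
  unfold Psi
  simp only [mem_ofPred_eq]
  constructor
  · rintro ⟨hf, h⟩
    simp only [h2 f hf] at h
    exact ⟨hf, h⟩
  · rintro ⟨hf, h⟩
    refine ⟨hf, ?_⟩
    simp only [h2 f hf]
    exact h

end

/-- A decoder of the labels. -/
noncomputable def dec : I → Option (ℕ × ℕ) → ℝ :=
  (exists_decode (Option (ℕ × ℕ)) unifR).choose

theorem measurable_dec : Measurable dec := (exists_decode (Option (ℕ × ℕ)) unifR).choose_spec.1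

theorem map_dec : (volume : Measure I).map dec =
    Measure.infinitePi (fun _ : Option (ℕ × ℕ) => unifR) :=
  (exists_decode (Option (ℕ × ℕ)) unifR).choose_spec.2

open Classical in
/-- The free uniform spanning forest as a function of the graph and the vertex labels. -/
noncomputable def Phi (G : SimpleGraph V) (U : V → I) : Set (Sym2 V) :=
  Psi G (Lab G (fun v => dec (U v) none) (fun q => dec (U q.1) (some q.2)))

/-- The decoded labels. -/
noncomputable def decU (U : V → I) : (V → ℝ) × (V × ℕ × ℕ → ℝ) :=
  (fun v => dec (U v) none, fun q => dec (U q.1) (some q.2))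

theorem measurable_decU : Measurable (decU (V := V)) := by
  have hd : ∀ i, Measurable fun u => dec u i :=
    fun i => (measurable_pi_apply i).comp measurable_dec
  apply Measurable.prodMk
  · exact measurable_pi_iff.2 fun v => (hd none).comp (measurable_pi_apply v)
  · exact measurable_pi_iff.2 fun q => (hd (some q.2)).comp (measurable_pi_apply q.1)

theorem measurable_Phi [Countable V] :
    Measurable fun p : SimpleGraph V × (V → I) => Phi p.1 p.2 := by
  classical
  have h1 : Measurable fun p : SimpleGraph V × (V → I) => ((p.1, decU p.2) :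
      SimpleGraph V × (V → ℝ) × (V × ℕ × ℕ → ℝ)) :=
    measurable_fst.prodMk (measurable_decU.comp measurable_snd)
  have h2 := measurable_Lab.comp h1
  have h3 : Measurable fun p : SimpleGraph V × (V → I) => ((p.1, Lab p.1 (decU p.2).1
      (decU p.2).2) : SimpleGraph V × (ℕ × Sym2 V → ℝ)) := measurable_fst.prodMk h2
  have h4 := measurable_Psi.comp h3
  exact h4

theorem Phi_map (G : SimpleGraph V) (U : V → I) (τ : Equiv.Perm V) :
    Phi (G.map τ.toEmbedding) (fun x => U (τ.symm x)) = Sym2.map τ '' Phi G U := by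
  classical
  unfold Phi
  rw [← Psi_map]
  congr 1
  funext p
  obtain ⟨k, f⟩ := p
  obtain ⟨e, rfl⟩ := (symEquiv τ).surjective f
  change Lab (G.map τ.toEmbedding) (fun v => dec (U (τ.symm v)) none)
    (fun q => dec (U (τ.symm q.1)) (some q.2)) (k, Sym2.map τ e) = Lab G _ _ (k,
      Sym2.map τ.symm (Sym2.map τ e))
  rw [sym2_map_symm_map]
  exact Lab_map τ G (fun v => dec (U v) none) (fun q => dec (U q.1) (some q.2)) k e

/-- The law of the factor is the free uniform spanning forest. -/
theorem isFUSF_map_Phi [Countable V] {G : SimpleGraph V} (hG : G.Connected)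
    (hfin : ∀ v, (G.neighborSet v).Finite) :
    IsFUSF G ((iidUnif V).map (Phi G)) := by
  classical
  have hΨ : Measurable (Psi G) := measurable_Psi' G
  have hLab : Measurable fun p : (V → ℝ) × (V × ℕ × ℕ → ℝ) => Lab G p.1 p.2 :=
    measurable_Lab.comp (measurable_const.prodMk measurable_id)
  have h1 : Phi G = Psi G ∘ (fun p : (V → ℝ) × (V × ℕ × ℕ → ℝ) => Lab G p.1 p.2) ∘ decU := by
    funext U
    rfl
  have h2 : Psi G ∘ restr G = Psi G := funext fun U => Psi_restr G U
  have h3 : (iidUnif V).map (Phi G) =
      (Measure.infinitePi (fun _ : ℕ × Sym2 V => unifR)).map (Psi G) := by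
    rw [h1, ← Measure.map_map hΨ (hLab.comp measurable_decU),
      ← Measure.map_map hLab measurable_decU]
    have h4 : (iidUnif V).map decU = _ := map_decode (V := V) measurable_dec map_dec
    rw [h4, map_Lab hfin, Measure.map_map hΨ (measurable_restr G), h2]
  rw [h3]
  exact isFUSF_map_Psi hG

end Vale.Agent.FUSF
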