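import Mathlib

/-!
# P143, finitely supported rational flows and edge probabilities
-/

namespace Vale.Agent.FUSF

open Finset

variable {V : Type*}

open Classical in
/-- `θ` is a (rational, finitely supported) unit flow in `D` between the endpoints of `e`. -/
structure IsFlow (D : SimpleGraph V) (e : Sym2 V) (θ : V × V →₀ ℚ) : Prop where
  antisymm : ∀ x y, θ (y, x) = - θ (x, y)
  supp : ∀ x y, θ (x, y) ≠ 0 → D.Adj x y
  div : ∃ a b, s(a, b) = e ∧ ∀ x, (θ.sum fun p t => if p.1 = x then t else 0)
    = (if x = a then 1 else 0) - (if x = b then 1 else 0)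

/-- Energy of a flow with respect to the conductances `c`. -/
noncomputable def energy (c : Sym2 V → ℝ) (θ : V × V →₀ ℚ) : ℝ :=
  θ.sum fun p t => (t : ℝ) ^ 2 / (2 * c s(p.1, p.2))

open Classical in
/-- Edge probabilities of the free spanning forest of the network `(D, c)`: conductance times free
effective resistance (`0` for a pair which is not an edge). -/
noncomputable def Mfun (D : SimpleGraph V) (c : Sym2 V → ℝ) (e : Sym2 V) : ℝ :=
  if e ∈ D.edgeSet then c e * ⨅ θ : {θ : V × V →₀ ℚ // IsFlow D e θ}, energy c θ.1 else 0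

/-- `T` is the edge set of a spanning tree of the vertex set `W`. -/
def IsSpTree (W : Finset V) (T : Finset (Sym2 V)) : Prop :=
  (SimpleGraph.fromEdgeSet (T : Set (Sym2 V))).IsAcyclic ∧
    ∀ x ∈ W, ∀ y ∈ W, (SimpleGraph.fromEdgeSet (T : Set (Sym2 V))).Reachable x y

open Classical in
/-- Spanning trees of the finite graph with vertex set `W` and edge set `E`. -/
noncomputable def spTrees (E : Finset (Sym2 V)) (W : Finset V) : Finset (Finset (Sym2 V)) :=
  E.powerset.filter (IsSpTree W)

end Vale.Agent.FUSF
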