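import Mathlib

/-!
# P143, the schemes (definitions)

`E` is the set of edges. `M c e` is the probability of the edge `e` in the network with
conductances `c`. All observations take values in `[0,1]`.
-/

namespace Vale.Agent.FUSF

/-- Distribution function of the density `1 + s (2 y - 1)` on `[0,1]`. -/
def Fd (s y : ℝ) : ℝ := (1 - s) * y + s * y ^ 2

/-- Inverse of `Fd s` on `[0,1]`. -/
noncomputable def Finv (s u : ℝ) : ℝ := 2 * u / ((1 - s) + √((1 - s) ^ 2 + 4 * s * u))

/-- Monotone transport of the density `1 + θσ(2y-1)` to the density `1 + (θ+h)σ(2y-1)`. -/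
noncomputable def tau (θ h σ y : ℝ) : ℝ := Finv ((θ + h) * σ) (Fd (θ * σ) y)

/-- Likelihood ratio of an observation `y` with parameter `θ`. -/
noncomputable def lr (θ y : ℝ) : ℝ := (1 + θ * (2 * y - 1)) / (1 - θ * (2 * y - 1))

section

variable {E : Type*} [DecidableEq E]

/-- Conductances seen by the edge `f`: current observations `y` with parameters `Θ`, the own
current observation excluded. -/
noncomputable def ctil (c : E → ℝ) (Θ y : E → ℝ) (f : E) : E → ℝ :=
  fun g => if g = f then c g else c g * lr (Θ g) (y g)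

/-- Conditional bias of the edge `f`. -/
noncomputable def sig (M : (E → ℝ) → E → ℝ) (c Θ y : E → ℝ) (f : E) : ℝ :=
  2 * M (ctil c Θ y f) f - 1

/-- One parallel round, from parameter `θ` to parameter `θ + h`. -/
noncomputable def parRound (M : (E → ℝ) → E → ℝ) (c : E → ℝ) (θ h : ℝ) (y : E → ℝ) : E → ℝ :=
  fun f => tau θ h (sig M c (fun _ => θ) y f) (y f)

/-- `j` parallel rounds with step `h`, starting from parameter `0`. -/
noncomputable def parIter (M : (E → ℝ) → E → ℝ) (c : E → ℝ) (h : ℝ) (y : E → ℝ) : ℕ → E → ℝ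
  | 0 => y
  | j + 1 => parRound M c (j * h) h (parIter M c h y j)

/-- State of the sequential scheme: parameters and observations. Update of the coordinate `f`. -/
noncomputable def seqUpd (M : (E → ℝ) → E → ℝ) (c : E → ℝ) (h : ℝ) (s : (E → ℝ) × (E → ℝ))
    (f : E) : (E → ℝ) × (E → ℝ) :=
  (Function.update s.1 f (s.1 f + h),
    Function.update s.2 f (tau (s.1 f) h (sig M c s.1 s.2 f) (s.2 f)))

/-- One sequential round over the list `l`. -/
noncomputable def seqRound (M : (E → ℝ) → E → ℝ) (c : E → ℝ) (h : ℝ) (l : List E)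
    (s : (E → ℝ) × (E → ℝ)) : (E → ℝ) × (E → ℝ) :=
  l.foldl (seqUpd M c h) s

/-- `j` sequential rounds with step `h`, starting from parameter `0`. -/
noncomputable def seqIter (M : (E → ℝ) → E → ℝ) (c : E → ℝ) (h : ℝ) (l : List E) (y : E → ℝ) :
    ℕ → (E → ℝ) × (E → ℝ)
  | 0 => (fun _ => 0, y)
  | j + 1 => seqRound M c h l (seqIter M c h l y j)

/-- Conductances before stage `k` of the parallel scheme with `J` rounds per stage. -/
noncomputable def parCon (M : (E → ℝ) → E → ℝ) (J : ℕ) (U : ℕ × E → ℝ) : ℕ → E → ℝ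
  | 0 => fun _ => 1
  | k + 1 => fun f => parCon M J U k f *
      lr (1 / 2) (parIter M (parCon M J U k) (1 / (2 * J)) (fun e => U (k, e)) J f)

/-- Observations at stage `k` of the parallel scheme. -/
noncomputable def parObs (M : (E → ℝ) → E → ℝ) (J : ℕ) (U : ℕ × E → ℝ) (k : ℕ) : E → ℝ :=
  parIter M (parCon M J U k) (1 / (2 * J)) (fun e => U (k, e)) J

/-- Conductances before stage `k` of the sequential scheme over the list `l`. -/
noncomputable def seqCon (M : (E → ℝ) → E → ℝ) (l : List E) (J : ℕ) (U : ℕ × E → ℝ) :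
    ℕ → E → ℝ
  | 0 => fun _ => 1
  | k + 1 => fun f => seqCon M l J U k f *
      lr (1 / 2) ((seqIter M (seqCon M l J U k) (1 / (2 * J)) l (fun e => U (k, e)) J).2 f)

/-- Observations at stage `k` of the sequential scheme. -/
noncomputable def seqObs (M : (E → ℝ) → E → ℝ) (l : List E) (J : ℕ) (U : ℕ × E → ℝ) (k : ℕ) :
    E → ℝ :=
  (seqIter M (seqCon M l J U k) (1 / (2 * J)) l (fun e => U (k, e)) J).2

/-- Properties of the edge probabilities used in the analysis (dimension free). -/
structure Admissible (M : (E → ℝ) → E → ℝ) : Prop where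
  nonneg : ∀ c, (∀ f, 0 < c f) → ∀ e, 0 ≤ M c e
  le_one : ∀ c, (∀ f, 0 < c f) → ∀ e, M c e ≤ 1
  lip : ∀ (κ : ℝ) (c c' : E → ℝ), 1 ≤ κ → (∀ f, 0 < c f) → (∀ f, 0 < c' f) →
    (∀ f, c' f ≤ κ * c f) → (∀ f, c f ≤ κ * c' f) → ∀ e, M c' e ≤ κ ^ 2 * M c e

/-- Edge probabilities of the weighted measure on a finite family of finite sets. -/
noncomputable def Mtree (𝒯 : Finset (Finset E)) (c : E → ℝ) (e : E) : ℝ :=
  (∑ T ∈ 𝒯 with e ∈ T, ∏ g ∈ T, c g) / ∑ T ∈ 𝒯, ∏ g ∈ T, c g

/-- Law of the observations: density with respect to iid uniform variables on `[0,1]`. -/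
noncomputable def rho (𝒯 : Finset (Finset E)) (l : List E) (Θ : ℕ × E → ℝ) (K : ℕ)
    (y : ℕ × E → ℝ) : ℝ :=
  (∑ T ∈ 𝒯, ∏ k ∈ Finset.range K, ∏ f ∈ l.toFinset,
    (1 + Θ (k, f) * (if f ∈ T then 1 else -1) * (2 * y (k, f) - 1))) / 𝒯.card

end

/-- Uniform distribution on `[0,1]`, as a measure on `ℝ`. -/
noncomputable def unifR : MeasureTheory.Measure ℝ :=
  MeasureTheory.volume.restrict (Set.Icc 0 1)

end Vale.Agent.FUSF
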