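import Vale.Agent.FUSF.Flow
import Vale.Agent.FUSF.Schemes
import Vale.Agent.FUSF.Defs

/-!
# P143 (a), the Kirchhoff formula
-/

namespace Vale.Agent.FUSF

open Finset SimpleGraph

variable {V : Type*} [DecidableEq V]

/-- The graph with edge set `T`. -/
abbrev gr (T : Finset (Sym2 V)) : SimpleGraph V := fromEdgeSet (T : Set (Sym2 V))

omit [DecidableEq V] in
theorem reach_of_adj {G G' : SimpleGraph V} (h : ∀ x y, G.Adj x y → G'.Reachable x y) {x y : V}
    (hxy : G.Reachable x y) : G'.Reachable x y := by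
  obtain ⟨p⟩ := hxy
  induction p with
  | nil => exact Reachable.refl _
  | cons h1 _ ih => exact (h _ _ h1).trans ih

omit [DecidableEq V] in
theorem spTrees_nonempty (E : Finset (Sym2 V)) (W : Finset V)
    (_hE : ∀ e ∈ E, ¬ e.IsDiag) (_hW : ∀ e ∈ E, ∀ v ∈ e, v ∈ W)
    (hconn : ∀ x ∈ W, ∀ y ∈ W, (SimpleGraph.fromEdgeSet (E : Set (Sym2 V))).Reachable x y) :
    (spTrees E W).Nonempty := by
  classical
  obtain ⟨F, hF, hac, hreach⟩ := exists_isAcyclic_reachable_eq_le (G := gr E)
  have hT : gr (E.filter (· ∈ F.edgeSet)) = F := by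
    have : ((E.filter (· ∈ F.edgeSet) : Finset (Sym2 V)) : Set (Sym2 V)) = F.edgeSet := by
      ext e
      simp only [coe_filter, Set.mem_ofPred_eq, and_iff_right_iff_imp]
      intro he
      have := edgeSet_mono hF he
      rw [edgeSet_fromEdgeSet] at this
      exact_mod_cast this.1
    rw [gr, this, fromEdgeSet_edgeSet]
  refine ⟨E.filter (· ∈ F.edgeSet), ?_⟩
  simp only [spTrees, mem_filter, mem_powerset, filter_subset, true_and, IsSpTree]
  rw [show fromEdgeSet ((E.filter (· ∈ F.edgeSet) : Finset (Sym2 V)) : Set (Sym2 V)) = F from hT]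
  refine ⟨hac, fun x hx y hy => ?_⟩
  rw [hreach]
  exact hconn x hx y hy

/-! ### Flow of a walk -/

/-- The unit flow along a walk. -/
noncomputable def wflow {G : SimpleGraph V} : {a b : V} → G.Walk a b → (V × V →₀ ℚ)
  | _, _, .nil => 0
  | _, _, .cons (u := u) (v := v) _ p =>
      Finsupp.single (u, v) 1 - Finsupp.single (v, u) 1 + wflow p

theorem wflow_antisymm {G : SimpleGraph V} {a b : V} (p : G.Walk a b) (x y : V) :
    wflow p (y, x) = - wflow p (x, y) := by
  induction p with
  | nil => simp [wflow]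
  | @cons u v w h q ih =>
    simp only [wflow, Finsupp.add_apply, Finsupp.sub_apply, Finsupp.single_apply, Prod.mk.injEq, ih]
    have h1 : (u = y ∧ v = x) ↔ (v = x ∧ u = y) := and_comm
    have h2 : (v = y ∧ u = x) ↔ (u = x ∧ v = y) := and_comm
    simp only [h1, h2]
    ring

theorem wflow_supp {G : SimpleGraph V} {a b : V} (p : G.Walk a b) (x y : V)
    (h : wflow p (x, y) ≠ 0) : G.Adj x y := by
  induction p with
  | nil => simp [wflow] at h
  | @cons u v w huv q ih =>
    by_contra hn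
    apply h
    simp only [wflow, Finsupp.add_apply, Finsupp.sub_apply, Finsupp.single_apply, Prod.mk.injEq]
    rw [if_neg, if_neg]
    · have : wflow q (x, y) = 0 := by
        by_contra h0
        exact hn (ih h0)
      rw [this]; ring
    · rintro ⟨rfl, rfl⟩; exact hn huv.symm
    · rintro ⟨rfl, rfl⟩; exact hn huv

/-- Net outflow at `x`. -/
noncomputable def outf (x : V) (θ : V × V →₀ ℚ) : ℚ := θ.sum fun p t => if p.1 = x then t else 0

theorem outf_add (x : V) (θ θ' : V × V →₀ ℚ) : outf x (θ + θ') = outf x θ + outf x θ' := by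
  unfold outf
  exact Finsupp.sum_add_index' (fun p => by simp) (fun p t t' => by split_ifs <;> simp)

theorem outf_smul (x : V) (q : ℚ) (θ : V × V →₀ ℚ) : outf x (q • θ) = q * outf x θ := by
  unfold outf
  rw [Finsupp.sum_smul_index' (fun p => by simp), Finsupp.mul_sum]
  refine Finsupp.sum_congr fun p _ => ?_
  split_ifs <;> simp

theorem outf_zero (x : V) : outf x 0 = 0 := by simp [outf]

theorem outf_single (x : V) (p : V × V) (t : ℚ) :
    outf x (Finsupp.single p t) = if p.1 = x then t else 0 := by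
  unfold outf
  rw [Finsupp.sum_single_index]
  simp

theorem outf_sum {ι : Type*} (x : V) (s : Finset ι) (θ : ι → (V × V →₀ ℚ)) :
    outf x (∑ i ∈ s, θ i) = ∑ i ∈ s, outf x (θ i) := by
  classical
  induction s using Finset.induction_on with
  | empty => simp [outf_zero]
  | insert i s hi ih => rw [sum_insert hi, sum_insert hi, outf_add, ih]

theorem outf_wflow {G : SimpleGraph V} {a b : V} (p : G.Walk a b) (x : V) :
    outf x (wflow p) = (if x = a then 1 else 0) - (if x = b then 1 else 0) := by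
  induction p with
  | nil => simp [wflow, outf_zero]
  | @cons u v w huv q ih =>
    have : wflow (Walk.cons huv q) = (Finsupp.single (u, v) 1 + (-1 : ℚ) • Finsupp.single (v, u) 1)
        + wflow q := by
      simp [wflow, sub_eq_add_neg]
    rw [this, outf_add, outf_add, outf_smul, outf_single, outf_single, ih]
    simp only [eq_comm (a := x)]
    ring

/-! ### Trees and forests with two components -/

theorem gr_erase (T : Finset (Sym2 V)) (f : Sym2 V) : gr (T.erase f) = (gr T).deleteEdges {f} := by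
  simp [gr, deleteEdges, fromEdgeSet_sdiff]

theorem gr_insert (T : Finset (Sym2 V)) (x y : V) : gr (insert s(x, y) T) = gr T ⊔ edge x y := by
  rw [gr, coe_insert, edge, Set.insert_eq, fromEdgeSet_union, sup_comm]

/-- Reachability after removal of the edge `f`. -/
abbrev RE (T : Finset (Sym2 V)) (x y : V) : Prop := (gr T).Reachable x y

theorem not_reach_erase {T : Finset (Sym2 V)} (hT : (gr T).IsAcyclic) {x y : V} (hxy : x ≠ y)
    (hf : s(x, y) ∈ T) : ¬ RE (T.erase s(x, y)) x y := by
  have h1 := isAcyclic_iff_forall_isBridge.1 hT (e := s(x, y)) (by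
    rw [mem_edgeSet, fromEdgeSet_adj]; exact ⟨by exact_mod_cast hf, hxy⟩)
  rw [isBridge_iff, ← gr_erase] at h1
  exact h1

theorem reach_erase {T : Finset (Sym2 V)} {x y z w : V} (h : RE T z w)
    (hw : RE (T.erase s(x, y)) w x ∨ RE (T.erase s(x, y)) w y) :
    RE (T.erase s(x, y)) z x ∨ RE (T.erase s(x, y)) z y := by
  obtain ⟨p⟩ := h
  induction p with
  | nil => exact hw
  | @cons u v w huv q ih =>
    specialize ih hw
    by_cases he : s(u, v) = s(x, y)
    · rw [Sym2.eq_iff] at he
      rcases he with ⟨rfl, _⟩ | ⟨rfl, _⟩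
      · exact Or.inl (Reachable.refl _)
      · exact Or.inr (Reachable.refl _)
    · have h1 : RE (T.erase s(x, y)) u v := by
        apply Adj.reachable
        rw [fromEdgeSet_adj] at huv ⊢
        refine ⟨?_, huv.2⟩
        rw [coe_erase]
        exact ⟨huv.1, he⟩
      exact ih.imp h1.trans h1.trans

theorem acyclic_insert {F : Finset (Sym2 V)} (hF : (gr F).IsAcyclic) {x y : V}
    (h : ¬ RE F x y) : (gr (insert s(x, y) F)).IsAcyclic := by
  rw [gr_insert]
  exact hF.sup_edge_of_not_reachable h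

omit [DecidableEq V] in
theorem gr_mono {S T : Finset (Sym2 V)} (h : S ⊆ T) : gr S ≤ gr T :=
  fromEdgeSet_mono (by exact_mod_cast h)

open Classical in
theorem wflow_tree {T : Finset (Sym2 V)} (hT : (gr T).IsAcyclic) {x y : V} (hxy : x ≠ y)
    (hf : s(x, y) ∈ T) {a b : V} (p : (gr T).Walk a b) :
    wflow p (x, y) = (if RE (T.erase s(x, y)) x a then 1 else 0)
      - (if RE (T.erase s(x, y)) x b then 1 else 0) := by
  have hn := not_reach_erase hT hxy hf
  induction p with
  | nil => simp [wflow]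
  | @cons u v w huv q ih =>
    simp only [wflow, Finsupp.add_apply, Finsupp.sub_apply, Finsupp.single_apply, Prod.mk.injEq, ih]
    by_cases he : s(u, v) = s(x, y)
    · rw [Sym2.eq_iff] at he
      rcases he with ⟨rfl, rfl⟩ | ⟨rfl, rfl⟩
      · simp [hn, hxy]
        ring
      · simp [hn, hxy]
        ring
    · have h1 : RE (T.erase s(x, y)) u v := by
        apply Adj.reachable
        rw [fromEdgeSet_adj] at huv ⊢
        refine ⟨?_, huv.2⟩
        rw [coe_erase]
        exact ⟨huv.1, he⟩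
      have h2 : RE (T.erase s(x, y)) x u ↔ RE (T.erase s(x, y)) x v :=
        ⟨fun h => h.trans h1, fun h => h.trans h1.symm⟩
      have h3 : ¬ (u = x ∧ v = y) := by rintro ⟨rfl, rfl⟩; exact he rfl
      have h4 : ¬ (v = x ∧ u = y) := by rintro ⟨rfl, rfl⟩; exact he Sym2.eq_swap
      simp only [h2, if_neg h3, if_neg h4]
      ring

/-! ### The bijection between trees with an edge and two-component forests -/

variable (E : Finset (Sym2 V)) (W : Finset V)

open Classical in
/-- Spanning forests with two components, separating `a` from `b`. -/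
noncomputable def forests (a b : V) : Finset (Finset (Sym2 V)) :=
  E.powerset.filter fun F => (gr F).IsAcyclic ∧ ¬ RE F a b ∧ ∀ z ∈ W, RE F z a ∨ RE F z b

variable {E W}

omit [DecidableEq V] in
theorem mem_forests {a b : V} {F : Finset (Sym2 V)} : F ∈ forests E W a b ↔
    F ⊆ E ∧ (gr F).IsAcyclic ∧ ¬ RE F a b ∧ ∀ z ∈ W, RE F z a ∨ RE F z b := by
  classical
  simp [forests]

omit [DecidableEq V] in
theorem mem_spTrees {T : Finset (Sym2 V)} : T ∈ spTrees E W ↔
    T ⊆ E ∧ (gr T).IsAcyclic ∧ ∀ x ∈ W, ∀ y ∈ W, RE T x y := by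
  classical
  simp [spTrees, IsSpTree]

theorem sum_trees_eq {x y : V} (hx : x ∈ W) (hxy : x ≠ y) (hf : s(x, y) ∈ E)
    (G : Finset (Sym2 V) → ℝ) :
    ∑ T ∈ (spTrees E W) with s(x, y) ∈ T, G (T.erase s(x, y)) = ∑ F ∈ forests E W x y, G F := by
  have key : ∀ F : Finset (Sym2 V), ¬ RE F x y → s(x, y) ∉ F := by
    intro F hF hmem
    apply hF
    apply Adj.reachable
    rw [fromEdgeSet_adj]
    exact ⟨by exact_mod_cast hmem, hxy⟩
  refine Finset.sum_bij' (fun T _ => T.erase s(x, y)) (fun F _ => insert s(x, y) F) ?_ ?_ ?_ ?_ ?_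
  · intro T hT
    rw [mem_filter, mem_spTrees] at hT
    obtain ⟨⟨hTE, hac, hconn⟩, hfT⟩ := hT
    rw [mem_forests]
    refine ⟨(erase_subset _ _).trans hTE, ?_, not_reach_erase hac hxy hfT, fun z hz => ?_⟩
    · exact hac.anti (gr_mono (erase_subset _ _))
    · exact reach_erase (hconn z hz x hx) (Or.inl (Reachable.refl _))
  · intro F hF
    rw [mem_forests] at hF
    obtain ⟨hFE, hac, hn, hW⟩ := hF
    rw [mem_filter, mem_spTrees]
    refine ⟨⟨insert_subset hf hFE, acyclic_insert hac hn, ?_⟩, mem_insert_self _ _⟩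
    have hle := gr_mono (subset_insert s(x, y) F)
    have hadj : RE (insert s(x, y) F) x y := by
      apply Adj.reachable
      rw [fromEdgeSet_adj]
      exact ⟨by simp, hxy⟩
    have h1 : ∀ z ∈ W, RE (insert s(x, y) F) z x := by
      intro z hz
      rcases hW z hz with h | h
      · exact h.mono hle
      · exact (h.mono hle).trans hadj.symm
    intro z hz w hw
    exact (h1 z hz).trans (h1 w hw).symm
  · intro T hT
    rw [mem_filter] at hT
    exact insert_erase hT.2
  · intro F hF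
    rw [mem_forests] at hF
    exact erase_insert (key F hF.2.2.1)
  · intro T _
    rfl

open Classical in
theorem swap_pt {a b x y : V} (ha : a ∈ W) (hb : b ∈ W) (hx : x ∈ W) (hy : y ∈ W)
    (F : Finset (Sym2 V)) :
    (if F ∈ forests E W x y then
      ((if RE F x a then 1 else 0) - (if RE F x b then 1 else 0) : ℝ) else 0)
    = (if F ∈ forests E W a b then
      ((if RE F x a then 1 else 0) - (if RE F y a then 1 else 0) : ℝ) else 0) := by
  have tr : ∀ {u v w : V}, RE F u v → RE F v w → RE F u w := fun h1 h2 => h1.trans h2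
  have sy : ∀ {u v : V}, RE F u v → RE F v u := fun h1 => h1.symm
  simp only [mem_forests]
  by_cases h0 : F ⊆ E ∧ (gr F).IsAcyclic
  swap
  · rw [if_neg (fun h => h0 ⟨h.1, h.2.1⟩), if_neg (fun h => h0 ⟨h.1, h.2.1⟩)]
  simp only [h0.1, h0.2, true_and]
  generalize RE F = R at *
  by_cases h1 : R x a
  · by_cases h2 : R a b
    · have h3 : R x b := tr h1 h2
      simp [h1, h2, h3]
    · have h3 : ¬ R x b := fun h => h2 (tr (sy h1) h)
      have h4 : (¬ R x y ∧ ∀ z ∈ W, R z x ∨ R z y) ↔
          ((¬ R a b ∧ ∀ z ∈ W, R z a ∨ R z b) ∧ ¬ R y a) := by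
        constructor
        · rintro ⟨h5, h6⟩
          have h7 : R b y := by
            rcases h6 b hb with h | h
            · exact absurd (tr (sy h1) (sy h)) h2
            · exact h
          refine ⟨⟨h2, fun z hz => ?_⟩, fun h => h5 (tr h1 (sy h))⟩
          rcases h6 z hz with h | h
          · exact Or.inl (tr h h1)
          · exact Or.inr (tr h (sy h7))
        · rintro ⟨⟨_, h6⟩, h7⟩
          have h8 : R y b := (h6 y hy).resolve_left h7
          refine ⟨fun h => h7 (tr (sy h) h1), fun z hz => ?_⟩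
          rcases h6 z hz with h | h
          · exact Or.inl (tr h (sy h1))
          · exact Or.inr (tr h (sy h8))
      by_cases h5 : (¬ R x y ∧ ∀ z ∈ W, R z x ∨ R z y)
      · rw [if_pos h5, if_pos (h4.1 h5).1]
        simp [h1, h3, (h4.1 h5).2]
      · rw [if_neg h5]
        by_cases h6 : (¬ R a b ∧ ∀ z ∈ W, R z a ∨ R z b)
        · rw [if_pos h6]
          have h7 : R y a := by
            by_contra h7
            exact h5 (h4.2 ⟨h6, h7⟩)
          simp [h1, h7]
        · rw [if_neg h6]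
  · by_cases h2 : R x b
    · have h4 : (¬ R x y ∧ ∀ z ∈ W, R z x ∨ R z y) ↔
          ((¬ R a b ∧ ∀ z ∈ W, R z a ∨ R z b) ∧ R y a) := by
        constructor
        · rintro ⟨h5, h6⟩
          have h7 : R a y := by
            rcases h6 a ha with h | h
            · exact absurd (sy h) h1
            · exact h
          refine ⟨⟨fun h => h1 (tr h2 (sy h)), fun z hz => ?_⟩, sy h7⟩
          rcases h6 z hz with h | h
          · exact Or.inr (tr h h2)
          · exact Or.inl (tr h (sy h7))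
        · rintro ⟨⟨_, h6⟩, h7⟩
          refine ⟨fun h => h1 (tr h h7), fun z hz => ?_⟩
          rcases h6 z hz with h | h
          · exact Or.inr (tr h (sy h7))
          · exact Or.inl (tr h (sy h2))
      by_cases h5 : (¬ R x y ∧ ∀ z ∈ W, R z x ∨ R z y)
      · rw [if_pos h5, if_pos (h4.1 h5).1]
        simp [h1, h2, (h4.1 h5).2]
      · rw [if_neg h5]
        by_cases h6 : (¬ R a b ∧ ∀ z ∈ W, R z a ∨ R z b)
        · rw [if_pos h6]
          have h7 : ¬ R y a := by
            intro h7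
            exact h5 (h4.2 ⟨h6, h7⟩)
          simp [h1, h7]
        · rw [if_neg h6]
    · have h3 : ¬ (¬ R a b ∧ ∀ z ∈ W, R z a ∨ R z b) := by
        rintro ⟨_, h⟩
        rcases h x hx with h | h
        · exact h1 h
        · exact h2 h
      rw [if_neg h3]
      simp [h1, h2]

/-- Weight of an edge set. -/
noncomputable def twt (c : Sym2 V → ℝ) (T : Finset (Sym2 V)) : ℝ := ∏ g ∈ T, c g

open Classical in
/-- The unit flow along the path of `T` between `a` and `b`. -/
noncomputable def tflow (a b : V) (T : Finset (Sym2 V)) : V × V →₀ ℚ :=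
  if h : RE T a b then wflow h.some else 0

variable (E W) in
open Classical in
/-- The potential. -/
noncomputable def hpot (c : Sym2 V → ℝ) (a b x : V) : ℝ :=
  ∑ F ∈ forests E W a b, twt c F * (if RE F x a then 1 else 0)

theorem tflow_antisymm (a b : V) (T : Finset (Sym2 V)) (x y : V) :
    tflow a b T (y, x) = - tflow a b T (x, y) := by
  unfold tflow
  split_ifs with h
  · exact wflow_antisymm _ _ _
  · simp

theorem tflow_supp (a b : V) (T : Finset (Sym2 V)) (x y : V) (h : tflow a b T (x, y) ≠ 0) :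
    (gr T).Adj x y := by
  unfold tflow at h
  split_ifs at h with h1
  · exact wflow_supp _ _ _ h
  · simp at h

theorem outf_tflow {a b : V} {T : Finset (Sym2 V)} (h : RE T a b) (x : V) :
    outf x (tflow a b T) = (if x = a then 1 else 0) - (if x = b then 1 else 0) := by
  unfold tflow
  rw [dif_pos h]
  exact outf_wflow _ _

open Classical in
theorem key_identity {a b x y : V} (ha : a ∈ W) (hb : b ∈ W) (hx : x ∈ W) (hy : y ∈ W)
    (hxy : x ≠ y) (hf : s(x, y) ∈ E) (c : Sym2 V → ℝ) :
    ∑ T ∈ spTrees E W, twt c T * (tflow a b T (x, y) : ℝ)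
      = c s(x, y) * (hpot E W c a b x - hpot E W c a b y) := by
  have h1 : ∑ T ∈ spTrees E W, twt c T * (tflow a b T (x, y) : ℝ)
      = ∑ T ∈ (spTrees E W) with s(x, y) ∈ T, c s(x, y) * (twt c (T.erase s(x, y)) *
        ((if RE (T.erase s(x, y)) x a then 1 else 0)
          - (if RE (T.erase s(x, y)) x b then 1 else 0))) := by
    rw [sum_filter]
    refine sum_congr rfl fun T hT => ?_
    rw [mem_spTrees] at hT
    by_cases h : s(x, y) ∈ T
    · rw [if_pos h]
      have h2 : tflow a b T (x, y) = (if RE (T.erase s(x, y)) x a then 1 else 0)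
          - (if RE (T.erase s(x, y)) x b then 1 else 0) := by
        unfold tflow
        rw [dif_pos (hT.2.2 a ha b hb), wflow_tree hT.2.1 hxy h]
      rw [h2, twt, twt, ← mul_prod_erase T c h]
      split_ifs <;> push_cast <;> ring
    · rw [if_neg h]
      have h2 : tflow a b T (x, y) = 0 := by
        by_contra h0
        have := tflow_supp a b T x y h0
        rw [fromEdgeSet_adj] at this
        exact h (by exact_mod_cast this.1)
      rw [h2]
      simp
  rw [h1, sum_trees_eq hx hxy hf (fun F => c s(x, y) * (twt c F *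
        ((if RE F x a then 1 else 0) - (if RE F x b then 1 else 0))))]
  have h3 : ∀ u v : V, forests E W u v = E.powerset.filter (· ∈ forests E W u v) := by
    intro u v
    ext F
    rw [mem_filter, mem_powerset]
    exact ⟨fun h => ⟨(mem_forests.1 h).1, h⟩, fun h => h.2⟩
  rw [hpot, hpot, ← sum_sub_distrib, mul_sum, h3 x y, h3 a b, sum_filter, sum_filter]
  refine sum_congr rfl fun F _ => ?_
  have h4 := swap_pt (E := E) ha hb hx hy F
  have h5 : (if F ∈ forests E W x y then c s(x, y) * (twt c F *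
        ((if RE F x a then 1 else 0) - (if RE F x b then 1 else 0))) else 0)
      = c s(x, y) * twt c F * (if F ∈ forests E W x y then
      ((if RE F x a then 1 else 0) - (if RE F x b then 1 else 0) : ℝ) else 0) := by
    split_ifs <;> ring
  rw [h5, h4]
  split_ifs <;> ring

/-! ### Energies -/

variable (E W) in
/-- Real unit flows from `a` to `b`. -/
structure RFlow (a b : V) (φ : V → V → ℝ) : Prop where
  anti : ∀ x y, φ y x = - φ x y
  supp : ∀ x y, φ x y ≠ 0 → x ∈ W ∧ y ∈ W ∧ x ≠ y ∧ s(x, y) ∈ E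
  div : ∀ x ∈ W, ∑ y ∈ W, φ x y = (if x = a then 1 else 0) - (if x = b then 1 else 0)

variable (W) in
/-- Energy of a real flow. -/
noncomputable def En (c : Sym2 V → ℝ) (φ : V → V → ℝ) : ℝ :=
  ∑ x ∈ W, ∑ y ∈ W, φ x y ^ 2 / (2 * c s(x, y))

theorem RFlow.pairing {a b : V} {φ : V → V → ℝ} (hφ : RFlow E W a b φ) (ha : a ∈ W) (hb : b ∈ W)
    (H : V → ℝ) : ∑ x ∈ W, ∑ y ∈ W, φ x y * (H x - H y) = 2 * (H a - H b) := by
  have h0 : ∑ x ∈ W, (∑ y ∈ W, φ x y) * H x = H a - H b := by
    have : ∀ x ∈ W, (∑ y ∈ W, φ x y) * H x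
        = (if x = a then H x else 0) - (if x = b then H x else 0) := by
      intro x hx
      rw [hφ.div x hx]
      split_ifs <;> ring
    rw [sum_congr rfl this, sum_sub_distrib, sum_ite_eq', sum_ite_eq', if_pos ha, if_pos hb]
  have h1 : ∑ x ∈ W, ∑ y ∈ W, φ x y * H x = H a - H b := by
    rw [← h0]
    refine sum_congr rfl fun x _ => ?_
    rw [sum_mul]
  have h2 : ∑ x ∈ W, ∑ y ∈ W, φ x y * H y = - (H a - H b) := by
    rw [sum_comm, ← h1, ← sum_neg_distrib]
    refine sum_congr rfl fun x _ => ?_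
    rw [← sum_neg_distrib]
    refine sum_congr rfl fun y _ => ?_
    rw [hφ.anti x y]
    ring
  have h3 : ∑ x ∈ W, ∑ y ∈ W, φ x y * (H x - H y)
      = ∑ x ∈ W, ∑ y ∈ W, φ x y * H x - ∑ x ∈ W, ∑ y ∈ W, φ x y * H y := by
    rw [← sum_sub_distrib]
    refine sum_congr rfl fun x _ => ?_
    rw [← sum_sub_distrib]
    refine sum_congr rfl fun y _ => ?_
    ring
  rw [h3, h1, h2]
  ring

theorem En_min {a b : V} {i : V → V → ℝ} (hi : RFlow E W a b i) (ha : a ∈ W) (hb : b ∈ W)
    {c : Sym2 V → ℝ} (hc : ∀ e, 0 < c e) {H : V → ℝ}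
    (hH : ∀ x ∈ W, ∀ y ∈ W, x ≠ y → s(x, y) ∈ E → i x y = c s(x, y) * (H x - H y)) :
    En W c i = H a - H b ∧ ∀ φ, RFlow E W a b φ → En W c i ≤ En W c φ := by
  have h1 : En W c i = H a - H b := by
    have : En W c i = (∑ x ∈ W, ∑ y ∈ W, i x y * (H x - H y)) / 2 := by
      rw [En, sum_div]
      refine sum_congr rfl fun x hx => ?_
      rw [sum_div]
      refine sum_congr rfl fun y hy => ?_
      by_cases h0 : i x y = 0
      · simp [h0]
      · obtain ⟨_, _, hxy, hE⟩ := hi.supp x y h0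
        have h2 := hH x hx y hy hxy hE
        have h3 := hc s(x, y)
        rw [h2]
        field_simp
    rw [this, hi.pairing ha hb]
    ring
  refine ⟨h1, fun φ hφ => ?_⟩
  have h2 : ∑ x ∈ W, ∑ y ∈ W, φ x y * (H x - H y) - En W c i ≤ En W c φ := by
    rw [En, En, ← sum_sub_distrib]
    refine sum_le_sum fun x hx => ?_
    rw [← sum_sub_distrib]
    refine sum_le_sum fun y hy => ?_
    have h3 := hc s(x, y)
    by_cases h0 : x ≠ y ∧ s(x, y) ∈ E
    · have h2 := hH x hx y hy h0.1 h0.2
      have h4 : φ x y * (H x - H y) - i x y ^ 2 / (2 * c s(x, y))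
          = φ x y ^ 2 / (2 * c s(x, y)) - (φ x y - i x y) ^ 2 / (2 * c s(x, y)) := by
        rw [h2]
        field_simp
        ring
      rw [h4]
      have : 0 ≤ (φ x y - i x y) ^ 2 / (2 * c s(x, y)) := by positivity
      linarith
    · have h5 : φ x y = 0 := by
        by_contra h6
        obtain ⟨_, _, hxy, hE⟩ := hφ.supp x y h6
        exact h0 ⟨hxy, hE⟩
      have h6 : i x y = 0 := by
        by_contra h6
        obtain ⟨_, _, hxy, hE⟩ := hi.supp x y h6
        exact h0 ⟨hxy, hE⟩
      rw [h5, h6]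
      simp
  rw [hφ.pairing ha hb] at h2
  linarith

omit [DecidableEq V] in
theorem finsupp_sum_eq {θ : V × V →₀ ℚ} (hs : ∀ x y, θ (x, y) ≠ 0 → x ∈ W ∧ y ∈ W)
    {M : Type*} [AddCommMonoid M] (g : V × V → ℚ → M) (hg : ∀ p, g p 0 = 0) :
    θ.sum g = ∑ x ∈ W, ∑ y ∈ W, g (x, y) (θ (x, y)) := by
  have h1 : θ.support ⊆ W ×ˢ W := by
    rintro ⟨x, y⟩ h
    rw [Finsupp.mem_support_iff] at h
    rw [mem_product]
    exact hs x y h
  rw [Finsupp.sum_of_support_subset θ h1 g (fun p _ => hg p), sum_product]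

theorem outf_eq {θ : V × V →₀ ℚ} (hs : ∀ x y, θ (x, y) ≠ 0 → x ∈ W ∧ y ∈ W) {x : V}
    (hx : x ∈ W) : outf x θ = ∑ y ∈ W, θ (x, y) := by
  rw [outf, finsupp_sum_eq hs _ (by simp)]
  have : ∀ u ∈ W, (∑ y ∈ W, if u = x then θ (u, y) else 0)
      = if u = x then ∑ y ∈ W, θ (u, y) else 0 := by
    intro u _
    split_ifs <;> simp
  rw [sum_congr rfl this, sum_ite_eq', if_pos hx]

omit [DecidableEq V] in
theorem energy_eq {θ : V × V →₀ ℚ} (hs : ∀ x y, θ (x, y) ≠ 0 → x ∈ W ∧ y ∈ W)
    (c : Sym2 V → ℝ) : energy c θ = En W c fun x y => (θ (x, y) : ℝ) := by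
  rw [energy, finsupp_sum_eq hs _ (by simp)]
  rfl

theorem isFlow_energy_ge {a b : V} (hW : ∀ e ∈ E, ∀ v ∈ e, v ∈ W)
    {i : V → V → ℝ} {c : Sym2 V → ℝ}
    (hi : ∀ φ, RFlow E W a b φ → En W c i ≤ En W c φ) {θ : V × V →₀ ℚ}
    (hθ : IsFlow (gr E) s(a, b) θ) : En W c i ≤ energy c θ := by
  classical
  have hs' : ∀ x y, θ (x, y) ≠ 0 → x ∈ W ∧ y ∈ W ∧ x ≠ y ∧ s(x, y) ∈ E := by
    intro x y h
    have h1 := hθ.supp x y h
    rw [fromEdgeSet_adj] at h1
    have h2 : s(x, y) ∈ E := by exact_mod_cast h1.1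
    exact ⟨hW _ h2 x (Sym2.mem_mk_left _ _), hW _ h2 y (Sym2.mem_mk_right _ _), h1.2, h2⟩
  have hs : ∀ x y, θ (x, y) ≠ 0 → x ∈ W ∧ y ∈ W := fun x y h => ⟨(hs' x y h).1, (hs' x y h).2.1⟩
  rw [energy_eq hs]
  obtain ⟨a', b', hab, hdiv⟩ := hθ.div
  have hdiv' : ∀ x ∈ W, ∑ y ∈ W, (θ (x, y) : ℝ)
      = (if x = a' then 1 else 0) - (if x = b' then 1 else 0) := by
    intro x hx
    have h1 := outf_eq hs hx
    have h2 := hdiv x
    have h3 : outf x θ = (if x = a' then 1 else 0) - (if x = b' then 1 else 0) := by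
      rw [outf]
      convert h2
    rw [h3] at h1
    have h4 : ((∑ y ∈ W, θ (x, y) : ℚ) : ℝ) = ((((if x = a' then 1 else 0)
      - (if x = b' then 1 else 0)) : ℚ) : ℝ) := by rw [h1]
    push_cast at h4
    rw [h4]
    split_ifs <;> simp
  rw [Sym2.eq_iff] at hab
  rcases hab with ⟨rfl, rfl⟩ | ⟨rfl, rfl⟩
  · apply hi
    refine ⟨fun x y => ?_, fun x y h => ?_, hdiv'⟩
    · rw [hθ.antisymm x y]; push_cast; rfl
    · exact hs' x y (by exact_mod_cast h)
  · have h1 : En W c (fun x y => (θ (x, y) : ℝ)) = En W c (fun x y => - (θ (x, y) : ℝ)) := by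
      unfold En
      refine sum_congr rfl fun x _ => sum_congr rfl fun y _ => ?_
      rw [neg_sq]
    rw [h1]
    apply hi
    refine ⟨fun x y => ?_, fun x y h => ?_, fun x hx => ?_⟩
    · rw [hθ.antisymm x y]; push_cast; ring
    · exact hs' x y (by
        intro h2
        apply h
        rw [h2]
        simp)
    · rw [sum_neg_distrib, hdiv' x hx]
      ring

theorem exists_rat_seq (x : ℝ) : ∃ r : ℕ → ℚ,
    Filter.Tendsto (fun n => (r n : ℝ)) Filter.atTop (nhds x) := by
  have h1 : x ∈ closure (Set.range ((↑) : ℚ → ℝ)) := by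
    rw [Rat.denseRange_cast.closure_range]
    trivial
  obtain ⟨u, hu, hu'⟩ := mem_closure_iff_seq_limit.1 h1
  choose r hr using hu
  refine ⟨r, ?_⟩
  simpa [hr] using hu'

theorem exists_rat_weights {ι : Type*} [DecidableEq ι] (s : Finset ι) (hs : s.Nonempty)
    (w : ι → ℝ) (hw : ∑ j ∈ s, w j = 1) : ∃ q : ℕ → ι → ℚ, (∀ n, ∑ j ∈ s, q n j = 1) ∧
      ∀ j ∈ s, Filter.Tendsto (fun n => (q n j : ℝ)) Filter.atTop (nhds (w j)) := by
  obtain ⟨j0, hj0⟩ := hs
  choose r hr using fun j => exists_rat_seq (w j)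
  refine ⟨fun n j => r j n + if j = j0 then 1 - ∑ k ∈ s, r k n else 0, fun n => ?_,
    fun j hj => ?_⟩
  · rw [sum_add_distrib, sum_ite_eq', if_pos hj0]
    ring
  · have h1 : Filter.Tendsto (fun n => (1 - ∑ k ∈ s, (r k n : ℝ))) Filter.atTop (nhds 0) := by
      have := (tendsto_const_nhds (x := (1 : ℝ))).sub (tendsto_finsetSum s fun k _ => hr k)
      rwa [hw, sub_self] at this
    by_cases h : j = j0
    · have h2 := (hr j).add h1
      simp only [add_zero] at h2
      simpa [h] using h2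
    · simpa [h] using hr j

theorem Mfun_eq_Mtree (E : Finset (Sym2 V)) (W : Finset V)
    (hE : ∀ e ∈ E, ¬ e.IsDiag) (hW : ∀ e ∈ E, ∀ v ∈ e, v ∈ W)
    (hconn : ∀ x ∈ W, ∀ y ∈ W, (SimpleGraph.fromEdgeSet (E : Set (Sym2 V))).Reachable x y)
    (c : Sym2 V → ℝ) (hc : ∀ e, 0 < c e) (e : Sym2 V) (he : e ∈ E) :
    Mfun (SimpleGraph.fromEdgeSet (E : Set (Sym2 V))) c e = Mtree (spTrees E W) c e := by
  classical
  induction e using Sym2.ind with
  | _ a b =>
  have hab : a ≠ b := by
    intro h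
    exact hE _ he (by simp [h])
  have ha : a ∈ W := hW _ he a (Sym2.mem_mk_left _ _)
  have hb : b ∈ W := hW _ he b (Sym2.mem_mk_right _ _)
  have hne := spTrees_nonempty E W hE hW hconn
  have hwpos : ∀ T, 0 < twt c T := fun T => prod_pos fun g _ => hc g
  set Z := ∑ T ∈ spTrees E W, twt c T with hZ
  have hZpos : 0 < Z := sum_pos (fun T _ => hwpos T) hne
  -- supports
  have hsT : ∀ T ∈ spTrees E W, ∀ x y, tflow a b T (x, y) ≠ 0 →
      x ∈ W ∧ y ∈ W ∧ x ≠ y ∧ s(x, y) ∈ E := by
    intro T hT x y h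
    have h1 := tflow_supp a b T x y h
    rw [fromEdgeSet_adj] at h1
    have h2 : s(x, y) ∈ E := (mem_spTrees.1 hT).1 (by exact_mod_cast h1.1)
    exact ⟨hW _ h2 x (Sym2.mem_mk_left _ _), hW _ h2 y (Sym2.mem_mk_right _ _), h1.2, h2⟩
  have hdT : ∀ T ∈ spTrees E W, ∀ x, outf x (tflow a b T)
      = (if x = a then 1 else 0) - (if x = b then 1 else 0) := fun T hT x =>
    outf_tflow ((mem_spTrees.1 hT).2.2 a ha b hb) x
  have hdT' : ∀ T ∈ spTrees E W, ∀ x ∈ W, ∑ y ∈ W, (tflow a b T (x, y) : ℝ)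
      = (if x = a then 1 else 0) - (if x = b then 1 else 0) := by
    intro T hT x hx
    have h1 := outf_eq (fun x y h => ⟨(hsT T hT x y h).1, (hsT T hT x y h).2.1⟩) hx
    rw [hdT T hT x] at h1
    have h4 : ((∑ y ∈ W, tflow a b T (x, y) : ℚ) : ℝ) = ((((if x = a then 1 else 0)
      - (if x = b then 1 else 0)) : ℚ) : ℝ) := by rw [h1]
    push_cast at h4
    rw [h4]
    split_ifs <;> simp
  -- the current
  let i : V → V → ℝ := fun x y => ∑ T ∈ spTrees E W, (twt c T / Z) * (tflow a b T (x, y) : ℝ)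
  have hwsum : ∑ T ∈ spTrees E W, twt c T / Z = 1 := by
    rw [← sum_div, ← hZ, div_self hZpos.ne']
  have hi : RFlow E W a b i := by
    refine ⟨fun x y => ?_, fun x y h => ?_, fun x hx => ?_⟩
    · simp only [i]
      rw [← sum_neg_distrib]
      refine sum_congr rfl fun T _ => ?_
      rw [tflow_antisymm a b T x y]
      push_cast
      ring
    · obtain ⟨T, hT, h1⟩ := exists_ne_zero_of_sum_ne_zero h
      refine hsT T hT x y ?_
      intro h2
      apply h1
      rw [h2]
      simp
    · simp only [i]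
      rw [sum_comm]
      have : ∀ T ∈ spTrees E W, ∑ y ∈ W, (twt c T / Z) * (tflow a b T (x, y) : ℝ)
          = (twt c T / Z) * ((if x = a then 1 else 0) - (if x = b then 1 else 0)) := by
        intro T hT
        rw [← mul_sum, hdT' T hT x hx]
      rw [sum_congr rfl this, ← sum_mul, hwsum, one_mul]
  have hi_eq : ∀ x y, i x y = (∑ T ∈ spTrees E W, twt c T * (tflow a b T (x, y) : ℝ)) / Z := by
    intro x y
    simp only [i]
    rw [sum_div]
    refine sum_congr rfl fun T _ => ?_
    ring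
  let H : V → ℝ := fun x => hpot E W c a b x / Z
  have hH : ∀ x ∈ W, ∀ y ∈ W, x ≠ y → s(x, y) ∈ E → i x y = c s(x, y) * (H x - H y) := by
    intro x hx y hy hxy hf
    rw [hi_eq, key_identity ha hb hx hy hxy hf c]
    simp only [H]
    ring
  obtain ⟨hEn, hmin⟩ := En_min hi ha hb hc hH
  -- the edge probability
  have hprob : Mtree (spTrees E W) c s(a, b) = i a b := by
    rw [hi_eq, Mtree]
    congr 1
    rw [sum_filter]
    refine sum_congr rfl fun T hT => ?_
    rw [mem_spTrees] at hT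
    by_cases h : s(a, b) ∈ T
    · rw [if_pos h]
      have h2 : tflow a b T (a, b) = 1 := by
        unfold tflow
        rw [dif_pos (hT.2.2 a ha b hb), wflow_tree hT.2.1 hab h,
          if_pos (Reachable.refl _), if_neg (not_reach_erase hT.2.1 hab h)]
        ring
      rw [h2, twt]
      simp
    · rw [if_neg h]
      have h2 : tflow a b T (a, b) = 0 := by
        by_contra h0
        have := tflow_supp a b T a b h0
        rw [fromEdgeSet_adj] at this
        exact h (by exact_mod_cast this.1)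
      rw [h2]
      simp
  have hmem : s(a, b) ∈ (SimpleGraph.fromEdgeSet (E : Set (Sym2 V))).edgeSet := by
    rw [mem_edgeSet, fromEdgeSet_adj]
    exact ⟨by exact_mod_cast he, hab⟩
  -- approximation by rational flows
  obtain ⟨q, hq1, hq2⟩ := exists_rat_weights (spTrees E W) hne (fun T => twt c T / Z) hwsum
  let θ : ℕ → (V × V →₀ ℚ) := fun n => ∑ T ∈ spTrees E W, q n T • tflow a b T
  have hθ_apply : ∀ n p, θ n p = ∑ T ∈ spTrees E W, q n T * tflow a b T p := by
    intro n p
    simp [θ, Finsupp.finsetSum_apply]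
  have hθs : ∀ n x y, θ n (x, y) ≠ 0 → x ∈ W ∧ y ∈ W ∧ x ≠ y ∧ s(x, y) ∈ E := by
    intro n x y h
    rw [hθ_apply] at h
    obtain ⟨T, hT, h1⟩ := exists_ne_zero_of_sum_ne_zero h
    refine hsT T hT x y ?_
    intro h2
    apply h1
    rw [h2]
    simp
  have hθ : ∀ n, IsFlow (SimpleGraph.fromEdgeSet (E : Set (Sym2 V))) s(a, b) (θ n) := by
    intro n
    refine ⟨fun x y => ?_, fun x y h => ?_, a, b, rfl, fun x => ?_⟩
    · rw [hθ_apply, hθ_apply, ← sum_neg_distrib]
      refine sum_congr rfl fun T _ => ?_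
      rw [tflow_antisymm a b T x y]
      ring
    · obtain ⟨_, _, h1, h2⟩ := hθs n x y h
      rw [fromEdgeSet_adj]
      exact ⟨by exact_mod_cast h2, h1⟩
    · have h1 : outf x (θ n) = (if x = a then 1 else 0) - (if x = b then 1 else 0) := by
        simp only [θ]
        rw [outf_sum]
        have : ∀ T ∈ spTrees E W, outf x (q n T • tflow a b T)
            = q n T * ((if x = a then 1 else 0) - (if x = b then 1 else 0)) := by
          intro T hT
          rw [outf_smul, hdT T hT x]
        rw [sum_congr rfl this, ← sum_mul, hq1 n, one_mul]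
      rw [outf] at h1
      convert h1
  have hlim : Filter.Tendsto (fun n => energy c (θ n)) Filter.atTop (nhds (En W c i)) := by
    have h1 : ∀ n, energy c (θ n) = En W c fun x y => (θ n (x, y) : ℝ) := fun n =>
      energy_eq (fun x y h => ⟨(hθs n x y h).1, (hθs n x y h).2.1⟩) c
    simp only [h1]
    unfold En
    refine tendsto_finsetSum _ fun x _ => tendsto_finsetSum _ fun y _ => ?_
    refine (Filter.Tendsto.pow ?_ 2).div_const _
    have h2 : ∀ n, ((θ n (x, y) : ℚ) : ℝ)
        = ∑ T ∈ spTrees E W, (q n T : ℝ) * (tflow a b T (x, y) : ℝ) := by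
      intro n
      rw [hθ_apply]
      push_cast
      rfl
    simp only [h2, i]
    exact tendsto_finsetSum _ fun T hT => (hq2 T hT).mul_const _
  have : Nonempty {θ : V × V →₀ ℚ // IsFlow (SimpleGraph.fromEdgeSet (E : Set (Sym2 V)))
    s(a, b) θ} := ⟨⟨θ 0, hθ 0⟩⟩
  have hinf : (⨅ θ : {θ : V × V →₀ ℚ // IsFlow (SimpleGraph.fromEdgeSet (E : Set (Sym2 V)))
      s(a, b) θ}, energy c θ.1) = En W c i := by
    have hlb : ∀ θ : {θ : V × V →₀ ℚ // IsFlow (SimpleGraph.fromEdgeSet (E : Set (Sym2 V)))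
      s(a, b) θ}, En W c i ≤ energy c θ.1 := fun θ => isFlow_energy_ge hW hmin θ.2
    apply le_antisymm
    · refine ge_of_tendsto' hlim fun n => ?_
      exact ciInf_le ⟨_, by rintro _ ⟨θ, rfl⟩; exact hlb θ⟩ (⟨θ n, hθ n⟩ : {θ : V × V →₀ ℚ //
        IsFlow (SimpleGraph.fromEdgeSet (E : Set (Sym2 V))) s(a, b) θ})
    · exact le_ciInf hlb
  rw [hprob, Mfun, if_pos hmem, hinf, hEn, hH a ha b hb hab he]

/-! ### Translation of the two descriptions of spanning trees -/

omit [DecidableEq V] in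
theorem reachable_induce {G0 : SimpleGraph V} {S : Set V}
    (h : ∀ x y, G0.Adj x y → x ∈ S ∧ y ∈ S) {x y : V} (hxy : G0.Reachable x y)
    (hx : x ∈ S) (hy : y ∈ S) : (G0.induce S).Reachable ⟨x, hx⟩ ⟨y, hy⟩ := by
  obtain ⟨p⟩ := hxy
  induction p with
  | nil => exact Reachable.refl _
  | @cons u v w huv q ih =>
    have hv := (h u v huv).2
    have h1 : (G0.induce S).Adj ⟨u, hx⟩ ⟨v, hv⟩ := by simpa using huv
    exact h1.reachable.trans (ih hv hy)

theorem isTree_induce_iff {T : Finset (Sym2 V)} {W : Finset V} {S : Set V}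
    (hWS : (W : Set V) = S) (hne : S.Nonempty)
    (hT : ∀ x y, s(x, y) ∈ T → x ∈ S ∧ y ∈ S) :
    ((gr T).induce S).IsTree ↔ IsSpTree W T := by
  have hadj : ∀ T' ⊆ T, ∀ x y, (gr T').Adj x y → x ∈ S ∧ y ∈ S := by
    intro T' hT' x y h
    rw [fromEdgeSet_adj] at h
    exact hT x y (hT' (by exact_mod_cast h.1))
  constructor
  · intro h
    refine ⟨?_, fun x hx y hy => ?_⟩
    · rw [isAcyclic_iff_forall_adj_isBridge]
      intro v w hvw
      rw [isBridge_iff, ← gr_erase]
      intro hr
      have hv := (hadj T subset_rfl v w hvw).1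
      have hw := (hadj T subset_rfl v w hvw).2
      have h1 := reachable_induce (hadj _ (erase_subset s(v, w) T)) hr hv hw
      have h2 : ((gr T).induce S).Adj ⟨v, hv⟩ ⟨w, hw⟩ := by simpa using hvw
      have h3 := isAcyclic_iff_forall_adj_isBridge.1 h.isAcyclic h2
      rw [isBridge_iff] at h3
      apply h3
      refine h1.mono ?_
      intro x y hxy
      have hxy' : (gr (T.erase s(v, w))).Adj x y := by simpa using hxy
      rw [fromEdgeSet_adj, coe_erase] at hxy'
      rw [deleteEdges_adj]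
      refine ⟨?_, ?_⟩
      · have : (gr T).Adj x y := by
          rw [fromEdgeSet_adj]
          exact ⟨hxy'.1.1, hxy'.2⟩
        simpa using this
      · intro h4
        apply hxy'.1.2
        rw [Set.mem_singleton_iff, Sym2.eq_iff] at h4
        rw [Set.mem_singleton_iff, Sym2.eq_iff]
        rcases h4 with ⟨h4, h5⟩ | ⟨h4, h5⟩
        · left; exact ⟨by rw [h4], by rw [h5]⟩
        · right; exact ⟨by rw [h4], by rw [h5]⟩
    · have hx' : x ∈ S := by rw [← hWS]; exact_mod_cast hx
      have hy' : y ∈ S := by rw [← hWS]; exact_mod_cast hy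
      have h1 := h.connected.preconnected ⟨x, hx'⟩ ⟨y, hy'⟩
      exact h1.map (Embedding.induce S).toHom
  · rintro ⟨h1, h2⟩
    refine ⟨?_, h1.induce S⟩
    have : Nonempty S := hne.to_subtype
    refine ⟨fun x y => ?_⟩
    have hSW : ∀ z ∈ S, z ∈ W := by
      intro z hz
      rw [← hWS] at hz
      exact_mod_cast hz
    have hx : x.1 ∈ W := hSW _ x.2
    have hy : y.1 ∈ W := hSW _ y.2
    exact reachable_induce (hadj T subset_rfl) (h2 x.1 hx y.1 hy) x.2 y.2

theorem ustProb_eq {G : SimpleGraph V} (H : G.Subgraph) (hH : H.Connected)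
    (E : Finset (Sym2 V)) (W : Finset V) (hEH : (E : Set (Sym2 V)) = H.edgeSet)
    (hWH : (W : Set V) = H.verts) (F : Finset (Sym2 V)) (B : Set (Sym2 V)) [DecidablePred (· ∈ B)] :
    ustProb H F B =
      (((spTrees E W).filter fun T => ∀ e ∈ F, (e ∈ T ↔ e ∈ B)).card : ℝ) / (spTrees E W).card := by
  classical
  have hET : ∀ T : Finset (Sym2 V), T ⊆ E → ∀ x y, s(x, y) ∈ T → x ∈ H.verts ∧ y ∈ H.verts := by
    intro T hT x y h
    have h1 : s(x, y) ∈ H.edgeSet := by
      rw [← hEH]
      exact_mod_cast hT h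
    rw [Subgraph.mem_edgeSet] at h1
    exact ⟨h1.fst_mem, h1.snd_mem⟩
  have hne : H.verts.Nonempty := hH.nonempty
  have key : ∀ P : Set (Sym2 V) → Prop, {T | T ∈ spanningTrees H ∧ P T}
      = (fun T : Finset (Sym2 V) => (T : Set (Sym2 V))) ''
        (((spTrees E W).filter fun T => P T : Finset (Finset (Sym2 V))) :
          Set (Finset (Sym2 V))) := by
    intro P
    ext T
    simp only [Set.mem_ofPred_eq, Set.mem_image, coe_filter]
    constructor
    · rintro ⟨⟨h1, h2⟩, h3⟩
      have hfin : T.Finite := (E.finite_toSet).subset (by rw [hEH]; exact h1)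
      have hTE : hfin.toFinset ⊆ E := by
        intro e he
        rw [Set.Finite.mem_toFinset] at he
        have := h1 he
        rw [← hEH] at this
        exact_mod_cast this
      refine ⟨hfin.toFinset, ⟨?_, by simpa using h3⟩, by simp⟩
      rw [spTrees, mem_filter, mem_powerset]
      refine ⟨hTE, (isTree_induce_iff hWH hne (hET _ hTE)).1 ?_⟩
      rw [gr, Set.Finite.coe_toFinset]
      exact h2
    · rintro ⟨T', ⟨h1, h2⟩, rfl⟩
      rw [spTrees, mem_filter, mem_powerset] at h1
      refine ⟨⟨?_, (isTree_induce_iff hWH hne (hET _ h1.1)).2 h1.2⟩, h2⟩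
      rw [← hEH]
      exact_mod_cast h1.1
  have hinj : Function.Injective (fun T : Finset (Sym2 V) => (T : Set (Sym2 V))) :=
    coe_injective
  have h1 := key (fun T => ∀ e ∈ F, (e ∈ T ↔ e ∈ B))
  have h2 := key (fun _ => True)
  simp only [and_true, filter_true] at h2
  have h2' : spanningTrees H = (fun T : Finset (Sym2 V) => (T : Set (Sym2 V))) ''
    (spTrees E W : Set (Finset (Sym2 V))) := h2
  rw [ustProb, h1, h2', Set.ncard_image_of_injective _ hinj, Set.ncard_image_of_injective _ hinj,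
    Set.ncard_coe_finset, Set.ncard_coe_finset]
  simp only [mem_coe]

end Vale.Agent.FUSF
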