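import Vale.Agent.FUSF.Spread

/-!
# P143 (d), iid labels of the edges from iid labels of the vertices
-/

open MeasureTheory Set Filter
open scoped unitInterval

namespace Vale.Agent.FUSF

variable {V : Type*}

open Classical in
/-- Number of neighbours of `u` with a smaller label than `v`. -/
noncomputable def rk (G : SimpleGraph V) (A : V → ℝ) (u v : V) : ENNReal :=
  ∑' w, if G.Adj u w ∧ A w < A v then 1 else 0

/-- The same as a natural number. -/
noncomputable def rank (G : SimpleGraph V) (A : V → ℝ) (u v : V) : ℕ := ⌊(rk G A u v).toReal⌋₊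

/-- Label number `k` of the edge `u v`. -/
noncomputable def lab0 (G : SimpleGraph V) (A : V → ℝ) (B : V × ℕ × ℕ → ℝ) (k : ℕ) (u v : V) : ℝ :=
  if A u < A v then B (u, rank G A u v, k) else if A v < A u then B (v, rank G A v u, k) else 0

theorem lab0_symm (G : SimpleGraph V) (A : V → ℝ) (B : V × ℕ × ℕ → ℝ) (k : ℕ) (u v : V) :
    lab0 G A B k u v = lab0 G A B k v u := by
  unfold lab0
  rcases lt_trichotomy (A u) (A v) with h | h | h
  · simp [h, h.not_gt]
  · simp [h]
  · simp [h, h.not_gt]

open Classical in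
/-- Labels of the edges. -/
noncomputable def Lab (G : SimpleGraph V) (A : V → ℝ) (B : V × ℕ × ℕ → ℝ) (p : ℕ × Sym2 V) : ℝ :=
  if p.2 ∈ G.edgeSet then Sym2.lift ⟨lab0 G A B p.1, lab0_symm G A B p.1⟩ p.2 else 0

open Classical in
/-- Restriction to the edges of `G`. -/
noncomputable def restr (G : SimpleGraph V) (L : ℕ × Sym2 V → ℝ) (p : ℕ × Sym2 V) : ℝ :=
  if p.2 ∈ G.edgeSet then L p else 0

theorem rank_eq {G : SimpleGraph V} {A : V → ℝ} {u : V} (hfin : (G.neighborSet u).Finite) (v : V) :
    rank G A u v = (hfin.toFinset.filter fun w => A w < A v).card := by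
  classical
  have h : rk G A u v = ((hfin.toFinset.filter fun w => A w < A v).card : ENNReal) := by
    unfold rk
    rw [tsum_eq_sum (s := hfin.toFinset)]
    · rw [Finset.card_filter, Nat.cast_sum]
      apply Finset.sum_congr rfl
      intro w hw
      have hw' : G.Adj u w := by simpa using hw
      simp [hw']
    · intro w hw
      have hw' : ¬ G.Adj u w := by simpa using hw
      simp [hw']
  unfold rank
  rw [h]
  simp

theorem rank_lt {G : SimpleGraph V} {A : V → ℝ} {u v w : V} (hfin : (G.neighborSet u).Finite)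
    (hv : G.Adj u v) (h : A v < A w) : rank G A u v < rank G A u w := by
  rw [rank_eq hfin, rank_eq hfin]
  apply Finset.card_lt_card
  rw [Finset.ssubset_iff_of_subset]
  · exact ⟨v, by simp [hv, h], by simp⟩
  · intro x hx
    simp only [Finset.mem_filter, Set.Finite.mem_toFinset, SimpleGraph.mem_neighborSet] at hx ⊢
    exact ⟨hx.1, hx.2.trans h⟩

/-- Index of a label. -/
theorem exists_idx {G : SimpleGraph V} {A : V → ℝ} (hA : Function.Injective A)
    (hfin : ∀ v, (G.neighborSet v).Finite) :
    ∃ f : {p : ℕ × Sym2 V // p.2 ∈ G.edgeSet} → V × ℕ × ℕ, Function.Injective f ∧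
      ∀ (B : V × ℕ × ℕ → ℝ) (p : {p : ℕ × Sym2 V // p.2 ∈ G.edgeSet}),
        Lab G A B p.1 = B (f p) := by
  have h1 : ∀ p : {p : ℕ × Sym2 V // p.2 ∈ G.edgeSet}, ∃ q : V × V,
      s(q.1, q.2) = p.1.2 ∧ A q.1 < A q.2 := by
    rintro ⟨⟨k, e⟩, he⟩
    induction e with
    | _ u v =>
      have huv : u ≠ v := (SimpleGraph.mem_edgeSet G |>.1 he).ne
      rcases lt_or_gt_of_ne (hA.ne huv) with h | h
      · exact ⟨(u, v), rfl, h⟩
      · exact ⟨(v, u), Sym2.eq_swap, h⟩
  choose q hq1 hq2 using h1
  have hadj : ∀ p, G.Adj (q p).1 (q p).2 := by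
    intro p
    rw [← SimpleGraph.mem_edgeSet, hq1]
    exact p.2
  refine ⟨fun p => ((q p).1, rank G A (q p).1 (q p).2, p.1.1), ?_, ?_⟩
  · intro p p' h
    simp only [Prod.mk.injEq] at h
    obtain ⟨h1, h2, h3⟩ := h
    have h4 : (q p).2 = (q p').2 := by
      by_contra hne
      rw [← h1] at h2
      have hadj' : G.Adj (q p).1 (q p').2 := h1 ▸ hadj p'
      rcases lt_or_gt_of_ne (hA.ne hne) with h | h
      · exact absurd h2 (rank_lt (hfin _) (hadj p) h).ne
      · exact absurd h2 (rank_lt (hfin _) hadj' h).ne'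
    apply Subtype.ext
    apply Prod.ext h3
    rw [← hq1 p, ← hq1 p', h1, h4]
  · intro B p
    unfold Lab
    rw [if_pos p.2, ← hq1 p]
    simp only [Sym2.lift_mk]
    unfold lab0
    rw [if_pos (hq2 p)]

theorem measurable_restr (G : SimpleGraph V) : Measurable (restr G) := by
  rw [measurable_pi_iff]
  intro p
  unfold restr
  split_ifs
  · exact measurable_pi_apply p
  · exact measurable_const

theorem map_Lab_fixed {G : SimpleGraph V} {A : V → ℝ} (hA : Function.Injective A)
    (hfin : ∀ v, (G.neighborSet v).Finite) :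
    (Measure.infinitePi (fun _ : V × ℕ × ℕ => unifR)).map (Lab G A) =
      (Measure.infinitePi (fun _ : ℕ × Sym2 V => unifR)).map (restr G) := by
  classical
  obtain ⟨f, hf, hLab⟩ := exists_idx hA hfin
  set ext : ({p : ℕ × Sym2 V // p.2 ∈ G.edgeSet} → ℝ) → ℕ × Sym2 V → ℝ :=
    fun g p => if h : p.2 ∈ G.edgeSet then g ⟨p, h⟩ else 0 with hext
  have hextm : Measurable ext := by
    rw [measurable_pi_iff]
    intro p
    simp only [hext]
    split_ifs with h
    · exact measurable_pi_apply _
    · exact measurable_const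
  have e1 : Lab G A = ext ∘ fun (B : V × ℕ × ℕ → ℝ) i => B (f i) := by
    funext B p
    simp only [hext, Function.comp]
    split_ifs with h
    · exact hLab B ⟨p, h⟩
    · simp [Lab, h]
  have e2 : restr G = ext ∘ fun (L : ℕ × Sym2 V → ℝ) (i : {p : ℕ × Sym2 V // p.2 ∈ G.edgeSet}) =>
      L i.1 := by
    funext L p
    simp only [hext, Function.comp]
    unfold restr
    split_ifs with h <;> rfl
  rw [e1, e2, ← Measure.map_map hextm (by fun_prop), ← Measure.map_map hextm (by fun_prop),
    Measure.map_infinitePi_infinitePi_of_inj hf,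
    Measure.map_infinitePi_infinitePi_of_inj Subtype.val_injective]

theorem unifR_singleton (a : ℝ) : unifR {a} = 0 := by
  unfold unifR
  exact le_antisymm ((Measure.restrict_le_self _).trans (by simp)) zero_le

theorem ae_injective [Countable V] :
    ∀ᵐ A ∂(Measure.infinitePi (fun _ : V => unifR)), Function.Injective A := by
  classical
  have h : ∀ u v : V, u ≠ v → ∀ᵐ A ∂(Measure.infinitePi (fun _ : V => unifR)), A u ≠ A v := by
    intro u v huv
    have hm : MeasurableSet {A : V → ℝ | A u = A v} :=
      measurableSet_eq_fun (measurable_pi_apply u) (measurable_pi_apply v)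
    rw [ae_iff]
    simp only [ne_eq, not_not]
    rw [← lintegral_indicator_one hm, lintegral_split u (measurable_one.indicator hm)]
    have : ∀ (A : V → ℝ), ∫⁻ t, ({A : V → ℝ | A u = A v}.indicator 1 (Function.update A u t))
        ∂unifR = 0 := by
      intro A
      have e : (fun t : ℝ => ({A : V → ℝ | A u = A v}.indicator (1 : (V → ℝ) → ENNReal)
          (Function.update A u t))) = ({A v} : Set ℝ).indicator 1 := by
        funext t
        simp only [indicator, mem_ofPred_eq, Function.update_self,
          Function.update_of_ne (Ne.symm huv), mem_singleton_iff, Pi.one_apply]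
      rw [e, lintegral_indicator_one (measurableSet_singleton _), unifR_singleton]
    simp only [this, lintegral_zero]
  have h2 : ∀ᵐ A ∂(Measure.infinitePi (fun _ : V => unifR)), ∀ u v : V, u ≠ v → A u ≠ A v := by
    rw [ae_all_iff]; intro u
    rw [ae_all_iff]; intro v
    by_cases huv : u = v
    · simp [huv]
    · filter_upwards [h u v huv] with A hA _
      exact hA
  filter_upwards [h2] with A hA u v huv
  by_contra hne
  exact hA u v hne huv

theorem measurable_rank [Countable V] (u v : V) :
    Measurable fun p : SimpleGraph V × (V → ℝ) => rank p.1 p.2 u v := by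
  classical
  have h1 : Measurable fun p : SimpleGraph V × (V → ℝ) => rk p.1 p.2 u v := by
    unfold rk
    apply Measurable.tsum
    intro w
    apply Measurable.ite _ measurable_const measurable_const
    apply MeasurableSet.inter
    · have : Measurable fun p : SimpleGraph V × (V → ℝ) => p.1.Adj u w := by fun_prop
      exact this.setOf
    · exact measurableSet_lt ((measurable_pi_apply w).comp measurable_snd)
        ((measurable_pi_apply v).comp measurable_snd)
  unfold rank
  exact Nat.measurable_floor.comp h1.ennreal_toReal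

theorem measurable_label [Countable V] (k : ℕ) (u v : V) :
    Measurable fun p : SimpleGraph V × (V → ℝ) × (V × ℕ × ℕ → ℝ) =>
      p.2.2 (u, rank p.1 p.2.1 u v, k) := by
  have hpr : Measurable fun p : SimpleGraph V × (V → ℝ) × (V × ℕ × ℕ → ℝ) => (p.1, p.2.1) :=
    measurable_fst.prodMk (measurable_fst.comp measurable_snd)
  have hr := (measurable_rank u v).comp hpr
  have h2 : Measurable fun q : ((V × ℕ × ℕ) → ℝ) × ℕ => q.1 (u, q.2, k) := by
    apply measurable_from_prod_countable_left
    intro n
    exact measurable_pi_apply (X := fun _ : V × ℕ × ℕ => ℝ) (u, n, k)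
  have h3 : Measurable fun p : SimpleGraph V × (V → ℝ) × (V × ℕ × ℕ → ℝ) => p.2.2 :=
    measurable_snd.comp measurable_snd
  have h4 := h2.comp (h3.prodMk hr)
  exact h4

theorem measurable_lab0 [Countable V] (k : ℕ) (u v : V) :
    Measurable fun p : SimpleGraph V × (V → ℝ) × (V × ℕ × ℕ → ℝ) =>
      lab0 p.1 p.2.1 p.2.2 k u v := by
  have hlt : ∀ u v : V, MeasurableSet {p : SimpleGraph V × (V → ℝ) × (V × ℕ × ℕ → ℝ) |
      p.2.1 u < p.2.1 v} := by
    intro u v
    have h1 : ∀ u : V, Measurable fun p : SimpleGraph V × (V → ℝ) × (V × ℕ × ℕ → ℝ) => p.2.1 u :=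
      fun u => (measurable_pi_apply u).comp (measurable_fst.comp measurable_snd)
    exact measurableSet_lt (h1 u) (h1 v)
  unfold lab0
  exact Measurable.ite (hlt u v) (measurable_label k u v)
    (Measurable.ite (hlt v u) (measurable_label k v u) measurable_const)

theorem measurableSet_adj (u v : V) : MeasurableSet {G : SimpleGraph V | G.Adj u v} := by
  have : Measurable fun G : SimpleGraph V => G.Adj u v := by fun_prop
  exact this.setOf

theorem measurable_Lab [Countable V] :
    Measurable fun p : SimpleGraph V × (V → ℝ) × (V × ℕ × ℕ → ℝ) => Lab p.1 p.2.1 p.2.2 := by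
  classical
  rw [measurable_pi_iff]
  rintro ⟨k, e⟩
  induction e with
  | _ u v =>
    unfold Lab
    simp only [SimpleGraph.mem_edgeSet, Sym2.lift_mk]
    exact Measurable.ite (measurable_fst (measurableSet_adj u v)) (measurable_lab0 k u v)
      measurable_const

theorem map_Lab [Countable V] {G : SimpleGraph V} (hfin : ∀ v, (G.neighborSet v).Finite) :
    ((Measure.infinitePi (fun _ : V => unifR)).prod
      (Measure.infinitePi (fun _ : V × ℕ × ℕ => unifR))).map (fun p => Lab G p.1 p.2) =
      (Measure.infinitePi (fun _ : ℕ × Sym2 V => unifR)).map (restr G) := by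
  have hm : Measurable fun p : (V → ℝ) × (V × ℕ × ℕ → ℝ) => Lab G p.1 p.2 :=
    measurable_Lab.comp (measurable_const.prodMk measurable_id)
  ext S hS
  rw [Measure.map_apply hm hS, Measure.prod_apply (hm hS)]
  have : ∀ᵐ A ∂(Measure.infinitePi (fun _ : V => unifR)),
      (Measure.infinitePi (fun _ : V × ℕ × ℕ => unifR))
        (Prod.mk A ⁻¹' ((fun p : (V → ℝ) × (V × ℕ × ℕ → ℝ) => Lab G p.1 p.2) ⁻¹' S)) =
      ((Measure.infinitePi (fun _ : ℕ × Sym2 V => unifR)).map (restr G)) S := by
    filter_upwards [ae_injective] with A hA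
    have hA' : Measurable (Lab G A) := hm.comp measurable_prodMk_left
    rw [← map_Lab_fixed hA hfin, Measure.map_apply hA' hS]
    rfl
  rw [lintegral_congr_ae this]
  simp

/-- The vertex labels are decoded. -/
theorem map_decode {dec : I → Option (ℕ × ℕ) → ℝ} (hdec : Measurable dec)
    (hmap : (volume : Measure I).map dec = Measure.infinitePi (fun _ : Option (ℕ × ℕ) => unifR)) :
    (iidUnif V).map (fun U => (((fun v => dec (U v) none), fun q => dec (U q.1) (some q.2)) :
      (V → ℝ) × (V × ℕ × ℕ → ℝ))) =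
      (Measure.infinitePi (fun _ : V => unifR)).prod
        (Measure.infinitePi (fun _ : V × ℕ × ℕ => unifR)) := by
  set r : V ⊕ (V × ℕ × ℕ) → V × Option (ℕ × ℕ) :=
    Sum.elim (fun v => (v, none)) (fun q => (q.1, some q.2)) with hr
  have hrinj : Function.Injective r := by
    rintro (a | a) (b | b) h
    · simp only [hr, Sum.elim_inl, Prod.mk.injEq, and_true] at h; rw [h]
    · simp [hr] at h
    · simp [hr] at h
    · simp only [hr, Sum.elim_inr, Prod.mk.injEq, Option.some.injEq] at h
      rw [Prod.ext h.1 h.2]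
  have h1 := map_spread (V := V) unifR hdec hmap
  have h2 := Measure.map_infinitePi_infinitePi_of_inj
    (P := fun _ : V × Option (ℕ × ℕ) => unifR) hrinj
  have h3 := map_sumElim (α := V) (β := V × ℕ × ℕ) unifR
  set sp : (V ⊕ (V × ℕ × ℕ) → ℝ) → (V → ℝ) × (V × ℕ × ℕ → ℝ) :=
    fun g => (fun v => g (Sum.inl v), fun q => g (Sum.inr q)) with hsp
  have hspm : Measurable sp := by
    apply Measurable.prodMk
    · exact measurable_pi_iff.2 fun v => measurable_pi_apply _
    · exact measurable_pi_iff.2 fun v => measurable_pi_apply _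
  have hse : Measurable fun p : (V → ℝ) × (V × ℕ × ℕ → ℝ) =>
      (Sum.elim p.1 p.2 : V ⊕ (V × ℕ × ℕ) → ℝ) := by
    rw [measurable_pi_iff]
    rintro (a | b)
    · exact (measurable_pi_apply a).comp measurable_fst
    · exact (measurable_pi_apply b).comp measurable_snd
  have h4 : (((Measure.infinitePi (fun _ : V => unifR)).prod
      (Measure.infinitePi (fun _ : V × ℕ × ℕ => unifR))).map
      (fun p => (Sum.elim p.1 p.2 : V ⊕ (V × ℕ × ℕ) → ℝ))).map sp =
      (Measure.infinitePi (fun _ : V => unifR)).prod
      (Measure.infinitePi (fun _ : V × ℕ × ℕ => unifR)) := by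
    rw [Measure.map_map hspm hse]
    have : sp ∘ (fun p : (V → ℝ) × (V × ℕ × ℕ → ℝ) =>
        (Sum.elim p.1 p.2 : V ⊕ (V × ℕ × ℕ) → ℝ)) = id := by
      funext p
      simp [hsp]
    rw [this, Measure.map_id]
  have hd : ∀ i, Measurable fun u => dec u i := fun i => (measurable_pi_apply i).comp hdec
  have hd2 : Measurable fun (U : V → I) (p : V × Option (ℕ × ℕ)) => dec (U p.1) p.2 := by
    rw [measurable_pi_iff]
    intro p
    exact (hd _).comp (measurable_pi_apply p.1)
  have hd3 : Measurable fun (ω : V × Option (ℕ × ℕ) → ℝ) i => ω (r i) := by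
    rw [measurable_pi_iff]
    intro p
    exact measurable_pi_apply _
  rw [← h4, h3, ← h2, ← h1, Measure.map_map hd3 hd2, Measure.map_map hspm (hd3.comp hd2)]
  rfl

/-- Equivariance of the labels of the edges. -/
theorem Lab_map (τ : Equiv.Perm V) (G : SimpleGraph V) (A : V → ℝ) (B : V × ℕ × ℕ → ℝ)
    (k : ℕ) (e : Sym2 V) :
    Lab (G.map τ.toEmbedding) (fun x => A (τ.symm x)) (fun q => B (τ.symm q.1, q.2))
      (k, Sym2.map τ e) = Lab G A B (k, e) := by
  classical
  have hrank : ∀ u v, rank (G.map τ.toEmbedding) (fun x => A (τ.symm x)) (τ u) (τ v) =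
      rank G A u v := by
    intro u v
    unfold rank rk
    congr 2
    rw [← Equiv.tsum_eq τ]
    apply tsum_congr
    intro w
    have : (G.map τ.toEmbedding).Adj (τ u) (τ w) ↔ G.Adj u w := by
      simpa using SimpleGraph.map_adj_apply (G := G) (f := τ.toEmbedding) (a := u) (b := w)
    simp only [this, Equiv.symm_apply_apply]
  induction e with
  | _ u v =>
    have hadj : (G.map τ.toEmbedding).Adj (τ u) (τ v) ↔ G.Adj u v := by
      simpa using SimpleGraph.map_adj_apply (G := G) (f := τ.toEmbedding) (a := u) (b := v)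
    unfold Lab
    simp only [Sym2.map_mk, SimpleGraph.mem_edgeSet, Sym2.lift_mk, hadj]
    unfold lab0
    simp only [Equiv.symm_apply_apply, hrank]

end Vale.Agent.FUSF
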