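import Vale.Agent.FUSF.Limit

/-!
# P143 (e), the law of the decoded edge set
-/

open Set Filter Topology MeasureTheory

namespace Vale.Agent.FUSF

variable {V : Type*} [DecidableEq V]

/-- The decoded set of edges. -/
def Psi (G : SimpleGraph V) (U : ℕ × Sym2 V → ℝ) : Set (Sym2 V) :=
  {f | f ∈ G.edgeSet ∧ ∃ m : ℕ, ∀ i : ℕ, 0 < avg f (4 ^ (m + i)) (parY G U)}

variable {G : SimpleGraph V} {En : ℕ → Finset (Sym2 V)} {Wn : ℕ → Finset V}

/-- Proportion of the spanning trees with a given pattern. -/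
noncomputable def ustP (E : Finset (Sym2 V)) (W : Finset V) (F : Finset (Sym2 V))
    (B : Set (Sym2 V)) : ℝ :=
  ({T | T ∈ spTrees E W ∧ ∀ e ∈ F, (e ∈ T ↔ e ∈ B)}.ncard : ℝ) / (spTrees E W).card

omit [DecidableEq V] in
theorem ustP_eq (E : Finset (Sym2 V)) (W : Finset V) (F : Finset (Sym2 V))
    (B : Set (Sym2 V)) [DecidablePred fun T : Finset (Sym2 V) => ∀ e ∈ F, (e ∈ T ↔ e ∈ B)] :
    ustP E W F B =
      (((spTrees E W).filter fun T => ∀ e ∈ F, (e ∈ T ↔ e ∈ B)).card : ℝ) /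
        (spTrees E W).card := by
  unfold ustP
  rw [← Set.ncard_coe_finset (Finset.filter _ _)]
  congr 3
  ext T
  simp

omit [DecidableEq V] in
theorem ustP_nonneg (E : Finset (Sym2 V)) (W : Finset V) (F : Finset (Sym2 V))
    (B : Set (Sym2 V)) : 0 ≤ ustP E W F B := by
  unfold ustP; positivity

omit [DecidableEq V] in
theorem avg_close {f : Sym2 V} {K : ℕ} (hK : 0 < K) {y z : ℕ × Sym2 V → ℝ} {δ : ℝ}
    (h : ∀ k < K, |y (k, f) - z (k, f)| ≤ δ) : |avg f K y - avg f K z| ≤ 2 * δ := by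
  have hK' : (0 : ℝ) < K := by exact_mod_cast hK
  unfold avg
  rw [← sub_div, abs_div, abs_of_pos hK', div_le_iff₀ hK', ← Finset.sum_sub_distrib]
  refine (Finset.abs_sum_le_sum_abs _ _).trans ?_
  have : ∀ k ∈ Finset.range K, |2 * y (k, f) - 1 - (2 * z (k, f) - 1)| ≤ 2 * δ := by
    intro k hk
    have h1 := h k (Finset.mem_range.1 hk)
    have e : 2 * y (k, f) - 1 - (2 * z (k, f) - 1) = 2 * (y (k, f) - z (k, f)) := by ring
    rw [e, abs_mul, abs_two]
    linarith
  refine (Finset.sum_le_sum this).trans ?_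
  rw [Finset.sum_const, Finset.card_range, nsmul_eq_mul]
  linarith

theorem Exh.ofReal_le_Ev [Countable V] (h : Exh G En Wn) {F : Finset (Sym2 V)}
    (hF : ∀ f ∈ F, f ∈ G.edgeSet) (B : Set (Sym2 V)) (m₀ n' : ℕ) {r : ℝ}
    (hr0 : 0 ≤ r) (hr : ∃ᶠ n in atTop, r ≤ ustP (En n) (Wn n) F B) :
    ENNReal.ofReal (r * (1 - 192 * F.card * (1 / 4) ^ m₀)) ≤
      (Measure.infinitePi (fun _ : ℕ × Sym2 V => unifR)) {U | parY G U ∈ Ev F B m₀ n' (1 / 24)} := by
  classical
  set P := Measure.infinitePi (fun _ : ℕ × Sym2 V => unifR) with hP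
  set η : ℝ := 1 - 192 * F.card * (1 / 4) ^ m₀ with hη
  set K := 4 ^ (m₀ + n') with hKdef
  have hKi : ∀ i < n', 4 ^ (m₀ + i) ≤ K := by
    intro i hi
    exact Nat.pow_le_pow_right (by norm_num) (by omega)
  by_cases hη0 : η < 0
  · rw [ENNReal.ofReal_of_nonpos (mul_nonpos_of_nonneg_of_nonpos hr0 hη0.le)]
    exact zero_le
  push Not at hη0
  apply ENNReal.le_of_forall_pos_le_add
  intro δ hδ _
  obtain ⟨j, hj⟩ := h.prob_close K hF (ε := 1 / 48) (by norm_num)
  have hFn : ∀ᶠ n in atTop, ∀ f ∈ F, f ∈ En n := by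
    rw [Filter.eventually_all_finset]
    intro f hf
    exact h.ex f (hF f hf)
  have hsmall := hj.eventually (gt_mem_nhds (show (0 : ENNReal) < δ by exact_mod_cast hδ))
  obtain ⟨n, hn1, hn2, hn3⟩ := (hr.and_eventually (hFn.and hsmall)).exists
  set 𝒯 := spTrees (En n) (Wn n) with h𝒯
  have h𝒯ne : 𝒯.Nonempty := spTrees_nonempty (En n) (Wn n) (h.diag n) (h.vert n) (h.conn n)
  have hT : ∀ T ∈ 𝒯, ∀ g ∈ T, g ∈ (En n).toList := by
    intro T hTT g hg
    rw [h𝒯, spTrees, Finset.mem_filter, Finset.mem_powerset] at hTT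
    exact Finset.mem_toList.2 (hTT.1 hg)
  have hlaw := map_seqObs 𝒯 h𝒯ne (En n).toList (Finset.nodup_toList _) hT (2 ^ j) K
    Nat.one_le_two_pow
  have hst : (fun (U : ℕ × Sym2 V → ℝ) (p : ℕ × Sym2 V) => if p.1 < K then
      seqObs (Mtree 𝒯) (En n).toList (2 ^ j) U p.1 p.2 else U p) =
      stageMap (Mtree 𝒯) (2 ^ j) (En n).toList K := rfl
  rw [hst] at hlaw
  have hstm := measurable_stageMap (measurable_Mtree 𝒯) (2 ^ j)
    (Finset.nodup_toList (En n)) K
  have hpat := pattern_mix (F := F) (B := B) h𝒯ne (l := (En n).toList)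
    (fun f hf => Finset.mem_toList.2 (hn2 f hf)) m₀ n' K hKi
  rw [← hlaw, Measure.map_apply hstm (measurableSet_Ev F B m₀ n' (1 / 12))] at hpat
  calc ENNReal.ofReal (r * η) ≤ ENNReal.ofReal (ustP (En n) (Wn n) F B * η) :=
        ENNReal.ofReal_le_ofReal (mul_le_mul_of_nonneg_right hn1 hη0)
    _ ≤ P (stageMap (Mtree 𝒯) (2 ^ j) (En n).toList K ⁻¹' Ev F B m₀ n' (1 / 12)) := by
        rw [ustP_eq]
        exact hpat
    _ ≤ P ({U | parY G U ∈ Ev F B m₀ n' (1 / 24)} ∪ {U | ∃ k < K, ∃ f ∈ F, 1 / 48 <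
          |seqObs (Mtree 𝒯) (En n).toList (2 ^ j) U k f - parY G U (k, f)|}) := by
        apply measure_mono
        intro U hU
        by_cases hUS : ∃ k < K, ∃ f ∈ F, 1 / 48 <
          |seqObs (Mtree 𝒯) (En n).toList (2 ^ j) U k f - parY G U (k, f)|
        · exact Or.inr hUS
        · left
          push Not at hUS
          intro i hi f hf
          have h1 := hU i hi f hf
          have h2 : |avg f (4 ^ (m₀ + i)) (stageMap (Mtree 𝒯) (2 ^ j) (En n).toList K U) -
              avg f (4 ^ (m₀ + i)) (parY G U)| ≤ 2 * (1 / 48) := by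
            apply avg_close (by positivity)
            intro k hk
            have hkK : k < K := lt_of_lt_of_le hk (hKi i hi)
            have := hUS k hkK f hf
            simpa [stageMap, hkK] using this
          have h3 := abs_le.1 h2
          constructor
          · intro hfB
            have := h1.1 hfB
            linarith
          · intro hfB
            have := h1.2 hfB
            linarith
    _ ≤ P {U | parY G U ∈ Ev F B m₀ n' (1 / 24)} + P {U | ∃ k < K, ∃ f ∈ F, 1 / 48 <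
          |seqObs (Mtree 𝒯) (En n).toList (2 ^ j) U k f - parY G U (k, f)|} :=
        measure_union_le _ _
    _ ≤ _ := by
        gcongr

/-- The event that the decoded set has the pattern `B` on `F`. -/
def Pat (G : SimpleGraph V) (F : Finset (Sym2 V)) (B : Set (Sym2 V)) : Set (ℕ × Sym2 V → ℝ) :=
  {U | ∀ e ∈ F, (e ∈ Psi G U ↔ e ∈ B)}

theorem iInter_Ev_subset {F : Finset (Sym2 V)} (hF : ∀ f ∈ F, f ∈ G.edgeSet) (B : Set (Sym2 V))
    (m₀ : ℕ) : (⋂ n' : ℕ, {U | parY G U ∈ Ev F B m₀ n' (1 / 24)}) ⊆ Pat G F B := by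
  intro U hU e he
  simp only [mem_iInter, mem_ofPred_eq] at hU
  have h1 : ∀ i, (e ∈ B → 1 / 24 ≤ avg e (4 ^ (m₀ + i)) (parY G U)) ∧
      (e ∉ B → avg e (4 ^ (m₀ + i)) (parY G U) ≤ -(1 / 24)) :=
    fun i => hU (i + 1) i (by omega) e he
  constructor
  · rintro ⟨_, m, hm⟩
    by_contra hB
    have h2 := hm m₀
    have h3 := (h1 m).2 hB
    rw [add_comm m m₀] at h2
    linarith
  · intro hB
    refine ⟨hF e he, m₀, fun i => ?_⟩
    have := (h1 i).1 hB
    linarith

theorem Exh.ofReal_le_Pat [Countable V] (h : Exh G En Wn) {F : Finset (Sym2 V)}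
    (hF : ∀ f ∈ F, f ∈ G.edgeSet) (B : Set (Sym2 V)) {r : ℝ}
    (hr0 : 0 ≤ r) (hr : ∃ᶠ n in atTop, r ≤ ustP (En n) (Wn n) F B) :
    ENNReal.ofReal r ≤ (Measure.infinitePi (fun _ : ℕ × Sym2 V => unifR)) (Pat G F B) := by
  set P := Measure.infinitePi (fun _ : ℕ × Sym2 V => unifR) with hP
  have h1 : ∀ m₀ : ℕ, ENNReal.ofReal (r * (1 - 192 * F.card * (1 / 4) ^ m₀)) ≤ P (Pat G F B) := by
    intro m₀
    refine le_trans ?_ (measure_mono (iInter_Ev_subset hF B m₀))
    have hanti : Antitone fun n' : ℕ => {U | parY G U ∈ Ev F B m₀ n' (1 / 24)} := by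
      intro a b hab U hU i hi
      exact hU i (lt_of_lt_of_le hi hab)
    rw [hanti.measure_iInter
      (fun n' => (measurable_parY' G (measurableSet_Ev F B m₀ n' (1 / 24))).nullMeasurableSet)
      ⟨0, measure_ne_top _ _⟩]
    exact le_iInf fun n' => h.ofReal_le_Ev hF B m₀ n' hr0 hr
  have h2 : Tendsto (fun m₀ : ℕ => ENNReal.ofReal (r * (1 - 192 * F.card * (1 / 4) ^ m₀))) atTop
      (𝓝 (ENNReal.ofReal (r * (1 - 192 * F.card * 0)))) := by
    apply ENNReal.tendsto_ofReal
    apply Tendsto.const_mul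
    apply Tendsto.const_sub
    apply Tendsto.const_mul
    exact tendsto_pow_atTop_nhds_zero_of_lt_one (by norm_num) (by norm_num)
  have h3 := le_of_tendsto' h2 h1
  simpa using h3

/-- Abstract limit lemma: upper bounds for all cells of a partition give convergence. -/
theorem tendsto_of_cells {ι : Type*} (s : Finset ι) (u : ℕ → ι → ℝ) (p : ι → ℝ)
    (hu : ∀ᶠ n in atTop, ∑ i ∈ s, u n i = 1) (hp : ∑ i ∈ s, p i ≤ 1)
    (hup : ∀ i ∈ s, ∀ r, p i < r → ∀ᶠ n in atTop, u n i < r) :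
    ∀ i ∈ s, Tendsto (fun n => u n i) atTop (𝓝 (p i)) := by
  classical
  intro i hi
  apply tendsto_order.2
  constructor
  · intro r hr
    set δ := (p i - r) / (s.card + 1) with hδ
    have hcard : (0 : ℝ) < s.card + 1 := by positivity
    have hδ0 : 0 < δ := div_pos (by linarith) hcard
    have h1 : ∀ᶠ n in atTop, ∀ j ∈ s, u n j < p j + δ := by
      rw [Filter.eventually_all_finset]
      intro j hj
      exact hup j hj _ (by linarith)
    filter_upwards [h1, hu] with n hn hun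
    have h2 : ∑ j ∈ s.erase i, u n j ≤ ∑ j ∈ s.erase i, (p j + δ) :=
      Finset.sum_le_sum fun j hj => (hn j (Finset.mem_of_mem_erase hj)).le
    rw [Finset.sum_add_distrib, Finset.sum_const, nsmul_eq_mul] at h2
    have h3 := Finset.add_sum_erase s (fun j => u n j) hi
    have h4 := Finset.add_sum_erase s p hi
    have h5 : ((s.erase i).card : ℝ) * δ < p i - r := by
      have h6 : ((s.erase i).card : ℝ) ≤ s.card := by exact_mod_cast Finset.card_erase_le
      have h7 : (s.card + 1 : ℝ) * δ = p i - r := by rw [hδ]; field_simp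
      nlinarith
    linarith
  · intro r hr
    exact hup i hi r hr

end Vale.Agent.FUSF
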