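import Vale.Agent.FUSF.Mconv
import Vale.Agent.FUSF.Labels

/-!
# P143, measurability and equivariance of the edge probabilities
-/

open Set Filter Topology MeasureTheory

namespace Vale.Agent.FUSF

variable {V : Type*}

open Classical in
theorem infE_eq {D : SimpleGraph V} {c : Sym2 V → ℝ} (hc : ∀ e, 0 < c e) {e : Sym2 V}
    (he : e ∈ D.edgeSet) :
    infE D c e = ⨅ θ : V × V →₀ ℚ, if IsFlow D e θ then energy c θ else (c e)⁻¹ := by
  obtain ⟨θ₀, hθ₀, hen₀⟩ := exists_edgeFlow he
  have hne : Nonempty {θ : V × V →₀ ℚ // IsFlow D e θ} := ⟨⟨θ₀, hθ₀⟩⟩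
  apply le_antisymm
  · apply le_ciInf
    intro θ
    split_ifs with h
    · exact infE_le hc h
    · rw [← hen₀ c]; exact infE_le hc hθ₀
  · apply le_ciInf
    rintro ⟨θ, hθ⟩
    have hbdd : BddBelow (range fun θ : V × V →₀ ℚ =>
        if IsFlow D e θ then energy c θ else (c e)⁻¹) := by
      refine ⟨0, ?_⟩
      rintro _ ⟨θ, rfl⟩
      simp only
      split_ifs
      · exact energy_nonneg hc θ
      · exact (inv_pos.2 (hc e)).le
    have := ciInf_le hbdd θ
    rwa [if_pos hθ] at this

theorem measurableSet_isFlow [Countable V] (e : Sym2 V) (θ : V × V →₀ ℚ) :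
    MeasurableSet {G : SimpleGraph V | IsFlow G e θ} := by
  classical
  by_cases h : (∀ x y, θ (y, x) = - θ (x, y)) ∧ ∃ a b, s(a, b) = e ∧ ∀ x,
      (θ.sum fun p t => if p.1 = x then t else 0) = (if x = a then 1 else 0) -
        (if x = b then 1 else 0)
  · have e1 : {G : SimpleGraph V | IsFlow G e θ} =
        ⋂ x : V, ⋂ y : V, {G : SimpleGraph V | θ (x, y) ≠ 0 → G.Adj x y} := by
      ext G
      simp only [mem_ofPred_eq, mem_iInter]
      constructor
      · intro hG x y; exact hG.supp x y
      · intro hG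
        refine ⟨h.1, hG, ?_⟩
        obtain ⟨a, b, hab, hdiv⟩ := h.2
        refine ⟨a, b, hab, fun x => ?_⟩
        convert hdiv x using 2
    rw [e1]
    refine MeasurableSet.iInter fun x => MeasurableSet.iInter fun y => ?_
    by_cases hxy : θ (x, y) = 0
    · simp [hxy]
    · simp only [ne_eq, hxy, not_false_eq_true, forall_true_left]
      exact measurableSet_adj x y
  · have e1 : {G : SimpleGraph V | IsFlow G e θ} = ∅ := by
      ext G
      simp only [mem_ofPred_eq, mem_empty_iff_false, iff_false]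
      intro hG
      apply h
      refine ⟨hG.antisymm, ?_⟩
      obtain ⟨a, b, hab, hdiv⟩ := hG.div
      refine ⟨a, b, hab, fun x => ?_⟩
      convert hdiv x using 2
    rw [e1]; exact MeasurableSet.empty

theorem measurable_posc (f : Sym2 V) : Measurable fun c : Sym2 V → ℝ => posc c f := by
  unfold posc
  exact Measurable.ite (measurableSet_lt measurable_const (measurable_pi_apply f))
    (measurable_pi_apply f) measurable_const

theorem measurable_energy (θ : V × V →₀ ℚ) :
    Measurable fun c : Sym2 V → ℝ => energy (posc c) θ := by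
  have h : ∀ c : Sym2 V → ℝ, energy (posc c) θ = ∑ p ∈ θ.support, ((θ p : ℚ) : ℝ) ^ 2 /
      (2 * posc c s(p.1, p.2)) := fun c => energy_eq_sum (Finset.Subset.refl _)
  simp only [h]
  apply Finset.measurable_sum
  intro p _
  exact measurable_const.div ((measurable_posc _).const_mul 2)

theorem measurable_Mp [Countable V] (e : Sym2 V) :
    Measurable fun p : SimpleGraph V × (Sym2 V → ℝ) => Mp p.1 p.2 e := by
  classical
  have hadj : MeasurableSet {G : SimpleGraph V | e ∈ G.edgeSet} := by
    induction e with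
    | _ a b => exact measurableSet_adj a b
  have h : ∀ p : SimpleGraph V × (Sym2 V → ℝ), Mp p.1 p.2 e = if e ∈ p.1.edgeSet then
      posc p.2 e * ⨅ θ : V × V →₀ ℚ, (if IsFlow p.1 e θ then energy (posc p.2) θ
        else (posc p.2 e)⁻¹) else 0 := by
    intro p
    unfold Mp Mfun
    by_cases he : e ∈ p.1.edgeSet
    · rw [if_pos he, if_pos he, ← infE_eq (posc_pos p.2) he]; rfl
    · rw [if_neg he, if_neg he]
  simp only [h]
  apply Measurable.ite (measurable_fst hadj) _ measurable_const
  apply ((measurable_posc e).comp measurable_snd).mul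
  apply Measurable.iInf
  intro θ
  exact Measurable.ite (measurable_fst (measurableSet_isFlow e θ))
    ((measurable_energy θ).comp measurable_snd) ((measurable_posc e).comp measurable_snd).inv

/-- Transport of a flow by a permutation of the vertices. -/
theorem IsFlow.map {D : SimpleGraph V} {e : Sym2 V} {θ : V × V →₀ ℚ} (h : IsFlow D e θ)
    (τ : Equiv.Perm V) :
    IsFlow (D.map τ.toEmbedding) (Sym2.map τ e) (θ.equivMapDomain (τ.prodCongr τ)) := by
  classical
  refine ⟨?_, ?_, ?_⟩
  · intro x y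
    rw [Finsupp.equivMapDomain_apply, Finsupp.equivMapDomain_apply]
    exact h.antisymm _ _
  · intro x y hxy
    simp only [Finsupp.equivMapDomain_apply, Equiv.prodCongr_symm, Equiv.prodCongr_apply,
      Prod.map_apply] at hxy
    have := h.supp _ _ hxy
    have h2 := (SimpleGraph.map_adj_apply (G := D) (f := τ.toEmbedding)
      (a := τ.symm x) (b := τ.symm y)).2 this
    simpa using h2
  · obtain ⟨a, b, hab, hdiv⟩ := h.div
    refine ⟨τ a, τ b, by rw [← hab]; rfl, fun x => ?_⟩
    rw [Finsupp.sum_equivMapDomain]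
    simp only [Equiv.prodCongr_apply, Prod.map_fst]
    have h1 : ∀ y, (τ y = x) ↔ (y = τ.symm x) := by
      intro y; rw [Equiv.eq_symm_apply]
    have h2 := hdiv (τ.symm x)
    simp only [h1]
    have h3 : ∀ y, (x = τ y) ↔ (τ.symm x = y) := by
      intro y; rw [Equiv.symm_apply_eq]
    simp only [h3]
    convert h2 using 2

theorem energy_map (c : Sym2 V → ℝ) (θ : V × V →₀ ℚ) (τ : Equiv.Perm V) :
    energy (fun f => c (Sym2.map τ.symm f)) (θ.equivMapDomain (τ.prodCongr τ)) = energy c θ := by
  unfold energy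
  rw [Finsupp.sum_equivMapDomain]
  apply Finsupp.sum_congr
  intro p _
  simp

theorem infE_map_le {D : SimpleGraph V} {c : Sym2 V → ℝ} (hc : ∀ e, 0 < c e) {e : Sym2 V}
    (he : e ∈ D.edgeSet) (τ : Equiv.Perm V) :
    infE (D.map τ.toEmbedding) (fun f => c (Sym2.map τ.symm f)) (Sym2.map τ e) ≤
      infE D c e := by
  obtain ⟨θ₀, hθ₀, -⟩ := exists_edgeFlow he
  have hne : Nonempty {θ : V × V →₀ ℚ // IsFlow D e θ} := ⟨⟨θ₀, hθ₀⟩⟩
  apply le_ciInf
  rintro ⟨θ, hθ⟩
  rw [← energy_map c θ τ]
  exact infE_le (fun f => hc _) (hθ.map τ)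

theorem mem_edgeSet_map (D : SimpleGraph V) (τ : Equiv.Perm V) (e : Sym2 V) :
    Sym2.map τ e ∈ (D.map τ.toEmbedding).edgeSet ↔ e ∈ D.edgeSet := by
  induction e with
  | _ a b =>
    simpa using SimpleGraph.map_adj_apply (G := D) (f := τ.toEmbedding) (a := a) (b := b)

theorem map_map_symm (D : SimpleGraph V) (τ : Equiv.Perm V) :
    (D.map τ.toEmbedding).map τ.symm.toEmbedding = D := by
  rw [SimpleGraph.map_map]
  have : (τ.symm.toEmbedding ∘ τ.toEmbedding : V → V) = id := by
    funext x; simp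
  rw [this]
  exact SimpleGraph.map_id D

theorem sym2_map_symm_map (τ : Equiv.Perm V) (e : Sym2 V) :
    Sym2.map τ.symm (Sym2.map τ e) = e := by
  rw [Sym2.map_map]
  have : (τ.symm ∘ τ : V → V) = id := by funext x; simp
  rw [this, Sym2.map_id]; rfl

theorem sym2_map_map_symm (τ : Equiv.Perm V) (e : Sym2 V) :
    Sym2.map τ (Sym2.map τ.symm e) = e := sym2_map_symm_map τ.symm e

theorem infE_map {D : SimpleGraph V} {c : Sym2 V → ℝ} (hc : ∀ e, 0 < c e) {e : Sym2 V}
    (he : e ∈ D.edgeSet) (τ : Equiv.Perm V) :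
    infE (D.map τ.toEmbedding) (fun f => c (Sym2.map τ.symm f)) (Sym2.map τ e) =
      infE D c e := by
  apply le_antisymm (infE_map_le hc he τ)
  have h := infE_map_le (D := D.map τ.toEmbedding) (c := fun f => c (Sym2.map τ.symm f))
    (fun f => hc _) (e := Sym2.map τ e) ((mem_edgeSet_map D τ e).2 he) τ.symm
  rw [map_map_symm, sym2_map_symm_map] at h
  simp only [Equiv.symm_symm, sym2_map_symm_map] at h
  exact h

/-- Equivariance of the edge probabilities. -/
theorem Mp_map (D : SimpleGraph V) (c : Sym2 V → ℝ) (e : Sym2 V) (τ : Equiv.Perm V) :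
    Mp (D.map τ.toEmbedding) (fun f => c (Sym2.map τ.symm f)) (Sym2.map τ e) = Mp D c e := by
  unfold Mp Mfun
  by_cases he : e ∈ D.edgeSet
  · rw [if_pos he, if_pos ((mem_edgeSet_map D τ e).2 he)]
    have h1 : posc (fun f => c (Sym2.map τ.symm f)) = fun f => posc c (Sym2.map τ.symm f) := rfl
    rw [h1]
    simp only [sym2_map_symm_map]
    exact congrArg (posc c e * ·) (infE_map (posc_pos c) he τ)
  · rw [if_neg he, if_neg (fun h => he ((mem_edgeSet_map D τ e).1 h))]

end Vale.Agent.FUSF
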