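import Vale.Agent.FUSF.Exact

/-!
# P143, measurability, equivariance and locality of the parallel scheme
-/

open Set Filter Topology MeasureTheory

namespace Vale.Agent.FUSF

variable {E : Type*} [DecidableEq E]

section meas

variable {Ω : Type*} [MeasurableSpace Ω]

theorem measurable_parRound {M : Ω → (E → ℝ) → E → ℝ}
    (hM : ∀ e, Measurable fun p : Ω × (E → ℝ) => M p.1 p.2 e) {c y : Ω → E → ℝ}
    (hc : Measurable c) (hy : Measurable y) (θ h : ℝ) :
    Measurable fun ω => parRound (M ω) (c ω) θ h (y ω) := by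
  rw [measurable_pi_iff]
  intro f
  have h1 : Measurable fun ω => ctil (c ω) (fun _ => θ) (y ω) f := by
    rw [measurable_pi_iff]
    intro g
    have hcg : Measurable fun ω => c ω g := (measurable_pi_apply g).comp hc
    unfold ctil
    split_ifs
    · exact hcg
    · exact hcg.mul ((measurable_lr _).comp ((measurable_pi_apply g).comp hy))
  have h2 : Measurable fun ω => sig (M ω) (c ω) (fun _ => θ) (y ω) f := by
    unfold sig
    exact (((hM f).comp (measurable_id.prodMk h1)).const_mul 2).sub_const 1
  unfold parRound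
  have h3 : Measurable fun ω => y ω f := (measurable_pi_apply f).comp hy
  exact measurable_tau.comp
    (measurable_const.prodMk (measurable_const.prodMk (h2.prodMk h3)))

theorem measurable_parIter {M : Ω → (E → ℝ) → E → ℝ}
    (hM : ∀ e, Measurable fun p : Ω × (E → ℝ) => M p.1 p.2 e) {c y : Ω → E → ℝ}
    (hc : Measurable c) (hy : Measurable y) (h : ℝ) (j : ℕ) :
    Measurable fun ω => parIter (M ω) (c ω) h (y ω) j := by
  induction j with
  | zero => exact hy
  | succ j ih =>
    simp only [parIter]
    exact measurable_parRound hM hc ih _ _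

theorem measurable_parCon {M : Ω → (E → ℝ) → E → ℝ}
    (hM : ∀ e, Measurable fun p : Ω × (E → ℝ) => M p.1 p.2 e) {U : Ω → ℕ × E → ℝ}
    (hU : Measurable U) (J k : ℕ) : Measurable fun ω => parCon (M ω) J (U ω) k := by
  induction k with
  | zero => exact measurable_const
  | succ k ih =>
    simp only [parCon]
    rw [measurable_pi_iff]
    intro f
    apply ((measurable_pi_apply f).comp ih).mul
    apply (measurable_lr _).comp
    apply (measurable_pi_apply f).comp
    apply measurable_parIter hM ih
    rw [measurable_pi_iff]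
    intro e
    exact (measurable_pi_apply _).comp hU

theorem measurable_parObs {M : Ω → (E → ℝ) → E → ℝ}
    (hM : ∀ e, Measurable fun p : Ω × (E → ℝ) => M p.1 p.2 e) {U : Ω → ℕ × E → ℝ}
    (hU : Measurable U) (J k : ℕ) : Measurable fun ω => parObs (M ω) J (U ω) k := by
  unfold parObs
  apply measurable_parIter hM (measurable_parCon hM hU J k)
  rw [measurable_pi_iff]
  intro e
  exact (measurable_pi_apply _).comp hU

end meas

section equiv

variable {M M' : (E → ℝ) → E → ℝ} (τ : E ≃ E)
  (hM : ∀ c e, M' (fun f => c (τ.symm f)) (τ e) = M c e)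

include hM

theorem parRound_equiv (c y : E → ℝ) (θ h : ℝ) :
    parRound M' (fun f => c (τ.symm f)) θ h (fun f => y (τ.symm f)) =
      fun f => parRound M c θ h y (τ.symm f) := by
  funext f
  obtain ⟨e, rfl⟩ := τ.surjective f
  unfold parRound sig
  rw [Equiv.symm_apply_apply, ← hM]
  have : ctil (fun f => c (τ.symm f)) (fun _ => θ) (fun f => y (τ.symm f)) (τ e) =
      fun f => ctil c (fun _ => θ) y e (τ.symm f) := by
    funext g
    unfold ctil
    simp only [Equiv.symm_apply_eq]
  rw [this]
  simp only [Equiv.symm_apply_apply]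

theorem parIter_equiv (c y : E → ℝ) (h : ℝ) (j : ℕ) :
    parIter M' (fun f => c (τ.symm f)) h (fun f => y (τ.symm f)) j =
      fun f => parIter M c h y j (τ.symm f) := by
  induction j with
  | zero => rfl
  | succ j ih =>
    simp only [parIter]
    rw [ih, parRound_equiv τ hM]

theorem parCon_equiv (J : ℕ) (U : ℕ × E → ℝ) (k : ℕ) :
    parCon M' J (fun p => U (p.1, τ.symm p.2)) k = fun f => parCon M J U k (τ.symm f) := by
  induction k with
  | zero => rfl
  | succ k ih =>
    funext f
    simp only [parCon]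
    rw [ih]
    have h := parIter_equiv τ hM (parCon M J U k) (fun e => U (k, e)) (1 / (2 * J)) J
    rw [h]

theorem parObs_equiv (J : ℕ) (U : ℕ × E → ℝ) (k : ℕ) :
    parObs M' J (fun p => U (p.1, τ.symm p.2)) k = fun f => parObs M J U k (τ.symm f) := by
  unfold parObs
  rw [parCon_equiv τ hM]
  exact parIter_equiv τ hM (parCon M J U k) (fun e => U (k, e)) (1 / (2 * J)) J

end equiv

section loc

variable {M : (E → ℝ) → E → ℝ} {S : Set E}
  (hM : ∀ c c' : E → ℝ, (∀ f ∈ S, c f = c' f) → ∀ f ∈ S, M c f = M c' f)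

include hM

theorem parRound_loc {c c' y y' : E → ℝ} (hc : ∀ f ∈ S, c f = c' f) (hy : ∀ f ∈ S, y f = y' f)
    (θ h : ℝ) : ∀ f ∈ S, parRound M c θ h y f = parRound M c' θ h y' f := by
  intro f hf
  unfold parRound sig
  rw [hM (ctil c (fun _ => θ) y f) (ctil c' (fun _ => θ) y' f) _ f hf, hy f hf]
  intro g hg
  unfold ctil
  rw [hc g hg, hy g hg]

theorem parIter_loc {c c' y y' : E → ℝ} (hc : ∀ f ∈ S, c f = c' f) (hy : ∀ f ∈ S, y f = y' f)
    (h : ℝ) (j : ℕ) : ∀ f ∈ S, parIter M c h y j f = parIter M c' h y' j f := by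
  induction j with
  | zero => exact hy
  | succ j ih => exact parRound_loc hM hc ih _ _

theorem parCon_loc (J : ℕ) {U U' : ℕ × E → ℝ} (hU : ∀ k, ∀ f ∈ S, U (k, f) = U' (k, f)) (k : ℕ) :
    ∀ f ∈ S, parCon M J U k f = parCon M J U' k f := by
  induction k with
  | zero => intro f _; rfl
  | succ k ih =>
    intro f hf
    simp only [parCon]
    rw [ih f hf, parIter_loc hM ih (hU k) _ J f hf]

theorem parObs_loc (J : ℕ) {U U' : ℕ × E → ℝ} (hU : ∀ k, ∀ f ∈ S, U (k, f) = U' (k, f)) (k : ℕ) :
    ∀ f ∈ S, parObs M J U k f = parObs M J U' k f :=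
  parIter_loc hM (parCon_loc hM J hU k) (hU k) _ J

end loc

end Vale.Agent.FUSF
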