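import Vale.Agent.FUSF.Pattern
import Vale.Agent.FUSF.Mmeas
import Vale.Agent.FUSF.SchemeProps
import Vale.Agent.FUSF.Kirchhoff
import Vale.Agent.FUSF.AnalysisA
import Vale.Agent.FUSF.AnalysisB

/-!
# P143 (e), the limit of the parallel scheme and its law
-/

open Set Filter Topology MeasureTheory

namespace Vale.Agent.FUSF



variable {V : Type*} [DecidableEq V]

/-- The limit observations. -/
noncomputable def parY (G : SimpleGraph V) (U : ℕ × Sym2 V → ℝ) (p : ℕ × Sym2 V) : ℝ :=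
  limsup (fun j => parObs (Mp G) (2 ^ j) U p.1 p.2) atTop

theorem parY_close (k : ℕ) : ∃ C : ℝ, 0 ≤ C ∧ ∀ (G : SimpleGraph V) (U : ℕ × Sym2 V → ℝ),
    (∀ p, U p ∈ Icc (0 : ℝ) 1) → ∀ (j : ℕ) (f : Sym2 V),
      |parObs (Mp G) (2 ^ j) U k f - parY G U (k, f)| ≤ C / 2 ^ j := by
  obtain ⟨C, hC, h⟩ := par_sub_par (E := Sym2 V) k
  refine ⟨2 * C, by positivity, ?_⟩
  intro G U hU j f
  have h1 : ∀ n : ℕ, dist (parObs (Mp G) (2 ^ n) U k f) (parObs (Mp G) (2 ^ (n + 1)) U k f) ≤
      (2 * C) / 2 / 2 ^ n := by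
    intro n
    rw [Real.dist_eq, pow_succ' 2 n]
    have := h (Mp G) (2 ^ n) U (admissible_Mp G) Nat.one_le_two_pow hU f
    refine this.trans (le_of_eq ?_)
    push_cast
    ring
  obtain ⟨a, ha⟩ := cauchySeq_tendsto_of_complete (cauchySeq_of_le_geometric_two h1)
  have h2 := dist_le_of_le_geometric_two_of_tendsto h1 ha j
  have h3 : parY G U (k, f) = a := ha.limsup_eq
  rw [h3, ← Real.dist_eq]
  exact h2

theorem measurable_parObs_Mp [Countable V] (G : SimpleGraph V) (J k : ℕ) :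
    Measurable fun U : ℕ × Sym2 V → ℝ => parObs (Mp G) J U k := by
  apply measurable_parObs (M := fun _ : ℕ × Sym2 V → ℝ => Mp G) _ measurable_id
  intro e
  exact (measurable_Mp e).comp (measurable_const.prodMk measurable_snd)

theorem measurable_parY [Countable V] :
    Measurable fun p : SimpleGraph V × (ℕ × Sym2 V → ℝ) => parY p.1 p.2 := by
  rw [measurable_pi_iff]
  rintro ⟨k, f⟩
  unfold parY
  apply Measurable.limsup
  intro j
  have := measurable_parObs (Ω := SimpleGraph V × (ℕ × Sym2 V → ℝ)) (E := Sym2 V)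
    (M := fun p => Mp p.1) (U := fun p => p.2)
    (fun e => (measurable_Mp e).comp
      ((measurable_fst.comp measurable_fst).prodMk measurable_snd)) measurable_snd (2 ^ j) k
  exact (measurable_pi_apply f).comp this

theorem measurable_parY' [Countable V] (G : SimpleGraph V) :
    Measurable fun U : ℕ × Sym2 V → ℝ => parY G U := by
  have h : Measurable fun U : ℕ × Sym2 V → ℝ =>
      ((G, U) : SimpleGraph V × (ℕ × Sym2 V → ℝ)) := measurable_const.prodMk measurable_id
  have h2 := measurable_parY.comp h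
  exact h2

omit [DecidableEq V] in
theorem ae_all_mem [Countable V] :
    ∀ᵐ U ∂(Measure.infinitePi (fun _ : ℕ × Sym2 V => unifR)), ∀ p, U p ∈ Icc (0 : ℝ) 1 := by
  have : Countable (Sym2 V) := by unfold Sym2; infer_instance
  rw [ae_all_iff]
  intro p
  filter_upwards [ae_mem_Icc {p}] with U hU
  exact hU p (Finset.mem_singleton_self p)

/-- Finite graphs exhausting `G`. -/
structure Exh (G : SimpleGraph V) (En : ℕ → Finset (Sym2 V)) (Wn : ℕ → Finset V) : Prop where
  le : ∀ n, SimpleGraph.fromEdgeSet (En n : Set (Sym2 V)) ≤ G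
  ex : ∀ e ∈ G.edgeSet, ∀ᶠ n in atTop, e ∈ En n
  diag : ∀ n, ∀ e ∈ En n, ¬ e.IsDiag
  vert : ∀ n, ∀ e ∈ En n, ∀ v ∈ e, v ∈ Wn n
  conn : ∀ n, ∀ x ∈ Wn n, ∀ y ∈ Wn n,
    (SimpleGraph.fromEdgeSet (En n : Set (Sym2 V))).Reachable x y

variable {G : SimpleGraph V} {En : ℕ → Finset (Sym2 V)} {Wn : ℕ → Finset V}

omit [DecidableEq V] in
theorem mem_edgeSet_fromEdgeSet {E : Finset (Sym2 V)} (hE : ∀ e ∈ E, ¬ e.IsDiag) {e : Sym2 V} :
    e ∈ (SimpleGraph.fromEdgeSet (E : Set (Sym2 V))).edgeSet ↔ e ∈ E := by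
  rw [SimpleGraph.edgeSet_fromEdgeSet]
  simp only [Set.mem_sdiff, Finset.mem_coe]
  constructor
  · exact fun h => h.1
  · exact fun h => ⟨h, fun h2 => hE e h (by simpa using h2)⟩

omit [DecidableEq V] in
theorem Exh.mconv (h : Exh G En Wn) :
    MConv (fun n => Mp (SimpleGraph.fromEdgeSet (En n : Set (Sym2 V)))) (Mp G) := by
  intro cn c R hR hcn hc hconv e
  apply tendsto_Mp h.le _ cn c R hR hcn hc hconv e
  intro e he
  filter_upwards [h.ex e he] with n hn
  exact (mem_edgeSet_fromEdgeSet (h.diag n)).2 hn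

/-- The sequential scheme on a finite graph is close to the parallel scheme. -/
theorem Exh.seq_close (h : Exh G En Wn) (k : ℕ) : ∃ C : ℝ, 0 ≤ C ∧
    ∀ (n : ℕ) (U : ℕ × Sym2 V → ℝ), (∀ p, U p ∈ Icc (0 : ℝ) 1) → ∀ (j : ℕ), ∀ f ∈ En n,
      |parObs (Mp (SimpleGraph.fromEdgeSet (En n : Set (Sym2 V)))) (2 ^ j) U k f -
        seqObs (Mtree (spTrees (En n) (Wn n))) (En n).toList (2 ^ j) U k f| ≤ C / 2 ^ j := by
  obtain ⟨C, hC, hpar⟩ := par_sub_seq (E := Sym2 V) k
  refine ⟨C, hC, ?_⟩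
  intro n U hU j f hf
  set D := SimpleGraph.fromEdgeSet (En n : Set (Sym2 V)) with hD
  have h1 : seqObs (Mp D) (En n).toList (2 ^ j) U k =
      seqObs (Mtree (spTrees (En n) (Wn n))) (En n).toList (2 ^ j) U k := by
    apply seqObs_congr _ (admissible_Mp D) (Finset.nodup_toList _) _ hU
    intro c hc e he
    rw [Mp_eq hc]
    exact Mfun_eq_Mtree (En n) (Wn n) (h.diag n) (h.vert n) (h.conn n) c hc e
      (Finset.mem_toList.1 he)
  rw [← h1]
  have := hpar (Mp D) (En n).toList (2 ^ j) U (admissible_Mp D) (Finset.nodup_toList _)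
    (by
      intro c c' hcc e _
      apply Mp_congr
      intro g hg
      exact hcc g (Finset.mem_toList.2 ((mem_edgeSet_fromEdgeSet (h.diag n)).1 hg)))
    Nat.one_le_two_pow hU f (Finset.mem_toList.2 hf)
  push_cast at this
  exact this

theorem Exh.prob_close [Countable V] (h : Exh G En Wn) (K : ℕ) {F : Finset (Sym2 V)}
    (hF : ∀ f ∈ F, f ∈ G.edgeSet) {ε : ℝ} (hε : 0 < ε) :
    ∃ j : ℕ, Tendsto (fun n => (Measure.infinitePi (fun _ : ℕ × Sym2 V => unifR))
      {U | ∃ k < K, ∃ f ∈ F, ε < |seqObs (Mtree (spTrees (En n) (Wn n))) (En n).toList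
        (2 ^ j) U k f - parY G U (k, f)|}) atTop (𝓝 0) := by
  set P := Measure.infinitePi (fun _ : ℕ × Sym2 V => unifR) with hP
  choose C₁ hC₁ h₁ using fun k => parY_close (V := V) k
  choose C₂ hC₂ h₂ using fun k => h.seq_close k
  obtain ⟨j, hj⟩ : ∃ j : ℕ, ∀ k < K, (C₁ k + C₂ k) / 2 ^ j < ε / 2 := by
    have h3 : ∀ k ∈ Finset.range K, ∀ᶠ j : ℕ in atTop, (C₁ k + C₂ k) / 2 ^ j < ε / 2 := by
      intro k _
      have h4 : Tendsto (fun j : ℕ => (C₁ k + C₂ k) / 2 ^ j) atTop (𝓝 0) := by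
        apply Tendsto.const_div_atTop
        exact tendsto_pow_atTop_atTop_of_one_lt (by norm_num)
      exact h4.eventually (gt_mem_nhds (by positivity))
    obtain ⟨j, hj⟩ := ((Filter.eventually_all_finset _).2 h3).exists
    exact ⟨j, fun k hk => hj k (Finset.mem_range.2 hk)⟩
  refine ⟨j, ?_⟩
  set D : ℕ → SimpleGraph V := fun n => SimpleGraph.fromEdgeSet (En n : Set (Sym2 V)) with hD
  have hmeas : ∀ k f, TendstoInMeasure P
      (fun n (U : ℕ × Sym2 V → ℝ) => parObs (Mp (D n)) (2 ^ j) U k f) atTop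
      (fun U => parObs (Mp G) (2 ^ j) U k f) := by
    intro k f
    apply tendstoInMeasure_of_tendsto_ae
    · intro n
      exact ((measurable_pi_apply f).comp
        (measurable_parObs_Mp (D n) (2 ^ j) k)).aestronglyMeasurable
    · filter_upwards [ae_all_mem] with U hU
      exact parObs_tendsto (fun n => admissible_Mp (D n)) (admissible_Mp G) h.mconv (2 ^ j) hU k f
  have hsum : Tendsto (fun n => ∑ q ∈ Finset.range K ×ˢ F, P {U | ε / 2 ≤
      dist (parObs (Mp (D n)) (2 ^ j) U q.1 q.2) (parObs (Mp G) (2 ^ j) U q.1 q.2)}) atTop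
      (𝓝 0) := by
    have : Tendsto (fun n => ∑ q ∈ Finset.range K ×ˢ F, P {U | ε / 2 ≤
      dist (parObs (Mp (D n)) (2 ^ j) U q.1 q.2) (parObs (Mp G) (2 ^ j) U q.1 q.2)}) atTop
      (𝓝 (∑ q ∈ Finset.range K ×ˢ F, 0)) := by
      apply tendsto_finsetSum
      intro q _
      exact (tendstoInMeasure_iff_dist.1 (hmeas q.1 q.2)) (ε / 2) (by positivity)
    simpa using this
  apply tendsto_of_tendsto_of_tendsto_of_le_of_le' tendsto_const_nhds hsum
  · exact Eventually.of_forall fun n => zero_le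
  · have hFn : ∀ᶠ n in atTop, ∀ f ∈ F, f ∈ En n := by
      rw [Filter.eventually_all_finset]
      intro f hf
      exact h.ex f (hF f hf)
    filter_upwards [hFn] with n hn
    refine (measure_mono_ae (t := ⋃ q ∈ Finset.range K ×ˢ F, {U | ε / 2 ≤
      dist (parObs (Mp (D n)) (2 ^ j) U q.1 q.2) (parObs (Mp G) (2 ^ j) U q.1 q.2)}) ?_).trans
      (measure_biUnion_finset_le _ _)
    filter_upwards [ae_all_mem] with U hU hUS
    obtain ⟨k, hk, f, hf, hlt⟩ := hUS
    have : U ∈ ⋃ q ∈ Finset.range K ×ˢ F, {U | ε / 2 ≤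
      dist (parObs (Mp (D n)) (2 ^ j) U q.1 q.2) (parObs (Mp G) (2 ^ j) U q.1 q.2)} := by
      simp only [mem_iUnion, mem_ofPred_eq]
      refine ⟨(k, f), Finset.mem_product.2 ⟨Finset.mem_range.2 hk, hf⟩, ?_⟩
      simp only
      rw [Real.dist_eq]
      have e1 := h₁ k G U hU j f
      have e2 := h₂ k n U hU j f (hn f hf)
      have e3 := hj k hk
      rw [add_div] at e3
      rw [abs_sub_comm] at e2
      have e4 : |seqObs (Mtree (spTrees (En n) (Wn n))) (En n).toList (2 ^ j) U k f -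
          parY G U (k, f)| ≤ |seqObs (Mtree (spTrees (En n) (Wn n))) (En n).toList (2 ^ j) U k f -
            parObs (Mp (D n)) (2 ^ j) U k f| + |parObs (Mp (D n)) (2 ^ j) U k f -
            parObs (Mp G) (2 ^ j) U k f| + |parObs (Mp G) (2 ^ j) U k f - parY G U (k, f)| := by
        have e5 : seqObs (Mtree (spTrees (En n) (Wn n))) (En n).toList (2 ^ j) U k f -
            parY G U (k, f) = (seqObs (Mtree (spTrees (En n) (Wn n))) (En n).toList (2 ^ j) U k f -
            parObs (Mp (D n)) (2 ^ j) U k f) + (parObs (Mp (D n)) (2 ^ j) U k f -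
            parObs (Mp G) (2 ^ j) U k f) + (parObs (Mp G) (2 ^ j) U k f - parY G U (k, f)) := by
          ring
        rw [e5]
        exact abs_add_three _ _ _
      linarith
    exact this

end Vale.Agent.FUSF
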