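import Vale.Agent.FUSF.Law
import Vale.Agent.FUSF.Exhaust

/-!
# P143 (e), the free uniform spanning forest as a function of iid labels of the edges
-/

open Set Filter Topology MeasureTheory

namespace Vale.Agent.FUSF

variable {V : Type*} [DecidableEq V]

theorem measurable_Psi [Countable V] :
    Measurable fun p : SimpleGraph V × (ℕ × Sym2 V → ℝ) => Psi p.1 p.2 := by
  rw [measurable_set_iff]
  intro e
  have hadj : Measurable fun p : SimpleGraph V × (ℕ × Sym2 V → ℝ) => e ∈ p.1.edgeSet := by
    have h1 : Measurable fun G : SimpleGraph V => e ∈ G.edgeSet := by fun_prop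
    exact h1.comp measurable_fst
  have havg : ∀ K, Measurable fun p : SimpleGraph V × (ℕ × Sym2 V → ℝ) =>
      avg e K (parY p.1 p.2) := fun K => (measurable_avg e K).comp measurable_parY
  have h2 : Measurable fun p : SimpleGraph V × (ℕ × Sym2 V → ℝ) =>
      ∃ m : ℕ, ∀ i : ℕ, 0 < avg e (4 ^ (m + i)) (parY p.1 p.2) := by
    refine Measurable.exists fun m => Measurable.forall fun i => ?_
    exact (measurableSet_lt measurable_const (havg _)).mem
  exact hadj.and h2

theorem measurable_Psi' [Countable V] (G : SimpleGraph V) :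
    Measurable fun U : ℕ × Sym2 V → ℝ => Psi G U := by
  have h : Measurable fun U : ℕ × Sym2 V → ℝ =>
      ((G, U) : SimpleGraph V × (ℕ × Sym2 V → ℝ)) := measurable_const.prodMk measurable_id
  have h2 := measurable_Psi.comp h
  exact h2

theorem measurableSet_cyl {α : Type*} (F : Finset α) (B : Set α) :
    MeasurableSet {S : Set α | ∀ e ∈ F, (e ∈ S ↔ e ∈ B)} := by
  have h : {S : Set α | ∀ e ∈ F, (e ∈ S ↔ e ∈ B)} = ⋂ e ∈ F, {S : Set α | e ∈ S ↔ e ∈ B} := by
    ext S; simp
  rw [h]
  refine Finset.measurableSet_biInter _ fun e _ => ?_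
  have h1 : Measurable fun S : Set α => e ∈ S := by fun_prop
  have h2 : Measurable fun S : Set α => (e ∈ S ↔ e ∈ B) := h1.iff measurable_const
  exact h2.setOf

theorem measurableSet_Pat [Countable V] (G : SimpleGraph V) (F : Finset (Sym2 V))
    (B : Set (Sym2 V)) : MeasurableSet (Pat G F B) :=
  measurable_Psi' G (measurableSet_cyl F B)

variable {G : SimpleGraph V} {En : ℕ → Finset (Sym2 V)} {Wn : ℕ → Finset V}

theorem sum_ustP {E : Finset (Sym2 V)} {W : Finset V} (hne : (spTrees E W).Nonempty)
    (F : Finset (Sym2 V)) : ∑ B ∈ F.powerset, ustP E W F (B : Set (Sym2 V)) = 1 := by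
  classical
  have hc : ((spTrees E W).card : ℝ) ≠ 0 := by exact_mod_cast (Finset.card_pos.2 hne).ne'
  simp only [ustP_eq]
  rw [← Finset.sum_div, div_eq_one_iff_eq hc]
  have h := Finset.card_eq_sum_card_fiberwise (s := spTrees E W) (t := F.powerset)
    (f := fun T => F.filter (· ∈ T)) (by
      intro T _
      simp only [Finset.coe_powerset, mem_preimage, mem_powerset_iff]
      intro e he
      exact (Finset.mem_filter.1 he).1)
  rw [h]
  push_cast
  apply Finset.sum_congr rfl
  intro B hB
  congr 2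
  ext T
  simp only [Finset.mem_filter, and_congr_right_iff]
  intro _
  rw [Finset.mem_powerset] at hB
  constructor
  · intro hT
    ext e
    rw [Finset.mem_filter]
    constructor
    · rintro ⟨he, heT⟩
      exact (hT e he).1 heT
    · intro he
      exact ⟨hB he, (hT e (hB he)).2 he⟩
  · rintro rfl e he
    simp [he]

omit [DecidableEq V] in
theorem ustP_mono {E : Finset (Sym2 V)} {W : Finset V} {F F' : Finset (Sym2 V)}
    {B : Set (Sym2 V)} (h : F' ⊆ F) : ustP E W F B ≤ ustP E W F' B := by
  unfold ustP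
  apply div_le_div_of_nonneg_right _ (by positivity)
  apply Nat.cast_le.2
  apply Set.ncard_le_ncard
  · intro T hT
    exact ⟨hT.1, fun e he => hT.2 e (h he)⟩
  · exact (spTrees E W).finite_toSet.subset fun T hT => hT.1

omit [DecidableEq V] in
theorem ustP_eq_zero {E : Finset (Sym2 V)} {W : Finset V} {F : Finset (Sym2 V)}
    {B : Set (Sym2 V)} (h : ∀ T ∈ spTrees E W, ¬ ∀ e ∈ F, (e ∈ T ↔ e ∈ B)) :
    ustP E W F B = 0 := by
  unfold ustP
  have : {T | T ∈ spTrees E W ∧ ∀ e ∈ F, (e ∈ T ↔ e ∈ B)} = ∅ := by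
    ext T
    simp only [mem_ofPred_eq, mem_empty_iff_false, iff_false, not_and]
    exact h T
  rw [this]
  simp

theorem Exh.eventually_lt [Countable V] (h : Exh G En Wn) (F : Finset (Sym2 V))
    (B : Set (Sym2 V)) {r : ℝ}
    (hr : (Measure.infinitePi (fun _ : ℕ × Sym2 V => unifR)).real (Pat G F B) < r) :
    ∀ᶠ n in atTop, ustP (En n) (Wn n) F B < r := by
  classical
  set P := Measure.infinitePi (fun _ : ℕ × Sym2 V => unifR) with hP
  have hr0 : 0 < r := lt_of_le_of_lt measureReal_nonneg hr
  by_cases hB : ∃ e ∈ F, e ∈ B ∧ e ∉ G.edgeSet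
  · obtain ⟨e, heF, heB, heG⟩ := hB
    apply Eventually.of_forall
    intro n
    rw [ustP_eq_zero]
    · exact hr0
    · intro T hT hall
      rw [spTrees, Finset.mem_filter, Finset.mem_powerset] at hT
      have h1 : e ∈ En n := hT.1 ((hall e heF).2 heB)
      exact heG (SimpleGraph.edgeSet_mono (h.le n)
        ((mem_edgeSet_fromEdgeSet (h.diag n)).2 h1))
  · push Not at hB
    by_contra hcon
    rw [Filter.not_eventually] at hcon
    set F' := F.filter (· ∈ G.edgeSet) with hF'
    have h1 : ∃ᶠ n in atTop, r ≤ ustP (En n) (Wn n) F' B := by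
      refine hcon.mono fun n hn => ?_
      push Not at hn
      exact hn.trans (ustP_mono (Finset.filter_subset _ _))
    have h2 := h.ofReal_le_Pat (F := F') (fun f hf => (Finset.mem_filter.1 hf).2) B hr0.le h1
    have h3 : Pat G F' B ⊆ Pat G F B := by
      intro U hU e he
      by_cases heG : e ∈ G.edgeSet
      · exact hU e (Finset.mem_filter.2 ⟨he, heG⟩)
      · constructor
        · intro h4; exact absurd h4.1 heG
        · intro h4; exact absurd (hB e he h4) heG
    have h4 : ENNReal.ofReal r ≤ P (Pat G F B) := h2.trans (measure_mono h3)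
    have h5 : r ≤ P.real (Pat G F B) := by
      rw [Measure.real]
      exact (ENNReal.ofReal_le_iff_le_toReal (measure_ne_top _ _)).1 h4
    linarith

theorem Pat_congr {F : Finset (Sym2 V)} {B B' : Set (Sym2 V)} (h : ∀ e ∈ F, (e ∈ B ↔ e ∈ B')) :
    Pat G F B = Pat G F B' := by
  ext U
  exact ⟨fun hU e he => (hU e he).trans (h e he), fun hU e he => (hU e he).trans (h e he).symm⟩

omit [DecidableEq V] in
theorem ustP_congr {E : Finset (Sym2 V)} {W : Finset V} {F : Finset (Sym2 V)}
    {B B' : Set (Sym2 V)} (h : ∀ e ∈ F, (e ∈ B ↔ e ∈ B')) : ustP E W F B = ustP E W F B' := by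
  unfold ustP
  congr 3
  ext T
  exact ⟨fun hU => ⟨hU.1, fun e he => (hU.2 e he).trans (h e he)⟩,
    fun hU => ⟨hU.1, fun e he => (hU.2 e he).trans (h e he).symm⟩⟩

theorem Exh.tendsto [Countable V] (h : Exh G En Wn) (F : Finset (Sym2 V)) (B : Set (Sym2 V)) :
    Tendsto (fun n => ustP (En n) (Wn n) F B) atTop
      (𝓝 ((Measure.infinitePi (fun _ : ℕ × Sym2 V => unifR)).real (Pat G F B))) := by
  classical
  set P := Measure.infinitePi (fun _ : ℕ × Sym2 V => unifR) with hP
  set B' : Finset (Sym2 V) := F.filter (· ∈ B) with hB'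
  have hBB' : ∀ e ∈ F, (e ∈ B ↔ e ∈ (B' : Set (Sym2 V))) := by
    intro e he; simp [hB', he]
  rw [Pat_congr hBB']
  simp only [ustP_congr hBB']
  refine tendsto_of_cells F.powerset (fun n (B : Finset (Sym2 V)) => ustP (En n) (Wn n) F B)
    (fun B => P.real (Pat G F (B : Set (Sym2 V)))) ?_ ?_ ?_ B'
    (Finset.mem_powerset.2 (Finset.filter_subset _ _))
  · exact Eventually.of_forall fun n => sum_ustP
      (spTrees_nonempty (En n) (Wn n) (h.diag n) (h.vert n) (h.conn n)) F
  · rw [← measureReal_biUnion_finset]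
    · exact measureReal_le_one
    · intro B₁ hB₁ B₂ hB₂ hne
      rw [Function.onFun, Set.disjoint_left]
      intro U hU₁ hU₂
      apply hne
      rw [Finset.mem_coe, Finset.mem_powerset] at hB₁ hB₂
      ext e
      constructor
      · intro he
        exact (hU₂ e (hB₁ he)).1 ((hU₁ e (hB₁ he)).2 he)
      · intro he
        exact (hU₁ e (hB₂ he)).1 ((hU₂ e (hB₂ he)).2 he)
    · intro B _
      exact measurableSet_Pat G F B
  · intro B _ r hr
    exact h.eventually_lt F B hr

/-- The finite graphs of an exhaustion. -/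
theorem exists_Exh {G : SimpleGraph V} {H : ℕ → G.Subgraph} (hH : IsExhaustion G H) :
    ∃ (En : ℕ → Finset (Sym2 V)) (Wn : ℕ → Finset V), Exh G En Wn ∧
      ∀ n F B, ustProb (H n) F B = ustP (En n) (Wn n) F B := by
  classical
  have hfin : ∀ n, (H n).edgeSet.Finite := by
    intro n
    apply ((hH.finite n).prod (hH.finite n)).image (fun p : V × V => s(p.1, p.2)) |>.subset
    intro e he
    induction e with
    | _ a b =>
      have : (H n).Adj a b := he
      exact ⟨(a, b), ⟨this.fst_mem, this.snd_mem⟩, rfl⟩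
  refine ⟨fun n => (hfin n).toFinset, fun n => (hH.finite n).toFinset, ⟨?_, ?_, ?_, ?_, ?_⟩, ?_⟩
  · intro n x y hxy
    rw [SimpleGraph.fromEdgeSet_adj, Set.Finite.coe_toFinset] at hxy
    exact (H n).adj_sub hxy.1
  · intro e he
    obtain ⟨N, hN⟩ := hH.edges e he
    filter_upwards [eventually_ge_atTop N] with n hn
    rw [Set.Finite.mem_toFinset]
    exact SimpleGraph.Subgraph.edgeSet_mono (hH.mono hn) hN
  · intro n e he
    rw [Set.Finite.mem_toFinset] at he
    exact G.not_isDiag_of_mem_edgeSet ((H n).edgeSet_subset he)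
  · intro n e he v hv
    rw [Set.Finite.mem_toFinset] at he ⊢
    exact (H n).mem_verts_of_mem_edge he hv
  · intro n x hx y hy
    rw [Set.Finite.mem_toFinset] at hx hy
    let φ : (H n).coe →g SimpleGraph.fromEdgeSet (((hfin n).toFinset : Finset (Sym2 V)) :
        Set (Sym2 V)) :=
      ⟨Subtype.val, by
        intro a b hab
        rw [SimpleGraph.fromEdgeSet_adj, Set.Finite.coe_toFinset]
        have hab' : (H n).Adj a.1 b.1 := hab
        exact ⟨hab', hab'.ne⟩⟩
    have hr : (H n).coe.Reachable ⟨x, hx⟩ ⟨y, hy⟩ := (hH.connected n).coe.preconnected _ _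
    exact hr.map φ
  · intro n F B
    rw [ustProb_eq (H n) (hH.connected n) (hfin n).toFinset (hH.finite n).toFinset
      (by simp) (by simp) F B, ustP_eq]

/-- The law of the decoded set is the free uniform spanning forest. -/
theorem isFUSF_map_Psi [Countable V] {G : SimpleGraph V} (hG : G.Connected) :
    IsFUSF G ((Measure.infinitePi (fun _ : ℕ × Sym2 V => unifR)).map (Psi G)) where
  prob := Measure.isProbabilityMeasure_map (measurable_Psi' G).aemeasurable
  exhausts := exists_exhaustion hG
  tendsto H hH F B := by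
    obtain ⟨En, Wn, hE, heq⟩ := exists_Exh hH
    have h := hE.tendsto F B
    simp only [heq]
    have e : ((Measure.infinitePi (fun _ : ℕ × Sym2 V => unifR)).map (Psi G)).real
        {S | ∀ e ∈ F, (e ∈ S ↔ e ∈ B)} =
        (Measure.infinitePi (fun _ : ℕ × Sym2 V => unifR)).real (Pat G F B) := by
      rw [Measure.real, Measure.real, Measure.map_apply (measurable_Psi' G)
        (measurableSet_cyl F B)]
      rfl
    rw [e]
    exact h

end Vale.Agent.FUSF
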