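import Vale.Agent.FUSF.Mprops

/-!
# P143, continuity of the edge probabilities along exhaustions
-/

open Set Filter Topology

namespace Vale.Agent.FUSF

variable {V : Type*}

open Classical in
/-- Unit source at `a`, unit sink at `b`. -/
noncomputable def src (a b x : V) : ℚ := (if x = a then 1 else 0) - (if x = b then 1 else 0)

theorem isFlow_of_net {D : SimpleGraph V} {a b : V} {θ : V × V →₀ ℚ}
    (h1 : ∀ x y, θ (y, x) = - θ (x, y)) (h2 : ∀ x y, θ (x, y) ≠ 0 → D.Adj x y)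
    (h3 : ∀ x, net θ x = src a b x) : IsFlow D s(a, b) θ :=
  ⟨h1, h2, a, b, rfl, fun x => by
    have := h3 x
    unfold net src at this
    convert this using 2⟩

theorem IsFlow.orient {D : SimpleGraph V} {e : Sym2 V} {θ : V × V →₀ ℚ} (h : IsFlow D e θ)
    {a b : V} (hab : s(a, b) = e) :
    ∃ θ' : V × V →₀ ℚ, IsFlow D e θ' ∧ (∀ c : Sym2 V → ℝ, energy c θ' = energy c θ) ∧
      ∀ x, net θ' x = src a b x := by
  classical
  obtain ⟨a', b', hab', hdiv⟩ := h.div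
  rcases Sym2.eq_iff.1 (hab'.trans hab.symm) with ⟨h1, h2⟩ | ⟨h1, h2⟩
  · refine ⟨θ, h, fun c => rfl, fun x => ?_⟩
    subst h1 h2
    have := hdiv x
    unfold net src
    convert this using 2
  · subst h1 h2
    have h5 : ∀ x, net θ x = src a' b' x := by
      intro x
      unfold net src; convert hdiv x using 2
    have h6 : ∀ x, net ((-1 : ℚ) • θ) x = src b' a' x := by
      intro x
      rw [net_smul, h5]
      unfold src
      ring
    refine ⟨(-1 : ℚ) • θ, ?_, ?_, h6⟩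
    · rw [← hab]
      refine isFlow_of_net ?_ ?_ h6
      · intro x y; simp [h.antisymm x y]
      · intro x y hxy
        apply h.supp x y
        intro h0
        apply hxy
        simp [h0]
    · intro c
      rw [energy_eq_sum (S := θ.support) (Finsupp.support_smul),
        energy_eq_sum (Finset.Subset.refl _)]
      apply Finset.sum_congr rfl
      intro p _
      simp

/-- Infimum of the energy. -/
noncomputable def infE (D : SimpleGraph V) (c : Sym2 V → ℝ) (e : Sym2 V) : ℝ :=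
  ⨅ θ : {θ : V × V →₀ ℚ // IsFlow D e θ}, energy c θ.1

theorem infE_le {D : SimpleGraph V} {c : Sym2 V → ℝ} (hc : ∀ e, 0 < c e) {e : Sym2 V}
    {θ : V × V →₀ ℚ} (h : IsFlow D e θ) : infE D c e ≤ energy c θ :=
  ciInf_le (bddBelow_energy hc D e) ⟨θ, h⟩

theorem quad {A B C : ℝ} (h : ∀ t : ℚ, 0 ≤ A * ((t : ℝ) * t) + B * t + C) :
    B ^ 2 ≤ 4 * A * C := by
  have h2 : ∀ t : ℝ, 0 ≤ A * (t * t) + B * t + C := by
    intro t
    have hcl : IsClosed {t : ℝ | 0 ≤ A * (t * t) + B * t + C} :=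
      isClosed_le continuous_const (by fun_prop)
    have hd : Dense {t : ℝ | 0 ≤ A * (t * t) + B * t + C} :=
      Rat.denseRange_cast.mono (by rintro _ ⟨q, rfl⟩; exact h q)
    have := hcl.closure_eq ▸ hd.closure_eq
    have h3 : t ∈ {t : ℝ | 0 ≤ A * (t * t) + B * t + C} := by rw [this]; trivial
    exact h3
  have := discrim_le_zero h2
  unfold discrim at this
  linarith

/-- A near minimiser is nearly orthogonal to cycles. -/
theorem near_orth {D : SimpleGraph V} {c : Sym2 V → ℝ} (hc : ∀ e, 0 < c e) {a b : V}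
    {θ₀ θ : V × V →₀ ℚ} (h₀ : IsFlow D s(a, b) θ₀) (h : IsFlow D s(a, b) θ)
    (hn₀ : ∀ x, net θ₀ x = src a b x) (hn : ∀ x, net θ x = src a b x) {δ : ℝ}
    (hδ : energy c θ₀ ≤ infE D c s(a, b) + δ) (S : Finset (V × V)) (hS₀ : θ₀.support ⊆ S)
    (hS : θ.support ⊆ S) :
    (∑ p ∈ S, (θ₀ p : ℝ) * ((θ p : ℝ) - θ₀ p) / (2 * c s(p.1, p.2))) ^ 2 ≤
      δ * ∑ p ∈ S, ((θ p : ℝ) - θ₀ p) ^ 2 / (2 * c s(p.1, p.2)) := by
  set B := ∑ p ∈ S, (θ₀ p : ℝ) * ((θ p : ℝ) - θ₀ p) / (2 * c s(p.1, p.2)) with hB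
  set A := ∑ p ∈ S, ((θ p : ℝ) - θ₀ p) ^ 2 / (2 * c s(p.1, p.2)) with hA
  have key : ∀ t : ℚ, 0 ≤ A * ((t : ℝ) * t) + (2 * B) * t + δ := by
    intro t
    set η : V × V →₀ ℚ := θ₀ + t • (θ + (-1 : ℚ) • θ₀) with hη
    have hηv : ∀ p, η p = θ₀ p + t * (θ p - θ₀ p) := by
      intro p; simp [hη]; ring
    have hflow : IsFlow D s(a, b) η := by
      apply isFlow_of_net
      · intro x y
        rw [hηv, hηv, h₀.antisymm x y, h.antisymm x y]; ring
      · intro x y hxy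
        by_contra hadj
        have e1 : θ₀ (x, y) = 0 := by
          by_contra h0; exact hadj (h₀.supp x y h0)
        have e2 : θ (x, y) = 0 := by
          by_contra h0; exact hadj (h.supp x y h0)
        rw [hηv, e1, e2] at hxy
        simp at hxy
      · intro x
        rw [hη, net_add, net_smul, net_add, net_smul, hn₀, hn]; ring
    have hSη : η.support ⊆ S := by
      intro p hp
      by_contra hpS
      rw [Finsupp.mem_support_iff, hηv] at hp
      have e1 : θ₀ p = 0 := by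
        by_contra h0; exact hpS (hS₀ (Finsupp.mem_support_iff.2 h0))
      have e2 : θ p = 0 := by
        by_contra h0; exact hpS (hS (Finsupp.mem_support_iff.2 h0))
      rw [e1, e2] at hp
      simp at hp
    have e3 : energy c η = energy c θ₀ + (A * ((t : ℝ) * t) + (2 * B) * t) := by
      rw [energy_eq_sum hSη, energy_eq_sum hS₀, hA, hB, Finset.sum_mul, Finset.mul_sum,
        Finset.sum_mul, ← Finset.sum_add_distrib, ← Finset.sum_add_distrib]
      apply Finset.sum_congr rfl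
      intro p _
      rw [hηv]
      have := (hc s(p.1, p.2)).ne'
      push_cast
      field_simp
      ring
    have e4 := infE_le hc hflow
    linarith
  have := quad key
  nlinarith

/-- Energy against a fixed flow, for perturbed conductances. -/
theorem energy_lower {D : SimpleGraph V} {c c' : Sym2 V → ℝ} {R : ℝ} (hR : 1 ≤ R)
    (hc : ∀ e, c e ∈ Icc R⁻¹ R) (hc' : ∀ e, c' e ∈ Icc R⁻¹ R) {a b : V}
    {θ₀ θ : V × V →₀ ℚ} (h₀ : IsFlow D s(a, b) θ₀) (h : IsFlow D s(a, b) θ)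
    (hn₀ : ∀ x, net θ₀ x = src a b x) (hn : ∀ x, net θ x = src a b x) {η : ℝ} (hη : 0 ≤ η)
    (hδ : energy c θ₀ ≤ infE D c s(a, b) + η ^ 2) (hθ : energy c' θ ≤ R + 1) :
    energy c' θ₀ - 2 * (η * (2 * (R ^ 2 * (R + 1) + energy c θ₀) + 1) +
      (2 * R * (R + 1) + 1 + ∑ p ∈ θ₀.support, |(θ₀ p : ℝ)|) *
        ∑ p ∈ θ₀.support, |(θ₀ p : ℝ)| * |(2 * c' s(p.1, p.2))⁻¹ - (2 * c s(p.1, p.2))⁻¹|)
      ≤ energy c' θ := by
  classical
  have hR0 : 0 < R := by linarith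
  have hRi : 0 < R⁻¹ := inv_pos.2 hR0
  have hcp : ∀ e, 0 < c e := fun e => hRi.trans_le (hc e).1
  have hcp' : ∀ e, 0 < c' e := fun e => hRi.trans_le (hc' e).1
  set S := θ₀.support ∪ θ.support with hS
  have hS₀ : θ₀.support ⊆ S := Finset.subset_union_left
  have hS₁ : θ.support ⊆ S := Finset.subset_union_right
  have horth := near_orth hcp h₀ h hn₀ hn hδ S hS₀ hS₁
  set B := ∑ p ∈ S, (θ₀ p : ℝ) * ((θ p : ℝ) - θ₀ p) / (2 * c s(p.1, p.2)) with hB
  set A := ∑ p ∈ S, ((θ p : ℝ) - θ₀ p) ^ 2 / (2 * c s(p.1, p.2)) with hA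
  set Q := energy c θ₀ with hQ
  have hQ0 : 0 ≤ Q := energy_nonneg hcp θ₀
  -- bound on `A`
  have hcc : ∀ e, c' e ≤ R ^ 2 * c e := by
    intro e
    have h1 := (hc e).1
    have h2 := (hc' e).2
    have h3 : R ≤ R ^ 2 * R⁻¹ := by rw [sq, mul_assoc, mul_inv_cancel₀ hR0.ne', mul_one]
    nlinarith [sq_nonneg R]
  have hEc : energy c θ ≤ R ^ 2 * (R + 1) :=
    (energy_le hcp' hcp hcc θ).trans (mul_le_mul_of_nonneg_left hθ (by positivity))
  have hA2 : A ≤ 2 * (R ^ 2 * (R + 1) + Q) := by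
    have : A ≤ 2 * (energy c θ + energy c θ₀) := by
      rw [energy_eq_sum hS₁, energy_eq_sum hS₀, hA, ← Finset.sum_add_distrib, Finset.mul_sum]
      apply Finset.sum_le_sum
      intro p _
      have h1 := hcp s(p.1, p.2)
      rw [← add_div, ← mul_div_assoc]
      apply div_le_div_of_nonneg_right _ (by positivity)
      nlinarith [sq_nonneg ((θ p : ℝ) + θ₀ p)]
    linarith
  have hA0 : 0 ≤ A := by
    apply Finset.sum_nonneg
    intro p _
    have h1 := hcp s(p.1, p.2)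
    positivity
  have hBabs : |B| ≤ η * (2 * (R ^ 2 * (R + 1) + Q) + 1) := by
    have h1 : 0 ≤ 2 * (R ^ 2 * (R + 1) + Q) := by positivity
    apply abs_le_of_sq_le_sq _ (by positivity)
    calc B ^ 2 ≤ η ^ 2 * A := horth
      _ ≤ η ^ 2 * (2 * (R ^ 2 * (R + 1) + Q)) := mul_le_mul_of_nonneg_left hA2 (sq_nonneg _)
      _ ≤ η ^ 2 * (2 * (R ^ 2 * (R + 1) + Q) + 1) ^ 2 := by
        apply mul_le_mul_of_nonneg_left _ (sq_nonneg _)
        nlinarith
      _ = _ := by ring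
  -- bound on the difference
  have hval : ∀ p ∈ θ₀.support, |(θ p : ℝ) - θ₀ p| ≤
      2 * R * (R + 1) + 1 + ∑ p ∈ θ₀.support, |(θ₀ p : ℝ)| := by
    intro p hp
    have h1 : |(θ p : ℝ)| ≤ 2 * R * (R + 1) + 1 := by
      by_cases hp0 : θ p = 0
      · rw [hp0]; simp; positivity
      · have h2 : ((θ p : ℚ) : ℝ) ^ 2 / (2 * c' s(p.1, p.2)) ≤ energy c' θ := by
          rw [energy_eq_sum (Finset.Subset.refl _)]
          exact Finset.single_le_sum (f := fun p : V × V =>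
            ((θ p : ℚ) : ℝ) ^ 2 / (2 * c' s(p.1, p.2)))
            (fun q _ => by have := hcp' s(q.1, q.2); positivity)
            (Finsupp.mem_support_iff.2 hp0)
        have h3 : ((θ p : ℚ) : ℝ) ^ 2 ≤ (R + 1) * (2 * R) := by
          have h4 := h2.trans hθ
          have h5 := hcp' s(p.1, p.2)
          rw [div_le_iff₀ (by positivity)] at h4
          have h6 := (hc' s(p.1, p.2)).2
          nlinarith
        apply abs_le_of_sq_le_sq _ (by positivity)
        nlinarith [mul_pos hR0 (by linarith : 0 < R + 1)]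
    have h2 : |(θ₀ p : ℝ)| ≤ ∑ p ∈ θ₀.support, |(θ₀ p : ℝ)| :=
      Finset.single_le_sum (f := fun p : V × V => |(θ₀ p : ℝ)|) (fun q _ => abs_nonneg _) hp
    calc |(θ p : ℝ) - θ₀ p| ≤ |(θ p : ℝ)| + |(θ₀ p : ℝ)| := abs_sub _ _
      _ ≤ _ := add_le_add h1 h2
  set K := 2 * R * (R + 1) + 1 + ∑ p ∈ θ₀.support, |(θ₀ p : ℝ)| with hK
  set d := ∑ p ∈ θ₀.support, |(θ₀ p : ℝ)| * |(2 * c' s(p.1, p.2))⁻¹ - (2 * c s(p.1, p.2))⁻¹|
    with hd
  have hB' : |(∑ p ∈ S, (θ₀ p : ℝ) * ((θ p : ℝ) - θ₀ p) / (2 * c' s(p.1, p.2))) - B| ≤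
      K * d := by
    rw [hB, ← Finset.sum_sub_distrib]
    have h1 : ∀ p ∈ S, p ∉ θ₀.support → (θ₀ p : ℝ) * ((θ p : ℝ) - θ₀ p) / (2 * c' s(p.1, p.2)) -
        (θ₀ p : ℝ) * ((θ p : ℝ) - θ₀ p) / (2 * c s(p.1, p.2)) = 0 := by
      intro p _ hp
      have : θ₀ p = 0 := Finsupp.notMem_support_iff.1 hp
      rw [this]; simp
    rw [← Finset.sum_subset hS₀ h1, hd, Finset.mul_sum]
    refine (Finset.abs_sum_le_sum_abs _ _).trans (Finset.sum_le_sum fun p hp => ?_)
    have h2 : (θ₀ p : ℝ) * ((θ p : ℝ) - θ₀ p) / (2 * c' s(p.1, p.2)) -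
        (θ₀ p : ℝ) * ((θ p : ℝ) - θ₀ p) / (2 * c s(p.1, p.2)) =
        ((θ p : ℝ) - θ₀ p) * ((θ₀ p : ℝ) * ((2 * c' s(p.1, p.2))⁻¹ - (2 * c s(p.1, p.2))⁻¹)) := by
      rw [div_eq_mul_inv, div_eq_mul_inv]; ring
    rw [h2, abs_mul, abs_mul]
    exact mul_le_mul_of_nonneg_right (hval p hp) (by positivity)
  -- expansion
  have hexp : energy c' θ₀ + 2 * (∑ p ∈ S, (θ₀ p : ℝ) * ((θ p : ℝ) - θ₀ p) /
      (2 * c' s(p.1, p.2))) ≤ energy c' θ := by
    rw [energy_eq_sum hS₁, energy_eq_sum hS₀, Finset.mul_sum, ← Finset.sum_add_distrib]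
    apply Finset.sum_le_sum
    intro p _
    have h1 := hcp' s(p.1, p.2)
    rw [← mul_div_assoc, ← add_div]
    apply div_le_div_of_nonneg_right _ (by positivity)
    nlinarith [sq_nonneg ((θ p : ℝ) - θ₀ p)]
  have h1 := (abs_le.1 hB').1
  have h2 := (abs_le.1 hBabs).1
  linarith

theorem IsFlow.mono {D D' : SimpleGraph V} (hle : D ≤ D') {e : Sym2 V} {θ : V × V →₀ ℚ}
    (h : IsFlow D e θ) : IsFlow D' e θ :=
  ⟨h.antisymm, fun x y hxy => hle (h.supp x y hxy), h.div⟩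

theorem tendsto_energy {cn : ℕ → Sym2 V → ℝ} {c : Sym2 V → ℝ} (hc : ∀ e, 0 < c e)
    (hconv : ∀ f, Tendsto (fun n => cn n f) atTop (𝓝 (c f))) (θ : V × V →₀ ℚ) :
    Tendsto (fun n => energy (cn n) θ) atTop (𝓝 (energy c θ)) := by
  have h : ∀ c : Sym2 V → ℝ, energy c θ = ∑ p ∈ θ.support, ((θ p : ℚ) : ℝ) ^ 2 /
      (2 * c s(p.1, p.2)) := fun c => energy_eq_sum (Finset.Subset.refl _)
  simp only [h]
  apply tendsto_finsetSum
  intro p _
  exact tendsto_const_nhds.div ((hconv _).const_mul 2) (by have := hc s(p.1, p.2); positivity)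

theorem tendsto_infE {D : SimpleGraph V} {Dn : ℕ → SimpleGraph V} (hle : ∀ n, Dn n ≤ D)
    (hD : ∀ e ∈ D.edgeSet, ∀ᶠ n in atTop, e ∈ (Dn n).edgeSet) {cn : ℕ → Sym2 V → ℝ}
    {c : Sym2 V → ℝ} {R : ℝ} (hR : 1 ≤ R) (hcn : ∀ n e, cn n e ∈ Icc R⁻¹ R)
    (hc : ∀ e, c e ∈ Icc R⁻¹ R) (hconv : ∀ f, Tendsto (fun n => cn n f) atTop (𝓝 (c f)))
    {e : Sym2 V} (he : e ∈ D.edgeSet) :
    Tendsto (fun n => infE (Dn n) (cn n) e) atTop (𝓝 (infE D c e)) := by
  have hR0 : 0 < R := by linarith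
  have hRi : 0 < R⁻¹ := inv_pos.2 hR0
  have hcp : ∀ e, 0 < c e := fun e => hRi.trans_le (hc e).1
  have hcnp : ∀ n e, 0 < cn n e := fun n e => hRi.trans_le (hcn n e).1
  have hne : Nonempty {θ : V × V →₀ ℚ // IsFlow D e θ} := by
    obtain ⟨θ, hθ, -⟩ := exists_edgeFlow he; exact ⟨⟨θ, hθ⟩⟩
  apply tendsto_order.2
  constructor
  · intro a' ha'
    obtain ⟨a, b, hab⟩ : ∃ a b, s(a, b) = e := by
      induction e with
      | _ a b => exact ⟨a, b, rfl⟩
    have hI : infE D c e ≤ R := by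
      obtain ⟨θ, hθ, hen⟩ := exists_edgeFlow he
      refine (infE_le hcp hθ).trans ?_
      rw [hen c]
      have := (hc e).1
      rw [inv_le_comm₀ (hcp e) hR0]
      exact this
    set ε := infE D c e - a' with hε
    have hε0 : 0 < ε := by linarith
    set L := 2 * (R ^ 2 * (R + 1) + (R + 1)) + 1 with hL
    have hL0 : 0 < L := by positivity
    set η := min 1 (ε / (8 * L)) with hη
    have hη0 : 0 < η := lt_min one_pos (by positivity)
    have hη1 : η ≤ 1 := min_le_left _ _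
    have hη2 : η * L ≤ ε / 8 := by
      have : η ≤ ε / (8 * L) := min_le_right _ _
      calc η * L ≤ ε / (8 * L) * L := mul_le_mul_of_nonneg_right this hL0.le
        _ = ε / 8 := by field_simp
    obtain ⟨θ₁, hθ₁⟩ := exists_lt_of_ciInf_lt
      (show (⨅ θ : {θ : V × V →₀ ℚ // IsFlow D e θ}, energy c θ.1) < infE D c e + η ^ 2 by
        show infE D c e < _
        linarith [pow_pos hη0 2])
    obtain ⟨θ₀, hf₀, hen₀, hn₀⟩ := θ₁.2.orient hab
    have hQ : energy c θ₀ < infE D c e + η ^ 2 := by rw [hen₀ c]; exact hθ₁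
    have hη3 : η ^ 2 ≤ 1 := by nlinarith
    set Q := energy c θ₀ with hQdef
    have hQ1 : Q ≤ R + 1 := by linarith
    have hQ0 : infE D c e ≤ Q := infE_le hcp hf₀
    set K := 2 * R * (R + 1) + 1 + ∑ p ∈ θ₀.support, |(θ₀ p : ℝ)| with hK
    have hd : Tendsto (fun n => ∑ p ∈ θ₀.support, |(θ₀ p : ℝ)| *
        |(2 * cn n s(p.1, p.2))⁻¹ - (2 * c s(p.1, p.2))⁻¹|) atTop (𝓝 0) := by
      have : Tendsto (fun n => ∑ p ∈ θ₀.support, |(θ₀ p : ℝ)| *
        |(2 * cn n s(p.1, p.2))⁻¹ - (2 * c s(p.1, p.2))⁻¹|) atTop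
        (𝓝 (∑ p ∈ θ₀.support, |(θ₀ p : ℝ)| *
        |(2 * c s(p.1, p.2))⁻¹ - (2 * c s(p.1, p.2))⁻¹|)) := by
        apply tendsto_finsetSum
        intro p _
        apply Tendsto.const_mul
        apply Tendsto.abs
        apply Tendsto.sub_const
        exact ((hconv _).const_mul 2).inv₀ (by have := hcp s(p.1, p.2); positivity)
      simpa using this
    have hlim : Tendsto (fun n => energy (cn n) θ₀ - 2 * (η * (2 * (R ^ 2 * (R + 1) + Q) + 1) +
        K * ∑ p ∈ θ₀.support, |(θ₀ p : ℝ)| *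
          |(2 * cn n s(p.1, p.2))⁻¹ - (2 * c s(p.1, p.2))⁻¹|)) atTop
        (𝓝 (Q - 2 * (η * (2 * (R ^ 2 * (R + 1) + Q) + 1) + K * 0))) :=
      (tendsto_energy hcp hconv θ₀).sub ((tendsto_const_nhds.add (hd.const_mul K)).const_mul 2)
    have hgt : infE D c e - ε / 2 < Q - 2 * (η * (2 * (R ^ 2 * (R + 1) + Q) + 1) + K * 0) := by
      have h1 : η * (2 * (R ^ 2 * (R + 1) + Q) + 1) ≤ η * L := by
        apply mul_le_mul_of_nonneg_left _ hη0.le
        rw [hL]; linarith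
      linarith
    filter_upwards [hlim.eventually (lt_mem_nhds hgt), hD e he] with n hn hen
    have hne' : Nonempty {θ : V × V →₀ ℚ // IsFlow (Dn n) e θ} := by
      obtain ⟨θ, hθ, -⟩ := exists_edgeFlow hen; exact ⟨⟨θ, hθ⟩⟩
    have : infE D c e - ε / 2 ≤ infE (Dn n) (cn n) e := by
      apply le_ciInf
      rintro ⟨θ, hθ⟩
      simp only
      by_cases hbig : energy (cn n) θ ≤ R + 1
      · obtain ⟨θ', hf', hen', hn'⟩ := hθ.orient hab
        rw [← hen' (cn n)] at hbig ⊢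
        subst hab
        have := energy_lower hR hc (hcn n) hf₀ (hf'.mono (hle n)) hn₀ hn' hη0.le hQ.le hbig
        linarith
      · push Not at hbig
        linarith
    linarith
  · intro a' ha'
    obtain ⟨θ, hθ⟩ := exists_lt_of_ciInf_lt (show (⨅ θ : {θ : V × V →₀ ℚ // IsFlow D e θ},
      energy c θ.1) < a' from ha')
    have h1 : ∀ᶠ n in atTop, ∀ p ∈ θ.1.support, s(p.1, p.2) ∈ (Dn n).edgeSet := by
      rw [Filter.eventually_all_finset]
      intro p hp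
      exact hD _ (θ.2.adj hp)
    filter_upwards [h1, (tendsto_energy hcp hconv θ.1).eventually (gt_mem_nhds hθ)] with n hn hlt
    refine lt_of_le_of_lt (infE_le (hcnp n) ⟨θ.2.antisymm, fun x y hxy => ?_, θ.2.div⟩) hlt
    exact hn (x, y) (Finsupp.mem_support_iff.2 hxy)

/-- Continuous convergence of the edge probabilities along an exhaustion. -/
theorem tendsto_Mp {D : SimpleGraph V} {Dn : ℕ → SimpleGraph V} (hle : ∀ n, Dn n ≤ D)
    (hD : ∀ e ∈ D.edgeSet, ∀ᶠ n in atTop, e ∈ (Dn n).edgeSet) (cn : ℕ → Sym2 V → ℝ)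
    (c : Sym2 V → ℝ) (R : ℝ) (hR : 0 < R) (hcn : ∀ n e, cn n e ∈ Icc R⁻¹ R)
    (hc : ∀ e, c e ∈ Icc R⁻¹ R) (hconv : ∀ f, Tendsto (fun n => cn n f) atTop (𝓝 (c f)))
    (e : Sym2 V) :
    Tendsto (fun n => Mp (Dn n) (cn n) e) atTop (𝓝 (Mp D c e)) := by
  have hR1 : 1 ≤ R := by
    have h1 := (hc e).1.trans (hc e).2
    by_contra h
    push Not at h
    have : 1 < R⁻¹ := (one_lt_inv₀ hR).2 h
    linarith
  have hRi : 0 < R⁻¹ := inv_pos.2 hR
  have hcp : ∀ e, 0 < c e := fun e => hRi.trans_le (hc e).1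
  have hcnp : ∀ n e, 0 < cn n e := fun n e => hRi.trans_le (hcn n e).1
  rw [Mp_eq hcp]
  have h1 : (fun n => Mp (Dn n) (cn n) e) = fun n => Mfun (Dn n) (cn n) e :=
    funext fun n => Mp_eq (hcnp n) e
  rw [h1]
  by_cases he : e ∈ D.edgeSet
  · have h2 : Tendsto (fun n => cn n e * infE (Dn n) (cn n) e) atTop
        (𝓝 (c e * infE D c e)) := (hconv e).mul (tendsto_infE hle hD hR1 hcn hc hconv he)
    have h3 : Mfun D c e = c e * infE D c e := by unfold Mfun infE; rw [if_pos he]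
    rw [h3]
    apply h2.congr'
    filter_upwards [hD e he] with n hn
    unfold Mfun infE; rw [if_pos hn]
  · have h3 : ∀ n, e ∉ (Dn n).edgeSet := fun n hn => he (SimpleGraph.edgeSet_mono (hle n) hn)
    unfold Mfun
    simp only [he, h3, if_false]
    exact tendsto_const_nhds

end Vale.Agent.FUSF
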