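import Vale.Agent.FUSF.Transport

/-!
# P143, one step of the sequential scheme for mixtures of product densities
-/

open MeasureTheory Set

namespace Vale.Agent.FUSF

variable {α ι : Type*} [DecidableEq ι]

/-- Weight of `T` given the observations with index in `s`. -/
def wt (s : Finset ι) (x : α → ι → ℝ) (Θ y : ι → ℝ) (T : α) : ℝ :=
  ∏ i ∈ s, (1 + Θ i * x T i * (2 * y i - 1))

/-- Mixture density. -/
noncomputable def mix (𝒯 : Finset α) (s : Finset ι) (x : α → ι → ℝ) (Θ y : ι → ℝ) : ℝ :=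
  (∑ T ∈ 𝒯, wt s x Θ y T) / 𝒯.card

/-- Conditional bias of the coordinate `i`. -/
noncomputable def bias (𝒯 : Finset α) (s : Finset ι) (x : α → ι → ℝ) (Θ : ι → ℝ) (i : ι)
    (y : ι → ℝ) : ℝ :=
  (∑ T ∈ 𝒯, x T i * wt (s.erase i) x Θ y T) / ∑ T ∈ 𝒯, wt (s.erase i) x Θ y T

omit [DecidableEq ι] in
theorem measurable_wt (s : Finset ι) (x : α → ι → ℝ) (Θ : ι → ℝ) (T : α) :
    Measurable fun y => wt s x Θ y T := by
  unfold wt
  apply Finset.measurable_prod
  intro i _
  fun_prop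

theorem measurable_mix (𝒯 : Finset α) (s : Finset ι) (x : α → ι → ℝ) (Θ : ι → ℝ) :
    Measurable fun y => mix 𝒯 s x Θ y := by
  unfold mix
  apply Measurable.div_const
  apply Finset.measurable_sum
  intro T _
  exact measurable_wt s x Θ T

theorem measurable_bias (𝒯 : Finset α) (s : Finset ι) (x : α → ι → ℝ) (Θ : ι → ℝ) (i : ι) :
    Measurable fun y => bias 𝒯 s x Θ i y := by
  unfold bias
  apply Measurable.div
  · apply Finset.measurable_sum
    intro T _
    exact (measurable_wt _ x Θ T).const_mul _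
  · apply Finset.measurable_sum
    intro T _
    exact measurable_wt _ x Θ T

theorem wt_erase_update (s : Finset ι) (x : α → ι → ℝ) (Θ y : ι → ℝ) (T : α) (i : ι) (t : ℝ) :
    wt (s.erase i) x Θ (Function.update y i t) T = wt (s.erase i) x Θ y T := by
  unfold wt
  apply Finset.prod_congr rfl
  intro j hj
  rw [Function.update_of_ne (Finset.ne_of_mem_erase hj)]

theorem wt_erase_update' (s : Finset ι) (x : α → ι → ℝ) (Θ y : ι → ℝ) (T : α) (i : ι) (t : ℝ) :
    wt (s.erase i) x (Function.update Θ i t) y T = wt (s.erase i) x Θ y T := by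
  unfold wt
  apply Finset.prod_congr rfl
  intro j hj
  rw [Function.update_of_ne (Finset.ne_of_mem_erase hj)]

theorem factor_pos {a b y : ℝ} (ha : |a| ≤ 1 / 2) (hb : |b| ≤ 1) (hy : y ∈ Icc (0 : ℝ) 1) :
    0 < 1 + a * b * (2 * y - 1) := by
  apply dens_pos _ hy
  rw [abs_mul]
  nlinarith [abs_nonneg a, abs_nonneg b]

omit [DecidableEq ι] in
theorem wt_pos {s : Finset ι} {x : α → ι → ℝ} {Θ y : ι → ℝ} (T : α)
    (hx : ∀ i, |x T i| ≤ 1) (hΘ : ∀ i ∈ s, |Θ i| ≤ 1 / 2) (hy : ∀ i ∈ s, y i ∈ Icc (0 : ℝ) 1) :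
    0 < wt s x Θ y T :=
  Finset.prod_pos fun i hi => factor_pos (hΘ i hi) (hx i) (hy i hi)

omit [DecidableEq ι] in
theorem ae_mem_Icc (s : Finset ι) :
    ∀ᵐ y ∂(Measure.infinitePi (fun _ : ι => unifR)), ∀ i ∈ s, y i ∈ Icc (0 : ℝ) 1 := by
  rw [Filter.eventually_all_finset]
  intro i _
  have h : ∀ᵐ t ∂unifR, t ∈ Icc (0 : ℝ) 1 := ae_restrict_mem measurableSet_Icc
  rw [← Measure.infinitePi_map_eval (fun _ : ι => unifR) i] at h
  exact ae_of_ae_map (measurable_pi_apply i).aemeasurable h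

theorem mix_eq {𝒯 : Finset α} {s : Finset ι} {x : α → ι → ℝ} {Θ y : ι → ℝ} {i : ι} (hi : i ∈ s)
    (hne : (∑ T ∈ 𝒯, wt (s.erase i) x Θ y T) ≠ 0) :
    mix 𝒯 s x Θ y = (∑ T ∈ 𝒯, wt (s.erase i) x Θ y T) / 𝒯.card *
      (1 + Θ i * bias 𝒯 s x Θ i y * (2 * y i - 1)) := by
  have h1 : ∀ T, wt s x Θ y T = wt (s.erase i) x Θ y T +
      Θ i * (2 * y i - 1) * (x T i * wt (s.erase i) x Θ y T) := by
    intro T
    unfold wt
    rw [← Finset.mul_prod_erase s _ hi]
    ring
  unfold mix bias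
  simp only [h1]
  rw [Finset.sum_add_distrib, ← Finset.mul_sum]
  generalize (∑ T ∈ 𝒯, x T i * wt (s.erase i) x Θ y T) = A
  generalize (∑ T ∈ 𝒯, wt (s.erase i) x Θ y T) = B at hne ⊢
  field_simp

/-- One step of the sequential scheme. -/
theorem map_mix {𝒯 : Finset α} (h𝒯 : 𝒯.Nonempty) {s : Finset ι} {x : α → ι → ℝ} {Θ : ι → ℝ}
    {i : ι} (hi : i ∈ s) {h : ℝ} (hx : ∀ T j, |x T j| ≤ 1) (hΘ : ∀ j ∈ s, |Θ j| ≤ 1 / 2)
    (hΘ' : |Θ i + h| ≤ 1 / 2) :
    ((Measure.infinitePi (fun _ : ι => unifR)).withDensity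
      (fun y => ENNReal.ofReal (mix 𝒯 s x Θ y))).map
      (fun y => Function.update y i (tau (Θ i) h (bias 𝒯 s x Θ i y) (y i))) =
    (Measure.infinitePi (fun _ : ι => unifR)).withDensity
      (fun y => ENNReal.ofReal (mix 𝒯 s x (Function.update Θ i (Θ i + h)) y)) := by
  have hpos : ∀ y : ι → ℝ, (∀ j ∈ s, y j ∈ Icc (0 : ℝ) 1) →
      0 < ∑ T ∈ 𝒯, wt (s.erase i) x Θ y T := by
    intro y hy
    apply Finset.sum_pos _ h𝒯
    intro T _
    exact wt_pos T (hx T) (fun j hj => hΘ j (Finset.mem_of_mem_erase hj))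
      (fun j hj => hy j (Finset.mem_of_mem_erase hj))
  have key := map_step (ι := ι) i (θ := Θ i) (h := h)
    (B := fun y => (∑ T ∈ 𝒯, wt (s.erase i) x Θ y T) / 𝒯.card)
    (σ := fun y => bias 𝒯 s x Θ i y)
    (by have := hΘ i hi; linarith) (by linarith)
    (by
      apply Measurable.div_const
      apply Finset.measurable_sum
      intro T _
      exact measurable_wt _ x Θ T)
    (measurable_bias 𝒯 s x Θ i)
    (by intro y t; simp only [wt_erase_update])
    (by intro y t; simp only [bias, wt_erase_update])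
    (by
      filter_upwards [ae_mem_Icc s] with y hy
      unfold bias
      rw [abs_div, abs_of_pos (hpos y hy), div_le_one (hpos y hy)]
      refine (Finset.abs_sum_le_sum_abs _ _).trans (Finset.sum_le_sum fun T _ => ?_)
      have h1 := wt_pos (s := s.erase i) T (hx T) (fun j hj => hΘ j (Finset.mem_of_mem_erase hj))
        (fun j hj => hy j (Finset.mem_of_mem_erase hj))
      rw [abs_mul, abs_of_pos h1]
      have := hx T i
      nlinarith)
    (by
      filter_upwards [ae_mem_Icc s] with y hy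
      have := hpos y hy
      positivity)
  have e1 : (fun y => ENNReal.ofReal (mix 𝒯 s x Θ y)) =ᵐ[Measure.infinitePi (fun _ : ι => unifR)]
      fun y => ENNReal.ofReal ((∑ T ∈ 𝒯, wt (s.erase i) x Θ y T) / 𝒯.card *
        (1 + Θ i * bias 𝒯 s x Θ i y * (2 * y i - 1))) := by
    filter_upwards [ae_mem_Icc s] with y hy
    rw [mix_eq hi (hpos y hy).ne']
  have e2 : (fun y => ENNReal.ofReal (mix 𝒯 s x (Function.update Θ i (Θ i + h)) y))
      =ᵐ[Measure.infinitePi (fun _ : ι => unifR)]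
      fun y => ENNReal.ofReal ((∑ T ∈ 𝒯, wt (s.erase i) x Θ y T) / 𝒯.card *
        (1 + (Θ i + h) * bias 𝒯 s x Θ i y * (2 * y i - 1))) := by
    filter_upwards [ae_mem_Icc s] with y hy
    have hb : bias 𝒯 s x (Function.update Θ i (Θ i + h)) i y = bias 𝒯 s x Θ i y := by
      unfold bias
      simp only [wt_erase_update']
    rw [mix_eq hi (by simp only [wt_erase_update']; exact (hpos y hy).ne'), hb]
    simp only [wt_erase_update', Function.update_self]
  rw [withDensity_congr_ae e1, withDensity_congr_ae e2]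
  exact key

end Vale.Agent.FUSF
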