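import Vale.Agent.FUSF.Exact

/-!
# P143, second moment under a product of tilted uniform distributions
-/

open Set Filter Topology MeasureTheory

namespace Vale.Agent.FUSF

theorem integral_poly (a b c d : ℝ) :
    ∫ t in (0 : ℝ)..1, (a + b * t + c * t ^ 2 + d * t ^ 3) = a + b / 2 + c / 3 + d / 4 := by
  have h1 : IntervalIntegrable (fun t : ℝ => a + b * t) volume 0 1 :=
    Continuous.intervalIntegrable (by fun_prop) _ _
  have h2 : IntervalIntegrable (fun t : ℝ => c * t ^ 2) volume 0 1 :=
    Continuous.intervalIntegrable (by fun_prop) _ _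
  have h3 : IntervalIntegrable (fun t : ℝ => d * t ^ 3) volume 0 1 :=
    Continuous.intervalIntegrable (by fun_prop) _ _
  have h4 : IntervalIntegrable (fun _ : ℝ => a) volume 0 1 :=
    Continuous.intervalIntegrable (by fun_prop) _ _
  have h5 : IntervalIntegrable (fun t : ℝ => b * t) volume 0 1 :=
    Continuous.intervalIntegrable (by fun_prop) _ _
  have h6 : ∫ t in (0 : ℝ)..1, b * t = b / 2 := by
    have := intervalIntegral.integral_const_mul (a := 0) (b := 1) (μ := volume) b
      (fun t : ℝ => t)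
    rw [this, integral_id]
    norm_num
    ring
  rw [intervalIntegral.integral_add (h1.add h2) h3, intervalIntegral.integral_add h1 h2,
    intervalIntegral.integral_add h4 h5, h6]
  simp only [intervalIntegral.integral_const_mul, integral_pow,
    intervalIntegral.integral_const, smul_eq_mul]
  norm_num
  ring

theorem integral_unifR (g : ℝ → ℝ) : ∫ t, g t ∂unifR = ∫ t in (0 : ℝ)..1, g t := by
  unfold unifR
  rw [integral_Icc_eq_integral_Ioc, intervalIntegral.integral_of_le zero_le_one]

theorem integrable_unifR {g : ℝ → ℝ} (hg : Continuous g) : Integrable g unifR :=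
  hg.continuousOn.integrableOn_compact isCompact_Icc

theorem ae_unifR : ∀ᵐ t ∂unifR, t ∈ Icc (0 : ℝ) 1 := ae_restrict_mem measurableSet_Icc

theorem lintegral_dens {x : ℝ} (hx : |x| ≤ 1) :
    ∫⁻ t, ENNReal.ofReal (1 + 1 / 2 * x * (2 * t - 1)) ∂unifR = 1 := by
  have h := lintegral_Fd (s := 1 / 2 * x) (by rw [abs_mul]; norm_num; linarith) (fun _ => 1)
  simp only [mul_one] at h
  unfold unifR
  rw [h]
  simp

theorem lintegral_sq {x : ℝ} (hx : |x| ≤ 1) (S : ℝ) :
    ∫⁻ t, ENNReal.ofReal ((S + (2 * t - 1 - x / 6)) ^ 2 * (1 + 1 / 2 * x * (2 * t - 1))) ∂unifR ≤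
      ENNReal.ofReal (S ^ 2) + 1 := by
  rw [← ofReal_integral_eq_lintegral_ofReal (integrable_unifR (by fun_prop))]
  · rw [integral_unifR]
    have e : (fun t : ℝ => (S + (2 * t - 1 - x / 6)) ^ 2 * (1 + 1 / 2 * x * (2 * t - 1))) =
        fun t : ℝ => ((S - 1 - x / 6) ^ 2 * (1 - x / 2)) +
          (4 * (S - 1 - x / 6) * (1 - x / 2) + (S - 1 - x / 6) ^ 2 * x) * t +
          (4 * (1 - x / 2) + 4 * (S - 1 - x / 6) * x) * t ^ 2 + 4 * x * t ^ 3 := by
      funext t; ring
    rw [e, integral_poly, ← ENNReal.ofReal_one, ← ENNReal.ofReal_add (sq_nonneg _) zero_le_one]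
    apply ENNReal.ofReal_le_ofReal
    have := sq_nonneg x
    nlinarith
  · filter_upwards [ae_unifR] with t ht
    have := factor_pos (a := 1 / 2) (by norm_num) hx ht
    simp only [Pi.zero_apply]
    positivity

variable {ι : Type*} [DecidableEq ι]

/-- Product weight. -/
noncomputable def W (s : Finset ι) (x : ι → ℝ) (y : ι → ℝ) : ℝ :=
  ∏ i ∈ s, (1 + 1 / 2 * x i * (2 * y i - 1))

omit [DecidableEq ι] in
theorem measurable_W (s : Finset ι) (x : ι → ℝ) : Measurable (W s x) := by
  unfold W
  apply Finset.measurable_prod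
  intro i _
  fun_prop

omit [DecidableEq ι] in
theorem W_nonneg {s : Finset ι} {x y : ι → ℝ} (hx : ∀ i, |x i| ≤ 1)
    (hy : ∀ i ∈ s, y i ∈ Icc (0 : ℝ) 1) : 0 ≤ W s x y :=
  Finset.prod_nonneg fun i hi => (factor_pos (by norm_num) (hx i) (hy i hi)).le

theorem W_update {s : Finset ι} {i : ι} (hi : i ∉ s) (x y : ι → ℝ) (t : ℝ) :
    W s x (Function.update y i t) = W s x y := by
  unfold W
  apply Finset.prod_congr rfl
  intro j hj
  rw [Function.update_of_ne]
  rintro rfl
  exact hi hj

theorem lintegral_W {s : Finset ι} {x : ι → ℝ} (hx : ∀ i, |x i| ≤ 1) :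
    ∫⁻ y, ENNReal.ofReal (W s x y) ∂(Measure.infinitePi (fun _ : ι => unifR)) = 1 := by
  induction s using Finset.induction_on with
  | empty => simp [W]
  | insert i s hi ih =>
    rw [lintegral_split i (measurable_W _ x).ennreal_ofReal, ← ih]
    apply lintegral_congr_ae
    filter_upwards [ae_mem_Icc s] with y hy
    have e : ∀ t, W (insert i s) x (Function.update y i t) =
        W s x y * (1 + 1 / 2 * x i * (2 * t - 1)) := by
      intro t
      have h1 : W (insert i s) x (Function.update y i t) =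
          (1 + 1 / 2 * x i * (2 * (Function.update y i t) i - 1)) *
            W s x (Function.update y i t) := by
        unfold W; rw [Finset.prod_insert hi]
      rw [h1, W_update hi, Function.update_self, mul_comm]
    simp only [e]
    simp only [ENNReal.ofReal_mul (W_nonneg hx hy)]
    rw [lintegral_const_mul' _ _ ENNReal.ofReal_ne_top, lintegral_dens (hx i), mul_one]

theorem second_moment {s : Finset ι} {x : ι → ℝ} (hx : ∀ i, |x i| ≤ 1) (a : Finset ι)
    (ha : a ⊆ s) :
    ∫⁻ y, ENNReal.ofReal ((∑ i ∈ a, (2 * y i - 1 - x i / 6)) ^ 2 * W s x y)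
      ∂(Measure.infinitePi (fun _ : ι => unifR)) ≤ a.card := by
  have hmS : ∀ a : Finset ι, Measurable fun y : ι → ℝ => ∑ i ∈ a, (2 * y i - 1 - x i / 6) := by
    intro a
    apply Finset.measurable_sum
    intro i _
    fun_prop
  induction a using Finset.induction_on with
  | empty => simp
  | insert i a hia ih =>
    have his : i ∈ s := ha (Finset.mem_insert_self i a)
    have ha' : a ⊆ s := fun j hj => ha (Finset.mem_insert_of_mem hj)
    have hWs : ∀ y t, W s x (Function.update y i t) =
        W (s.erase i) x y * (1 + 1 / 2 * x i * (2 * t - 1)) := by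
      intro y t
      have h1 : W s x (Function.update y i t) =
          (1 + 1 / 2 * x i * (2 * (Function.update y i t) i - 1)) *
            W (s.erase i) x (Function.update y i t) := by
        unfold W
        exact (Finset.mul_prod_erase s
          (fun j => 1 + 1 / 2 * x j * (2 * Function.update y i t j - 1)) his).symm
      rw [h1, W_update (Finset.notMem_erase i s), Function.update_self, mul_comm]
    have hSa : ∀ y t, (∑ j ∈ a, (2 * (Function.update y i t) j - 1 - x j / 6)) =
        ∑ j ∈ a, (2 * y j - 1 - x j / 6) := by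
      intro y t
      apply Finset.sum_congr rfl
      intro j hj
      rw [Function.update_of_ne]
      rintro rfl
      exact hia hj
    have hm1 : Measurable fun y : ι → ℝ => ENNReal.ofReal
        ((∑ j ∈ insert i a, (2 * y j - 1 - x j / 6)) ^ 2 * W s x y) :=
      (((hmS _).pow_const 2).mul (measurable_W s x)).ennreal_ofReal
    have hm2 : Measurable fun y : ι → ℝ => ENNReal.ofReal
        ((∑ j ∈ a, (2 * y j - 1 - x j / 6)) ^ 2 * W s x y) :=
      (((hmS _).pow_const 2).mul (measurable_W s x)).ennreal_ofReal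
    have hne : (fun y : ι → ℝ => ENNReal.ofReal (W (s.erase i) x y) *
        ENNReal.ofReal ((∑ j ∈ a, (2 * y j - 1 - x j / 6)) ^ 2)) =ᵐ[Measure.infinitePi
        (fun _ : ι => unifR)] fun y => ∫⁻ t, ENNReal.ofReal
          ((∑ j ∈ a, (2 * (Function.update y i t) j - 1 - x j / 6)) ^ 2 *
            W s x (Function.update y i t)) ∂unifR := by
      filter_upwards [ae_mem_Icc (s.erase i)] with y hy
      simp only [hSa, hWs]
      have e : ∀ t, (∑ j ∈ a, (2 * y j - 1 - x j / 6)) ^ 2 *
          (W (s.erase i) x y * (1 + 1 / 2 * x i * (2 * t - 1))) =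
          (W (s.erase i) x y * (∑ j ∈ a, (2 * y j - 1 - x j / 6)) ^ 2) *
            (1 + 1 / 2 * x i * (2 * t - 1)) := by intro t; ring
      simp only [e]
      have h0 : 0 ≤ W (s.erase i) x y * (∑ j ∈ a, (2 * y j - 1 - x j / 6)) ^ 2 :=
        mul_nonneg (W_nonneg hx hy) (sq_nonneg _)
      simp only [ENNReal.ofReal_mul h0]
      rw [lintegral_const_mul' _ _ ENNReal.ofReal_ne_top, lintegral_dens (hx i), mul_one,
        ENNReal.ofReal_mul (W_nonneg hx hy)]
    have hsum1 : ∫⁻ y, ENNReal.ofReal (W (s.erase i) x y) *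
        ENNReal.ofReal ((∑ j ∈ a, (2 * y j - 1 - x j / 6)) ^ 2)
          ∂(Measure.infinitePi (fun _ : ι => unifR)) ≤ a.card := by
      rw [lintegral_congr_ae hne, ← lintegral_split i hm2]
      exact ih ha'
    rw [lintegral_split i hm1]
    calc ∫⁻ y, ∫⁻ t, ENNReal.ofReal
          ((∑ j ∈ insert i a, (2 * (Function.update y i t) j - 1 - x j / 6)) ^ 2 *
            W s x (Function.update y i t)) ∂unifR ∂(Measure.infinitePi (fun _ : ι => unifR))
        ≤ ∫⁻ y, (ENNReal.ofReal (W (s.erase i) x y) *
            ENNReal.ofReal ((∑ j ∈ a, (2 * y j - 1 - x j / 6)) ^ 2) +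
            ENNReal.ofReal (W (s.erase i) x y)) ∂(Measure.infinitePi (fun _ : ι => unifR)) := by
          apply lintegral_mono_ae
          filter_upwards [ae_mem_Icc (s.erase i)] with y hy
          have e : ∀ t, (∑ j ∈ insert i a, (2 * (Function.update y i t) j - 1 - x j / 6)) ^ 2 *
              W s x (Function.update y i t) = W (s.erase i) x y *
              (((∑ j ∈ a, (2 * y j - 1 - x j / 6)) + (2 * t - 1 - x i / 6)) ^ 2 *
                (1 + 1 / 2 * x i * (2 * t - 1))) := by
            intro t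
            rw [Finset.sum_insert hia, hSa, hWs, Function.update_self]
            ring
          simp only [e]
          simp only [ENNReal.ofReal_mul (W_nonneg hx hy)]
          rw [lintegral_const_mul' _ _ ENNReal.ofReal_ne_top]
          refine (mul_le_mul_right (lintegral_sq (hx i) _) _).trans ?_
          rw [mul_add, mul_one]
      _ ≤ a.card + 1 := by
          rw [lintegral_add_right _ (measurable_W _ x).ennreal_ofReal, lintegral_W hx]
          gcongr
      _ = ((insert i a).card : ENNReal) := by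
          rw [Finset.card_insert_of_notMem hia]; push_cast; rfl

/-- Chebyshev inequality. -/
theorem chebyshev {s : Finset ι} {x : ι → ℝ} (hx : ∀ i, |x i| ≤ 1) (a : Finset ι)
    (ha : a ⊆ s) {r : ℝ} (hr : 0 < r) :
    ∫⁻ y in {y | r ≤ |∑ i ∈ a, (2 * y i - 1 - x i / 6)|}, ENNReal.ofReal (W s x y)
      ∂(Measure.infinitePi (fun _ : ι => unifR)) ≤ ENNReal.ofReal (a.card / r ^ 2) := by
  have hmS : Measurable fun y : ι → ℝ => ∑ i ∈ a, (2 * y i - 1 - x i / 6) := by
    apply Finset.measurable_sum
    intro i _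
    fun_prop
  have hmE : MeasurableSet {y : ι → ℝ | r ≤ |∑ i ∈ a, (2 * y i - 1 - x i / 6)|} :=
    measurableSet_le measurable_const (by fun_prop)
  have h1 : ∫⁻ y in {y | r ≤ |∑ i ∈ a, (2 * y i - 1 - x i / 6)|}, ENNReal.ofReal (W s x y)
      ∂(Measure.infinitePi (fun _ : ι => unifR)) ≤
      ∫⁻ y, ENNReal.ofReal (1 / r ^ 2) * ENNReal.ofReal
        ((∑ i ∈ a, (2 * y i - 1 - x i / 6)) ^ 2 * W s x y)
        ∂(Measure.infinitePi (fun _ : ι => unifR)) := by
    rw [← lintegral_indicator hmE]
    apply lintegral_mono_ae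
    filter_upwards [ae_mem_Icc s] with y hy
    have hW := W_nonneg hx hy
    by_cases hyE : y ∈ {y : ι → ℝ | r ≤ |∑ i ∈ a, (2 * y i - 1 - x i / 6)|}
    · rw [indicator_of_mem hyE, ← ENNReal.ofReal_mul (by positivity)]
      apply ENNReal.ofReal_le_ofReal
      have h2 : r ^ 2 ≤ (∑ i ∈ a, (2 * y i - 1 - x i / 6)) ^ 2 := by
        rw [← sq_abs (∑ i ∈ a, _)]
        exact pow_le_pow_left₀ hr.le hyE 2
      calc W s x y = 1 / r ^ 2 * (r ^ 2 * W s x y) := by field_simp
        _ ≤ _ := by
          apply mul_le_mul_of_nonneg_left _ (by positivity)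
          exact mul_le_mul_of_nonneg_right h2 hW
    · rw [indicator_of_notMem hyE]
      exact zero_le
  refine h1.trans ?_
  rw [lintegral_const_mul' _ _ ENNReal.ofReal_ne_top]
  refine (mul_le_mul_right (second_moment hx a ha) _).trans ?_
  have e : ENNReal.ofReal (a.card / r ^ 2) = ENNReal.ofReal (1 / r ^ 2) * a.card := by
    rw [← ENNReal.ofReal_natCast, ← ENNReal.ofReal_mul (by positivity)]
    congr 1
    ring
  rw [e]

end Vale.Agent.FUSF
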