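import Vale.Agent.FUSF.Flow
import Vale.Agent.FUSF.Schemes

/-!
# P143, properties of the edge probabilities `Mfun`
-/

open Set

namespace Vale.Agent.FUSF

variable {V : Type*}

open Classical in
/-- Net flow out of a vertex. -/
noncomputable def net (θ : V × V →₀ ℚ) (x : V) : ℚ := θ.sum fun p t => if p.1 = x then t else 0

theorem net_add (θ θ' : V × V →₀ ℚ) (x : V) : net (θ + θ') x = net θ x + net θ' x := by
  unfold net
  apply Finsupp.sum_add_index'
  · intro p; simp
  · intro p t t'; split_ifs <;> simp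

theorem net_smul (t : ℚ) (θ : V × V →₀ ℚ) (x : V) : net (t • θ) x = t * net θ x := by
  unfold net
  rw [Finsupp.sum_smul_index' (by intro p; simp), Finsupp.mul_sum]
  apply Finsupp.sum_congr
  intro p _
  split_ifs <;> simp

theorem energy_eq_sum {c : Sym2 V → ℝ} {θ : V × V →₀ ℚ} {S : Finset (V × V)}
    (hS : θ.support ⊆ S) :
    energy c θ = ∑ p ∈ S, ((θ p : ℚ) : ℝ) ^ 2 / (2 * c s(p.1, p.2)) :=
  Finsupp.sum_of_support_subset _ hS _ (by simp)

theorem energy_nonneg {c : Sym2 V → ℝ} (hc : ∀ e, 0 < c e) (θ : V × V →₀ ℚ) :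
    0 ≤ energy c θ := by
  rw [energy_eq_sum (Finset.Subset.refl _)]
  apply Finset.sum_nonneg
  intro p _
  have := hc s(p.1, p.2)
  positivity

theorem bddBelow_energy {c : Sym2 V → ℝ} (hc : ∀ e, 0 < c e) (D : SimpleGraph V) (e : Sym2 V) :
    BddBelow (range fun θ : {θ : V × V →₀ ℚ // IsFlow D e θ} => energy c θ.1) :=
  ⟨0, by rintro _ ⟨θ, rfl⟩; exact energy_nonneg hc θ.1⟩

open Classical in
/-- The flow along one edge. -/
theorem exists_edgeFlow {D : SimpleGraph V} {e : Sym2 V} (he : e ∈ D.edgeSet) :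
    ∃ θ : V × V →₀ ℚ, IsFlow D e θ ∧ ∀ c : Sym2 V → ℝ, energy c θ = (c e)⁻¹ := by
  induction e with
  | _ a b =>
    have hadj : D.Adj a b := he
    have hab : a ≠ b := hadj.ne
    have hne : ((a, b) : V × V) ≠ (b, a) := by
      intro h; exact hab (Prod.mk.inj h).1
    refine ⟨Finsupp.single (a, b) 1 + Finsupp.single (b, a) (-1), ⟨?_, ?_, ?_⟩, ?_⟩
    · intro x y
      simp only [Finsupp.add_apply, Finsupp.single_apply, Prod.mk.injEq]
      by_cases h1 : a = x <;> by_cases h2 : b = y <;> by_cases h3 : a = y <;>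
        by_cases h4 : b = x <;> simp_all
    · intro x y h
      simp only [Finsupp.add_apply, Finsupp.single_apply, Prod.mk.injEq] at h
      by_cases h1 : a = x ∧ b = y
      · rw [← h1.1, ← h1.2]; exact hadj
      · by_cases h2 : b = x ∧ a = y
        · rw [← h2.1, ← h2.2]; exact hadj.symm
        · simp [h1, h2] at h
    · refine ⟨a, b, rfl, fun x => ?_⟩
      have := net_add (Finsupp.single (a, b) (1 : ℚ)) (Finsupp.single (b, a) (-1)) x
      unfold net at this
      rw [this, Finsupp.sum_single_index (by simp), Finsupp.sum_single_index (by simp)]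
      simp only
      by_cases h1 : x = a <;> by_cases h2 : x = b <;> simp_all [eq_comm]
    · intro c
      have hS : (Finsupp.single (a, b) (1 : ℚ) + Finsupp.single (b, a) (-1)).support ⊆
          {(a, b), (b, a)} := by
        intro p hp
        rw [Finsupp.mem_support_iff] at hp
        by_contra hp2
        simp only [Finset.mem_insert, Finset.mem_singleton, not_or] at hp2
        apply hp
        simp only [Finsupp.add_apply, Finsupp.single_apply]
        simp [Ne.symm hp2.1, Ne.symm hp2.2]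
      rw [energy_eq_sum hS, Finset.sum_pair hne]
      simp only [Finsupp.add_apply, Finsupp.single_apply]
      rw [Sym2.eq_swap (a := b) (b := a)]
      simp only [if_true, hne, Ne.symm hne, if_false]
      push_cast
      by_cases hc : c s(a, b) = 0
      · simp [hc]
      · field_simp
        norm_num

theorem Mfun_nonneg {D : SimpleGraph V} {c : Sym2 V → ℝ} (hc : ∀ e, 0 < c e) (e : Sym2 V) :
    0 ≤ Mfun D c e := by
  unfold Mfun
  split_ifs
  · exact mul_nonneg (hc e).le (Real.iInf_nonneg fun θ => energy_nonneg hc θ.1)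
  · exact le_rfl

theorem Mfun_le_one {D : SimpleGraph V} {c : Sym2 V → ℝ} (hc : ∀ e, 0 < c e) (e : Sym2 V) :
    Mfun D c e ≤ 1 := by
  unfold Mfun
  split_ifs with he
  · obtain ⟨θ, hθ, hen⟩ := exists_edgeFlow he
    have h := ciInf_le (bddBelow_energy hc D e) ⟨θ, hθ⟩
    simp only at h
    rw [hen c] at h
    calc c e * _ ≤ c e * (c e)⁻¹ := mul_le_mul_of_nonneg_left h (hc e).le
      _ = 1 := mul_inv_cancel₀ (hc e).ne'
  · exact zero_le_one

theorem energy_le {c c' : Sym2 V → ℝ} {κ : ℝ} (hc : ∀ e, 0 < c e) (hc' : ∀ e, 0 < c' e)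
    (h : ∀ e, c e ≤ κ * c' e) (θ : V × V →₀ ℚ) : energy c' θ ≤ κ * energy c θ := by
  rw [energy_eq_sum (Finset.Subset.refl _), energy_eq_sum (Finset.Subset.refl _), Finset.mul_sum]
  apply Finset.sum_le_sum
  intro p _
  have h1 := hc s(p.1, p.2)
  have h2 := hc' s(p.1, p.2)
  have h3 := h s(p.1, p.2)
  rw [← mul_div_assoc, div_le_div_iff₀ (by positivity) (by positivity)]
  nlinarith [sq_nonneg ((θ p : ℚ) : ℝ)]

theorem Mfun_lip {D : SimpleGraph V} {c c' : Sym2 V → ℝ} {κ : ℝ} (hκ : 1 ≤ κ)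
    (hc : ∀ e, 0 < c e) (hc' : ∀ e, 0 < c' e)
    (h : ∀ e, c' e ≤ κ * c e) (h' : ∀ e, c e ≤ κ * c' e) (e : Sym2 V) :
    Mfun D c' e ≤ κ ^ 2 * Mfun D c e := by
  unfold Mfun
  split_ifs with he
  · obtain ⟨θ₀, hθ₀, -⟩ := exists_edgeFlow he
    have : Nonempty {θ : V × V →₀ ℚ // IsFlow D e θ} := ⟨⟨θ₀, hθ₀⟩⟩
    have h1 : (⨅ θ : {θ : V × V →₀ ℚ // IsFlow D e θ}, energy c' θ.1) ≤
        κ * ⨅ θ : {θ : V × V →₀ ℚ // IsFlow D e θ}, energy c θ.1 := by
      rw [Real.mul_iInf_of_nonneg (by linarith)]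
      apply le_ciInf
      intro θ
      exact (ciInf_le (bddBelow_energy hc' D e) θ).trans (energy_le hc hc' h' θ.1)
    have h2 : 0 ≤ ⨅ θ : {θ : V × V →₀ ℚ // IsFlow D e θ}, energy c' θ.1 :=
      Real.iInf_nonneg fun θ => energy_nonneg hc' θ.1
    calc c' e * _ ≤ (κ * c e) * (κ * ⨅ θ : {θ : V × V →₀ ℚ // IsFlow D e θ}, energy c θ.1) :=
        mul_le_mul (h e) h1 h2 (mul_nonneg (by linarith) (hc e).le)
      _ = _ := by ring
  · simp

theorem IsFlow.adj {D : SimpleGraph V} {e : Sym2 V} {θ : V × V →₀ ℚ} (h : IsFlow D e θ)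
    {p : V × V} (hp : p ∈ θ.support) : s(p.1, p.2) ∈ D.edgeSet :=
  h.supp p.1 p.2 (Finsupp.mem_support_iff.1 hp)

theorem Mfun_congr {D : SimpleGraph V} {c c' : Sym2 V → ℝ} (h : ∀ e ∈ D.edgeSet, c e = c' e)
    (e : Sym2 V) : Mfun D c e = Mfun D c' e := by
  unfold Mfun
  split_ifs with he
  · rw [h e he]
    congr 1
    congr 1
    funext θ
    rw [energy_eq_sum (Finset.Subset.refl _), energy_eq_sum (Finset.Subset.refl _)]
    apply Finset.sum_congr rfl
    intro p hp
    rw [h _ (θ.2.adj hp)]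
  · rfl

/-- Positive part of the conductances (nonpositive values are replaced by `1`). -/
noncomputable def posc {E : Type*} (c : E → ℝ) (f : E) : ℝ := if 0 < c f then c f else 1

theorem posc_pos {E : Type*} (c : E → ℝ) (f : E) : 0 < posc c f := by
  unfold posc; split_ifs with h
  · exact h
  · exact one_pos

theorem posc_eq {E : Type*} {c : E → ℝ} (hc : ∀ f, 0 < c f) : posc c = c := by
  funext f; simp [posc, hc f]

/-- The edge probabilities, extended to all real conductances. -/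
noncomputable def Mp (D : SimpleGraph V) (c : Sym2 V → ℝ) (e : Sym2 V) : ℝ := Mfun D (posc c) e

theorem Mp_eq {D : SimpleGraph V} {c : Sym2 V → ℝ} (hc : ∀ f, 0 < c f) (e : Sym2 V) :
    Mp D c e = Mfun D c e := by
  unfold Mp; rw [posc_eq hc]

theorem admissible_Mp (D : SimpleGraph V) : Admissible (Mp D) where
  nonneg c _ e := Mfun_nonneg (posc_pos c) e
  le_one c _ e := Mfun_le_one (posc_pos c) e
  lip κ c c' hκ hc hc' h h' e := by
    rw [Mp_eq hc, Mp_eq hc']
    exact Mfun_lip hκ hc hc' h h' e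

theorem Mp_congr {D : SimpleGraph V} {c c' : Sym2 V → ℝ} (h : ∀ e ∈ D.edgeSet, c e = c' e)
    (e : Sym2 V) : Mp D c e = Mp D c' e := by
  apply Mfun_congr
  intro f hf
  simp [posc, h f hf]

theorem Mp_of_not_mem {D : SimpleGraph V} {c : Sym2 V → ℝ} {e : Sym2 V} (he : e ∉ D.edgeSet) :
    Mp D c e = 0 := by
  unfold Mp Mfun; rw [if_neg he]

end Vale.Agent.FUSF
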