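import Vale.Agent.FUSF.Moment

/-!
# P143, the pattern can be read off the averages of the observations
-/

open Set Filter Topology MeasureTheory

namespace Vale.Agent.FUSF

variable {E : Type*}

/-- Average of the first `K` observations of the edge `f`. -/
noncomputable def avg (f : E) (K : ℕ) (y : ℕ × E → ℝ) : ℝ :=
  (∑ k ∈ Finset.range K, (2 * y (k, f) - 1)) / K

/-- The averages indicate the pattern `B` on `F`, with margin `c`. -/
def Ev (F : Finset E) (B : Set E) (m₀ n : ℕ) (c : ℝ) : Set (ℕ × E → ℝ) :=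
  {y | ∀ i < n, ∀ f ∈ F, (f ∈ B → c ≤ avg f (4 ^ (m₀ + i)) y) ∧
    (f ∉ B → avg f (4 ^ (m₀ + i)) y ≤ -c)}

theorem measurable_avg (f : E) (K : ℕ) : Measurable (avg f K) := by
  unfold avg
  apply Measurable.div_const
  apply Finset.measurable_sum
  intro k _
  fun_prop

theorem measurableSet_Ev (F : Finset E) (B : Set E) (m₀ n : ℕ) (c : ℝ) :
    MeasurableSet (Ev F B m₀ n c) := by
  unfold Ev
  have h : {y : ℕ × E → ℝ | ∀ i < n, ∀ f ∈ F, (f ∈ B → c ≤ avg f (4 ^ (m₀ + i)) y) ∧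
      (f ∉ B → avg f (4 ^ (m₀ + i)) y ≤ -c)} = ⋂ i : ℕ, ⋂ _ : i < n, ⋂ f ∈ F,
        {y : ℕ × E → ℝ | (f ∈ B → c ≤ avg f (4 ^ (m₀ + i)) y) ∧
          (f ∉ B → avg f (4 ^ (m₀ + i)) y ≤ -c)} := by
    ext y; simp only [mem_ofPred_eq, mem_iInter]
  rw [h]
  refine MeasurableSet.iInter fun i => MeasurableSet.iInter fun _ =>
    Finset.measurableSet_biInter _ fun f _ => ?_
  by_cases hf : f ∈ B
  · simp only [hf, forall_true_left, not_true_eq_false, false_imp_iff, and_true]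
    exact measurableSet_le measurable_const (measurable_avg _ _)
  · simp only [hf, false_imp_iff, not_false_eq_true, forall_true_left, true_and]
    exact measurableSet_le (measurable_avg _ _) measurable_const

theorem sum_quarter (n : ℕ) : ∑ i ∈ Finset.range n, (1 / 4 : ℝ) ^ i ≤ 4 / 3 := by
  rw [geom_sum_eq (by norm_num)]
  have : (0 : ℝ) ≤ (1 / 4) ^ n := by positivity
  have e : (((1 : ℝ) / 4) ^ n - 1) / (1 / 4 - 1) = 4 / 3 * (1 - (1 / 4) ^ n) := by ring
  rw [e]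
  linarith

theorem setLIntegral_biUnion_finset_le {α β : Type*} [MeasurableSpace α] (μ : Measure α)
    (f : α → ENNReal) (s : Finset β) (t : β → Set α) :
    ∫⁻ y in ⋃ q ∈ s, t q, f y ∂μ ≤ ∑ q ∈ s, ∫⁻ y in t q, f y ∂μ := by
  classical
  induction s using Finset.induction_on with
  | empty => simp
  | insert q s hq ih =>
    rw [Finset.set_biUnion_insert, Finset.sum_insert hq]
    exact (lintegral_union_le f _ _).trans (by gcongr)

variable [DecidableEq E]

theorem rho_eq (𝒯 : Finset (Finset E)) (l : List E) (K : ℕ) (y : ℕ × E → ℝ) :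
    rho 𝒯 l (fun _ => 1 / 2) K y =
      (∑ T ∈ 𝒯, W (Finset.range K ×ˢ l.toFinset) (sgn T) y) / 𝒯.card := by
  unfold rho W
  congr 1
  apply Finset.sum_congr rfl
  intro T _
  rw [Finset.prod_product]
  rfl

/-- Failure probability for a single tree. -/
theorem bad_le {T : Finset E} {l : List E} {F : Finset E} {B : Set E} (hF : ∀ f ∈ F, f ∈ l)
    (hB : ∀ f ∈ F, (f ∈ T ↔ f ∈ B)) (m₀ n K : ℕ) (hK : ∀ i < n, 4 ^ (m₀ + i) ≤ K) :
    ∫⁻ y in (Ev F B m₀ n (1 / 12))ᶜ, ENNReal.ofReal (W (Finset.range K ×ˢ l.toFinset) (sgn T) y)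
      ∂(Measure.infinitePi (fun _ : ℕ × E => unifR)) ≤
      ENNReal.ofReal (192 * F.card * (1 / 4) ^ m₀) := by
  set P := Measure.infinitePi (fun _ : ℕ × E => unifR) with hP
  set s := Finset.range K ×ˢ l.toFinset with hs
  set a : ℕ → E → Finset (ℕ × E) := fun i f => Finset.range (4 ^ (m₀ + i)) ×ˢ {f} with ha
  have hsub : (Ev F B m₀ n (1 / 12))ᶜ ⊆ ⋃ q ∈ Finset.range n ×ˢ F,
      {y | ((4 : ℝ) ^ (m₀ + q.1) / 12) ≤ |∑ p ∈ a q.1 q.2, (2 * y p - 1 - sgn T p / 6)|} := by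
    intro y hy
    simp only [Ev, mem_compl_iff, mem_ofPred_eq, not_forall] at hy
    obtain ⟨i, hi, f, hf, h⟩ := hy
    simp only [mem_iUnion, Finset.mem_product, Finset.mem_range, mem_ofPred_eq]
    refine ⟨(i, f), ⟨hi, hf⟩, ?_⟩
    simp only [ha]
    have hsum : ∑ p ∈ Finset.range (4 ^ (m₀ + i)) ×ˢ {f}, (2 * y p - 1 - sgn T p / 6) =
        4 ^ (m₀ + i) * avg f (4 ^ (m₀ + i)) y -
          4 ^ (m₀ + i) * ((if f ∈ T then 1 else -1) / 6) := by
      rw [Finset.sum_product]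
      simp only [Finset.sum_singleton, sgn]
      rw [Finset.sum_sub_distrib]
      unfold avg
      push_cast
      rw [mul_div_cancel₀ _ (by positivity)]
      congr 1
      by_cases hfT : f ∈ T
      · simp [hfT, div_eq_mul_inv]
      · simp [hfT, div_eq_mul_inv]
    rw [hsum]
    have hpos : (0 : ℝ) < 4 ^ (m₀ + i) := by positivity
    by_cases hfB : f ∈ B
    · have hfT := (hB f hf).2 hfB
      simp only [hfB, forall_true_left, not_true_eq_false, false_imp_iff, and_true, not_le] at h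
      rw [if_pos hfT, le_abs]
      right
      nlinarith
    · have hfT : f ∉ T := fun h => hfB ((hB f hf).1 h)
      simp only [hfB, false_imp_iff, not_false_eq_true, forall_true_left, true_and, not_le] at h
      rw [if_neg hfT, le_abs]
      left
      nlinarith
  have hmono : ∫⁻ y in (Ev F B m₀ n (1 / 12))ᶜ, ENNReal.ofReal (W s (sgn T) y) ∂P ≤
      ∑ q ∈ Finset.range n ×ˢ F, ∫⁻ y in {y | ((4 : ℝ) ^ (m₀ + q.1) / 12) ≤
        |∑ p ∈ a q.1 q.2, (2 * y p - 1 - sgn T p / 6)|}, ENNReal.ofReal (W s (sgn T) y) ∂P :=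
    (lintegral_mono_set hsub).trans (setLIntegral_biUnion_finset_le _ _ _ _)
  refine hmono.trans ?_
  have hq : ∀ q ∈ Finset.range n ×ˢ F, ∫⁻ y in {y | ((4 : ℝ) ^ (m₀ + q.1) / 12) ≤
      |∑ p ∈ a q.1 q.2, (2 * y p - 1 - sgn T p / 6)|}, ENNReal.ofReal (W s (sgn T) y) ∂P ≤
      ENNReal.ofReal (144 * (1 / 4) ^ m₀ * (1 / 4) ^ q.1) := by
    rintro ⟨i, f⟩ hif
    rw [Finset.mem_product, Finset.mem_range] at hif
    have hsa : a i f ⊆ s := by
      intro p hp
      simp only [ha, Finset.mem_product, Finset.mem_range, Finset.mem_singleton] at hp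
      rw [hs, Finset.mem_product, Finset.mem_range, List.mem_toFinset]
      exact ⟨lt_of_lt_of_le hp.1 (hK i hif.1), hp.2 ▸ hF f hif.2⟩
    refine (chebyshev (abs_sgn T) (a i f) hsa (by positivity)).trans ?_
    apply ENNReal.ofReal_le_ofReal
    simp only [ha, Finset.card_product, Finset.card_range, Finset.card_singleton, mul_one]
    push_cast
    apply le_of_eq
    rw [one_div_pow, one_div_pow, pow_add]
    field_simp
    norm_num
  refine (Finset.sum_le_sum hq).trans ?_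
  rw [← ENNReal.ofReal_sum_of_nonneg (fun _ _ => by positivity)]
  apply ENNReal.ofReal_le_ofReal
  rw [Finset.sum_product]
  simp only [Finset.sum_const, nsmul_eq_mul]
  rw [← Finset.mul_sum, ← Finset.mul_sum]
  have h1 := sum_quarter n
  have h2 : (0 : ℝ) ≤ F.card * (144 * (1 / 4) ^ m₀) := by positivity
  calc (F.card : ℝ) * (144 * (1 / 4) ^ m₀ * ∑ i ∈ Finset.range n, (1 / 4 : ℝ) ^ i)
      = F.card * (144 * (1 / 4) ^ m₀) * ∑ i ∈ Finset.range n, (1 / 4 : ℝ) ^ i := by ring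
    _ ≤ F.card * (144 * (1 / 4) ^ m₀) * (4 / 3) := mul_le_mul_of_nonneg_left h1 h2
    _ = _ := by ring

theorem pattern_mix {𝒯 : Finset (Finset E)} (h𝒯 : 𝒯.Nonempty) {l : List E} {F : Finset E}
    {B : Set E} [DecidablePred (· ∈ B)] (hF : ∀ f ∈ F, f ∈ l) (m₀ n K : ℕ)
    (hK : ∀ i < n, 4 ^ (m₀ + i) ≤ K) :
    ENNReal.ofReal (((𝒯.filter fun T => ∀ e ∈ F, (e ∈ T ↔ e ∈ B)).card : ℝ) / 𝒯.card *
      (1 - 192 * F.card * (1 / 4) ^ m₀)) ≤
    ((Measure.infinitePi (fun _ : ℕ × E => unifR)).withDensity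
      (fun y => ENNReal.ofReal (rho 𝒯 l (fun _ => 1 / 2) K y))) (Ev F B m₀ n (1 / 12)) := by
  set P := Measure.infinitePi (fun _ : ℕ × E => unifR) with hP
  set s := Finset.range K ×ˢ l.toFinset with hs
  set 𝒢 := 𝒯.filter fun T => ∀ e ∈ F, (e ∈ T ↔ e ∈ B) with h𝒢
  have hcard : (0 : ℝ) < 𝒯.card := by exact_mod_cast Finset.card_pos.2 h𝒯
  set ε : ℝ := 192 * F.card * (1 / 4) ^ m₀ with hε
  have hEv := measurableSet_Ev F B m₀ n (1 / 12)
  -- each tree with the right pattern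
  have hT : ∀ T ∈ 𝒢, ENNReal.ofReal (1 - ε) ≤
      ∫⁻ y in Ev F B m₀ n (1 / 12), ENNReal.ofReal (W s (sgn T) y) ∂P := by
    intro T hT
    rw [h𝒢, Finset.mem_filter] at hT
    have h1 := bad_le (T := T) hF hT.2 m₀ n K hK
    have h2 := lintegral_add_compl (μ := P) (fun y => ENNReal.ofReal (W s (sgn T) y)) hEv
    rw [lintegral_W (abs_sgn T)] at h2
    rw [ENNReal.ofReal_sub _ (by positivity), ENNReal.ofReal_one, tsub_le_iff_right]
    calc (1 : ENNReal) = _ := h2.symm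
      _ ≤ _ := by gcongr
  rw [withDensity_apply _ hEv]
  have hd : ∀ y, 0 ≤ (𝒯.card : ℝ)⁻¹ := fun _ => by positivity
  have hae : ∀ᵐ y ∂P.restrict (Ev F B m₀ n (1 / 12)),
      ENNReal.ofReal (rho 𝒯 l (fun _ => 1 / 2) K y) =
        ENNReal.ofReal ((𝒯.card : ℝ)⁻¹) * ∑ T ∈ 𝒯, ENNReal.ofReal (W s (sgn T) y) := by
    apply ae_restrict_of_ae
    filter_upwards [ae_mem_Icc s] with y hy
    rw [rho_eq, div_eq_inv_mul, ENNReal.ofReal_mul (by positivity),
      ENNReal.ofReal_sum_of_nonneg fun T _ => W_nonneg (abs_sgn T) hy]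
  rw [lintegral_congr_ae hae, lintegral_const_mul' _ _ ENNReal.ofReal_ne_top,
    lintegral_finsetSum _ fun T _ => (measurable_W s _).ennreal_ofReal]
  calc ENNReal.ofReal ((𝒢.card : ℝ) / 𝒯.card * (1 - ε))
      = ENNReal.ofReal ((𝒯.card : ℝ)⁻¹) * ∑ T ∈ 𝒢, ENNReal.ofReal (1 - ε) := by
        rw [Finset.sum_const, nsmul_eq_mul, ← ENNReal.ofReal_natCast,
          ← ENNReal.ofReal_mul (by positivity), ← ENNReal.ofReal_mul (by positivity)]
        congr 1
        ring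
    _ ≤ ENNReal.ofReal ((𝒯.card : ℝ)⁻¹) * ∑ T ∈ 𝒢,
        ∫⁻ y in Ev F B m₀ n (1 / 12), ENNReal.ofReal (W s (sgn T) y) ∂P := by
        gcongr with T hTT
        exact hT T hTT
    _ ≤ _ := by
        gcongr
        exact Finset.filter_subset _ _

end Vale.Agent.FUSF
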