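import Vale.Agent.FUSF.Schemes

/-!
# P143, one dimensional transport and one step of the sequential scheme
-/

open MeasureTheory Set

namespace Vale.Agent.FUSF

theorem Fd_eq (s y : ℝ) : Fd s y = y - s * (y * (1 - y)) := by unfold Fd; ring

theorem Fd_mem {s y : ℝ} (hs : |s| < 1) (hy : y ∈ Icc (0 : ℝ) 1) : Fd s y ∈ Icc (0 : ℝ) 1 := by
  obtain ⟨h0, h1⟩ := hy
  obtain ⟨a, b⟩ := abs_lt.1 hs
  have e1 : Fd s y = y * (1 - s * (1 - y)) := by unfold Fd; ring
  have e2 : 1 - Fd s y = (1 - y) * (1 + s * y) := by unfold Fd; ring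
  constructor
  · rw [e1]; apply mul_nonneg h0; nlinarith
  · have : 0 ≤ (1 - y) * (1 + s * y) := mul_nonneg (by linarith) (by nlinarith)
    linarith

theorem Finv_Fd {s y : ℝ} (hs : |s| < 1) (hy : y ∈ Icc (0 : ℝ) 1) : Finv s (Fd s y) = y := by
  obtain ⟨h0, h1⟩ := hy
  obtain ⟨a, b⟩ := abs_lt.1 hs
  have e : (1 - s) ^ 2 + 4 * s * Fd s y = ((1 - s) + 2 * s * y) ^ 2 := by unfold Fd; ring
  have h2 : 0 ≤ (1 - s) + 2 * s * y := by nlinarith
  have h3 : 0 < 1 - s * (1 - y) := by nlinarith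
  unfold Finv
  rw [e, Real.sqrt_sq h2]
  have e3 : 2 * Fd s y = y * ((1 - s) + ((1 - s) + 2 * s * y)) := by unfold Fd; ring
  have h4 : (1 - s) + ((1 - s) + 2 * s * y) ≠ 0 := by
    have : (1 - s) + ((1 - s) + 2 * s * y) = 2 * (1 - s * (1 - y)) := by ring
    rw [this]; positivity
  rw [e3, mul_div_assoc, div_self h4, mul_one]

theorem continuous_Fd (s : ℝ) : Continuous (Fd s) := by unfold Fd; fun_prop

theorem image_Fd {s : ℝ} (hs : |s| < 1) : Fd s '' Icc 0 1 = Icc (0 : ℝ) 1 := by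
  apply Subset.antisymm
  · rintro _ ⟨y, hy, rfl⟩; exact Fd_mem hs hy
  · have := intermediate_value_Icc (zero_le_one' ℝ) (continuous_Fd s).continuousOn
    have h0 : Fd s 0 = 0 := by simp [Fd]
    have h1 : Fd s 1 = 1 := by simp [Fd]
    rwa [h0, h1] at this

theorem Finv_mem {s u : ℝ} (hs : |s| < 1) (hu : u ∈ Icc (0 : ℝ) 1) : Finv s u ∈ Icc (0 : ℝ) 1 := by
  rw [← image_Fd hs] at hu
  obtain ⟨y, hy, rfl⟩ := hu
  rw [Finv_Fd hs hy]; exact hy

theorem Fd_Finv {s u : ℝ} (hs : |s| < 1) (hu : u ∈ Icc (0 : ℝ) 1) : Fd s (Finv s u) = u := by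
  rw [← image_Fd hs] at hu
  obtain ⟨y, hy, rfl⟩ := hu
  rw [Finv_Fd hs hy]

theorem hasDerivAt_Fd (s y : ℝ) : HasDerivAt (Fd s) (1 + s * (2 * y - 1)) y := by
  have h : HasDerivAt (fun y : ℝ => (1 - s) * y + s * y ^ 2) ((1 - s) * 1 + s * (2 * y)) y := by
    have h2 : HasDerivAt (fun y : ℝ => y ^ 2) (2 * y) y := by simpa using hasDerivAt_pow 2 y
    exact ((hasDerivAt_id y).const_mul (1 - s)).add (h2.const_mul s)
  have e : (1 - s) * 1 + s * (2 * y) = 1 + s * (2 * y - 1) := by ring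
  rw [← e]
  exact h

theorem injOn_Fd {s : ℝ} (hs : |s| < 1) : InjOn (Fd s) (Icc 0 1) := by
  intro y hy z hz h
  rw [← Finv_Fd hs hy, h, Finv_Fd hs hz]

theorem dens_pos {s y : ℝ} (hs : |s| < 1) (hy : y ∈ Icc (0 : ℝ) 1) : 0 < 1 + s * (2 * y - 1) := by
  obtain ⟨h0, h1⟩ := hy
  have h2 : |2 * y - 1| ≤ 1 := abs_le.2 ⟨by linarith, by linarith⟩
  have h3 : |s * (2 * y - 1)| < 1 := by
    rw [abs_mul]; nlinarith [abs_nonneg s, abs_nonneg (2 * y - 1)]
  linarith [(abs_lt.1 h3).1]

theorem lintegral_Fd {s : ℝ} (hs : |s| < 1) (G : ℝ → ENNReal) :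
    ∫⁻ t in Icc (0 : ℝ) 1, ENNReal.ofReal (1 + s * (2 * t - 1)) * G (Fd s t) =
      ∫⁻ u in Icc (0 : ℝ) 1, G u := by
  have h := lintegral_image_eq_lintegral_abs_deriv_mul (measurableSet_Icc (a := (0 : ℝ)) (b := 1))
    (fun x _ => (hasDerivAt_Fd s x).hasDerivWithinAt) (injOn_Fd hs) G
  rw [image_Fd hs] at h
  rw [h]
  apply setLIntegral_congr_fun measurableSet_Icc
  intro t ht
  simp only
  rw [abs_of_pos (dens_pos hs ht)]

theorem lintegral_transport {s s' : ℝ} (hs : |s| < 1) (hs' : |s'| < 1) (G : ℝ → ENNReal) :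
    ∫⁻ t, ENNReal.ofReal (1 + s * (2 * t - 1)) * G (Finv s' (Fd s t)) ∂unifR =
      ∫⁻ t, ENNReal.ofReal (1 + s' * (2 * t - 1)) * G t ∂unifR := by
  unfold unifR
  rw [lintegral_Fd hs (fun u => G (Finv s' u)), ← lintegral_Fd hs' (fun u => G (Finv s' u))]
  apply setLIntegral_congr_fun measurableSet_Icc
  intro t ht
  simp only
  rw [Finv_Fd hs' ht]

instance : IsProbabilityMeasure unifR := ⟨by simp [unifR]⟩

variable {ι : Type*} [DecidableEq ι]

/-- Splitting off one coordinate of a product measure. -/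
theorem map_update_infinitePi (i : ι) :
    ((Measure.infinitePi (fun _ : ι => unifR)).prod unifR).map
      (fun p => Function.update p.1 i p.2) = Measure.infinitePi (fun _ : ι => unifR) := by
  apply Measure.eq_infinitePi
  intro s t ht
  rw [Measure.map_apply measurable_update' (MeasurableSet.pi s.countable_toSet fun i _ => ht i)]
  have hpre : (fun p : (ι → ℝ) × ℝ => Function.update p.1 i p.2) ⁻¹' ((s : Set ι).pi t) =
      (((s.erase i : Finset ι) : Set ι).pi t) ×ˢ (if i ∈ s then t i else univ) := by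
    ext ⟨y, u⟩
    simp only [mem_preimage, Set.mem_pi, Finset.mem_coe, mem_prod, Finset.mem_erase]
    constructor
    · intro h
      refine ⟨fun j hj => ?_, ?_⟩
      · have := h j hj.2
        rwa [Function.update_of_ne hj.1] at this
      · split_ifs with hi
        · simpa using h i hi
        · trivial
    · rintro ⟨h1, h2⟩ j hj
      by_cases hji : j = i
      · subst hji
        simpa [hj] using h2
      · rw [Function.update_of_ne hji]
        exact h1 j ⟨hji, hj⟩
  rw [hpre, Measure.prod_prod, Measure.infinitePi_pi _ (fun i _ => ht i)]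
  split_ifs with hi
  · rw [mul_comm, Finset.mul_prod_erase s (fun i => unifR (t i)) hi]
  · rw [measure_univ, mul_one, Finset.erase_eq_of_notMem hi]

theorem lintegral_split (i : ι) {g : (ι → ℝ) → ENNReal} (hg : Measurable g) :
    ∫⁻ y, g y ∂(Measure.infinitePi (fun _ : ι => unifR)) =
      ∫⁻ y, ∫⁻ t, g (Function.update y i t) ∂unifR ∂(Measure.infinitePi (fun _ : ι => unifR)) := by
  conv_lhs => rw [← map_update_infinitePi i]
  rw [lintegral_map hg measurable_update', lintegral_prod]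
  exact (hg.comp measurable_update').aemeasurable

theorem measurable_tau : Measurable (fun p : ℝ × ℝ × ℝ × ℝ => tau p.1 p.2.1 p.2.2.1 p.2.2.2) := by
  unfold tau Finv Fd
  fun_prop

/-- One step: densities of the form `B (1 + θ σ (2 y i - 1))` with `B`, `σ` not depending on the
coordinate `i`. -/
theorem map_step (i : ι) {θ h : ℝ} (hθ : |θ| < 1) (hθ' : |θ + h| < 1)
    {B σ : (ι → ℝ) → ℝ} (hBm : Measurable B) (hσm : Measurable σ)
    (hB : ∀ y t, B (Function.update y i t) = B y) (hσ : ∀ y t, σ (Function.update y i t) = σ y)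
    (hσ1 : ∀ᵐ y ∂(Measure.infinitePi (fun _ : ι => unifR)), |σ y| ≤ 1)
    (hB0 : ∀ᵐ y ∂(Measure.infinitePi (fun _ : ι => unifR)), 0 ≤ B y) :
    ((Measure.infinitePi (fun _ : ι => unifR)).withDensity
      (fun y => ENNReal.ofReal (B y * (1 + θ * σ y * (2 * y i - 1))))).map
      (fun y => Function.update y i (tau θ h (σ y) (y i))) =
    (Measure.infinitePi (fun _ : ι => unifR)).withDensity
      (fun y => ENNReal.ofReal (B y * (1 + (θ + h) * σ y * (2 * y i - 1)))) := by
  have hi : Measurable fun y : ι → ℝ => y i := measurable_pi_apply i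
  have hτ : Measurable fun y : ι → ℝ => tau θ h (σ y) (y i) := by
    have : Measurable fun y : ι → ℝ => ((θ, h, σ y, y i) : ℝ × ℝ × ℝ × ℝ) := by fun_prop
    exact measurable_tau.comp this
  have hT : Measurable fun y : ι → ℝ => Function.update y i (tau θ h (σ y) (y i)) := by
    have : Measurable fun y : ι → ℝ => ((y, tau θ h (σ y) (y i)) : (ι → ℝ) × ℝ) := by fun_prop
    exact measurable_update'.comp this
  have hd : ∀ θ : ℝ, Measurable fun y : ι → ℝ =>
      ENNReal.ofReal (B y * (1 + θ * σ y * (2 * y i - 1))) := by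
    intro θ; fun_prop
  apply Measure.ext_of_lintegral
  intro g hg
  have hgT : Measurable fun y : ι → ℝ => g (Function.update y i (tau θ h (σ y) (y i))) :=
    hg.comp hT
  rw [lintegral_map hg hT, lintegral_withDensity_eq_lintegral_mul _ (hd θ) hgT,
    lintegral_withDensity_eq_lintegral_mul _ (hd (θ + h)) hg,
    lintegral_split i ((hd θ).mul hgT), lintegral_split i ((hd (θ + h)).mul hg)]
  apply lintegral_congr_ae
  filter_upwards [hσ1, hB0] with y hy1 hy0
  simp only [Pi.mul_apply, hB, hσ, Function.update_self, Function.update_idem]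
  have h1 : |θ * σ y| < 1 := by
    rw [abs_mul]; nlinarith [abs_nonneg θ, abs_nonneg (σ y)]
  have h2 : |(θ + h) * σ y| < 1 := by
    rw [abs_mul]; nlinarith [abs_nonneg (θ + h), abs_nonneg (σ y)]
  have key := lintegral_transport h1 h2 (fun t => g (Function.update y i t))
  have hs : ∀ t, ENNReal.ofReal (B y * (1 + θ * σ y * (2 * t - 1))) *
      g (Function.update y i (tau θ h (σ y) t)) = ENNReal.ofReal (B y) *
      (ENNReal.ofReal (1 + θ * σ y * (2 * t - 1)) *
        g (Function.update y i (Finv ((θ + h) * σ y) (Fd (θ * σ y) t)))) := by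
    intro t
    rw [ENNReal.ofReal_mul hy0, mul_assoc]; rfl
  have hs' : ∀ t, ENNReal.ofReal (B y * (1 + (θ + h) * σ y * (2 * t - 1))) *
      g (Function.update y i t) = ENNReal.ofReal (B y) *
      (ENNReal.ofReal (1 + (θ + h) * σ y * (2 * t - 1)) * g (Function.update y i t)) := by
    intro t
    rw [ENNReal.ofReal_mul hy0, mul_assoc]
  rw [lintegral_congr hs, lintegral_congr hs', lintegral_const_mul' _ _ ENNReal.ofReal_ne_top,
    lintegral_const_mul' _ _ ENNReal.ofReal_ne_top, key]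

end Vale.Agent.FUSF
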