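import Vale.Agent.FUSF.Defs
import Vale.Agent.FUSF.Transport

/-!
# One uniform label gives countably many iid labels
-/

open MeasureTheory Set
open scoped unitInterval

namespace Vale.Agent.FUSF

/-- A uniform variable on `[0,1]` can be decoded into countably many iid variables with a given
law on a standard Borel space. -/
theorem exists_decode (κ : Type*) [Countable κ] {Y : Type*} [Nonempty Y] [MeasurableSpace Y]
    [StandardBorelSpace Y] (ν : Measure Y) [IsProbabilityMeasure ν] :
    ∃ dec : I → κ → Y, Measurable dec ∧
      (volume : Measure I).map dec = Measure.infinitePi (fun _ : κ => ν) :=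
  Measure.exists_measurable_map_eq (Measure.infinitePi (fun _ : κ => ν))

/-- Applying a decoder to every label of an iid family. -/
theorem map_spread {V κ Y : Type*} [MeasurableSpace Y] (ν : Measure Y) [IsProbabilityMeasure ν]
    {dec : I → κ → Y} (hdec : Measurable dec)
    (hmap : (volume : Measure I).map dec = Measure.infinitePi (fun _ : κ => ν)) :
    (iidUnif V).map (fun U (p : V × κ) => dec (U p.1) p.2) =
      Measure.infinitePi (fun _ : V × κ => ν) := by
  have h1 : (iidUnif V).map (fun U v => dec (U v)) =
      Measure.infinitePi (fun _ : V => Measure.infinitePi (fun _ : κ => ν)) := by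
    unfold iidUnif
    rw [Measure.infinitePi_map_pi (f := fun _ => dec) _ (fun _ => hdec)]
    simp only [hmap]
  have h2 := Measure.infinitePi_map_curry_symm (fun (_ : V) (_ : κ) => ν)
  rw [← h1, Measure.map_map (by fun_prop) (by fun_prop)] at h2
  exact h2

/-- Two independent iid families, glued together. -/
theorem map_sumElim {α β Y : Type*} [MeasurableSpace Y] (ν : Measure Y) [IsProbabilityMeasure ν] :
    ((Measure.infinitePi (fun _ : α => ν)).prod (Measure.infinitePi (fun _ : β => ν))).map
      (fun p => Sum.elim p.1 p.2) = Measure.infinitePi (fun _ : α ⊕ β => ν) := by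
  apply Measure.eq_infinitePi
  intro s t ht
  have hm : Measurable fun p : (α → Y) × (β → Y) => (Sum.elim p.1 p.2 : α ⊕ β → Y) := by
    rw [measurable_pi_iff]
    rintro (a | b)
    · exact (measurable_pi_apply a).comp measurable_fst
    · exact (measurable_pi_apply b).comp measurable_snd
  rw [Measure.map_apply hm (MeasurableSet.pi s.countable_toSet fun i _ => ht i)]
  have hpre : (fun p : (α → Y) × (β → Y) => (Sum.elim p.1 p.2 : α ⊕ β → Y)) ⁻¹'
      ((s : Set (α ⊕ β)).pi t) =
      ((s.toLeft : Set α).pi (fun a => t (Sum.inl a))) ×ˢ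
        ((s.toRight : Set β).pi (fun b => t (Sum.inr b))) := by
    ext ⟨y, z⟩
    simp only [mem_preimage, Set.mem_pi, Finset.mem_coe, mem_prod, Finset.mem_toLeft,
      Finset.mem_toRight, Sum.forall, Sum.elim_inl, Sum.elim_inr]
  rw [hpre, Measure.prod_prod, Measure.infinitePi_pi _ (fun i _ => ht _),
    Measure.infinitePi_pi _ (fun i _ => ht _)]
  conv_rhs => rw [← Finset.toLeft_disjSum_toRight (u := s)]
  rw [Finset.prod_disjSum]

end Vale.Agent.FUSF
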